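import Mathlib

/-!
# R248: augmented single-sorted globular sets

An `AG` is a globular set with all cells in one type.  It is *augmented*: there is a unique cell
`pt` of dimension `0`, and a genuine `n`-cell has dimension `n + 1`.  `d false` is the source,
`d true` the target.
-/

set_option autoImplicit false

namespace Crest.Agent.R248

universe u

/-- Augmented single-sorted globular sets. -/
structure AG where
  A : Type u
  dim : A → ℕ
  d : Bool → A → A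
  pt : A
  dim_pt : dim pt = 0
  eq_pt : ∀ x, dim x = 0 → x = pt
  dim_d : ∀ b x, dim (d b x) = dim x - 1
  dd : ∀ b c c' x, d b (d c x) = d b (d c' x)

namespace AG

/-- Maps of augmented globular sets. -/
@[ext] structure Map (X Y : AG.{u}) where
  f : X.A → Y.A
  dim_f : ∀ x, Y.dim (f x) = X.dim x
  d_f : ∀ b x, Y.d b (f x) = f (X.d b x)

instance (X Y : AG.{u}) : CoeFun (Map X Y) fun _ => X.A → Y.A := ⟨Map.f⟩

/-- The identity. -/
def Map.id (X : AG.{u}) : Map X X := ⟨fun x => x, fun _ => rfl, fun _ _ => rfl⟩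

/-- Composition (`g.comp f = g ∘ f`). -/
def Map.comp {X Y Z : AG.{u}} (g : Map Y Z) (f : Map X Y) : Map X Z :=
  ⟨fun x => g (f x), fun x => by rw [g.dim_f, f.dim_f], fun b x => by rw [g.d_f, f.d_f]⟩

@[simp] theorem Map.id_apply (X : AG.{u}) (x : X.A) : Map.id X x = x := rfl
@[simp] theorem Map.comp_apply {X Y Z : AG.{u}} (g : Map Y Z) (f : Map X Y) (x : X.A) :
    g.comp f x = g (f x) := rfl

variable (X : AG.{u})

/-- Parallel cells. -/
def Par (x y : X.A) : Prop := X.dim x = X.dim y ∧ ∀ b, X.d b x = X.d b y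

/-- `e` is a cell from `x` to `y`. -/
def Arr (e x y : X.A) : Prop := X.dim e = X.dim x + 1 ∧ X.d false e = x ∧ X.d true e = y

/-- There is a cell from `x` to `y`. -/
def Step (x y : X.A) : Prop := ∃ e, X.Arr e x y

/-- The `j`-dimensional face on the side `b` (the cell itself if `dim x ≤ j`). -/
def fc (b : Bool) (j : ℕ) (x : X.A) : X.A := (X.d b)^[X.dim x - j] x

/-- `γ` is a higher cell with iterated source `x` and iterated target `x'`. -/
def In (x x' γ : X.A) : Prop :=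
  X.dim x < X.dim γ ∧ X.fc false (X.dim x) γ = x ∧ X.fc true (X.dim x) γ = x'

/-- `p, γ, q` can be whiskered: `γ` runs from the target of `p` to the source of `q`. -/
def Cmp (p γ q : X.A) : Prop :=
  2 ≤ X.dim p ∧ X.dim q = X.dim p ∧ X.In (X.d true p) (X.d false q) γ

variable {X} {Y Z : AG.{u}}

theorem d_pt (b : Bool) : X.d b X.pt = X.pt := X.eq_pt _ (by rw [X.dim_d, X.dim_pt])

theorem Map.pt (f : Map X Y) : f X.pt = Y.pt := Y.eq_pt _ (by rw [f.dim_f, X.dim_pt])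

theorem Par.refl (x : X.A) : X.Par x x := ⟨rfl, fun _ => rfl⟩
theorem Par.symm {x y : X.A} (h : X.Par x y) : X.Par y x := ⟨h.1.symm, fun b => (h.2 b).symm⟩
theorem Par.trans {x y z : X.A} (h : X.Par x y) (h' : X.Par y z) : X.Par x z :=
  ⟨h.1.trans h'.1, fun b => (h.2 b).trans (h'.2 b)⟩
theorem par_d (b c : Bool) (x : X.A) : X.Par (X.d b x) (X.d c x) :=
  ⟨by rw [X.dim_d, X.dim_d], fun e => X.dd e b c x⟩
theorem Par.map (f : Map X Y) {x y : X.A} (h : X.Par x y) : Y.Par (f x) (f y) :=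
  ⟨by rw [f.dim_f, f.dim_f, h.1], fun b => by rw [f.d_f, f.d_f, h.2]⟩

theorem Arr.par {e x y : X.A} (h : X.Arr e x y) : X.Par x y := by
  rw [← h.2.1, ← h.2.2]; exact par_d _ _ _
theorem Arr.dim_tgt {e x y : X.A} (h : X.Arr e x y) : X.dim e = X.dim y + 1 := by
  rw [← h.par.1]; exact h.1
theorem Arr.d_eq {e x y : X.A} (h : X.Arr e x y) (b : Bool) : X.d b e = if b then y else x := by
  cases b
  · exact h.2.1
  · exact h.2.2
theorem arr_self {e : X.A} (h : 1 ≤ X.dim e) : X.Arr e (X.d false e) (X.d true e) :=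
  ⟨by rw [X.dim_d]; omega, rfl, rfl⟩
theorem Arr.par_arr {e e' x y : X.A} (h : X.Arr e x y) (h' : X.Arr e' x y) : X.Par e e' :=
  ⟨h.1.trans h'.1.symm, fun b => by rw [h.d_eq, h'.d_eq]⟩
theorem Arr.of_par {e e' x y : X.A} (h : X.Arr e x y) (h' : X.Par e e') : X.Arr e' x y :=
  ⟨h'.1 ▸ h.1, h'.2 false ▸ h.2.1, h'.2 true ▸ h.2.2⟩
theorem Arr.map (f : Map X Y) {e x y : X.A} (h : X.Arr e x y) : Y.Arr (f e) (f x) (f y) :=
  ⟨by rw [f.dim_f, f.dim_f, h.1], by rw [f.d_f, h.2.1], by rw [f.d_f, h.2.2]⟩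
theorem Step.par {x y : X.A} (h : X.Step x y) : X.Par x y := h.choose_spec.par
theorem Step.map (f : Map X Y) {x y : X.A} (h : X.Step x y) : Y.Step (f x) (f y) :=
  ⟨_, h.choose_spec.map f⟩

/-! ### Iterated faces -/

theorem dim_iter (b : Bool) (n : ℕ) (x : X.A) : X.dim ((X.d b)^[n] x) = X.dim x - n := by
  induction n with
  | zero => rfl
  | succ n ih => rw [Function.iterate_succ_apply', X.dim_d, ih]; omega

theorem dim_fc (b : Bool) (j : ℕ) (x : X.A) : X.dim (X.fc b j x) = min j (X.dim x) := by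
  rw [fc, dim_iter]; omega

theorem dim_fc_of_le (b : Bool) {j : ℕ} {x : X.A} (h : j ≤ X.dim x) : X.dim (X.fc b j x) = j := by
  rw [dim_fc]; omega

theorem fc_of_le (b : Bool) {j : ℕ} {x : X.A} (h : X.dim x ≤ j) : X.fc b j x = x := by
  rw [fc, Nat.sub_eq_zero_of_le h]; rfl

theorem fc_d_same (b : Bool) {j : ℕ} {x : X.A} (h : j < X.dim x) :
    X.fc b j (X.d b x) = X.fc b j x := by
  rw [fc, fc, X.dim_d, ← Function.iterate_succ_apply]
  congr 1; omega

theorem fc_succ (b : Bool) {j : ℕ} {x : X.A} (h : X.dim x = j + 1) : X.fc b j x = X.d b x := by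
  rw [← fc_d_same b (by omega), fc_of_le b (by rw [X.dim_d]; omega)]

theorem fc_d (b c : Bool) {j : ℕ} {x : X.A} (h : j + 1 < X.dim x) :
    X.fc b j (X.d c x) = X.fc b j x := by
  rw [← fc_d_same b (x := X.d c x) (by rw [X.dim_d]; omega), X.dd b c b,
    fc_d_same b (by rw [X.dim_d]; omega), fc_d_same b (by omega)]

theorem fc_iter (b c : Bool) {j : ℕ} (n : ℕ) {x : X.A} (h : j + n < X.dim x) :
    X.fc b j ((X.d c)^[n] x) = X.fc b j x := by
  induction n with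
  | zero => rfl
  | succ n ih =>
    rw [Function.iterate_succ_apply', fc_d b c (by rw [dim_iter]; omega), ih (by omega)]

theorem fc_fc (b c : Bool) {j j' : ℕ} (h : j < j') (x : X.A) :
    X.fc b j (X.fc c j' x) = X.fc b j x := by
  by_cases h' : X.dim x ≤ j'
  · rw [fc_of_le c h']
  · exact fc_iter b c _ (by omega)

theorem d_fc (b c : Bool) {j : ℕ} {x : X.A} (h : j + 1 ≤ X.dim x) :
    X.d b (X.fc c (j + 1) x) = X.fc b j x := by
  rw [← fc_succ b (dim_fc_of_le c h), fc_fc b c (Nat.lt_succ_self j)]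

theorem fc_zero (b : Bool) (x : X.A) : X.fc b 0 x = X.pt := X.eq_pt _ (by rw [dim_fc]; omega)

theorem par_fc (b c : Bool) (j : ℕ) (x : X.A) : X.Par (X.fc b j x) (X.fc c j x) := by
  by_cases h : X.dim x ≤ j
  · rw [fc_of_le b h, fc_of_le c h]; exact Par.refl _
  · cases j with
    | zero => rw [fc_zero, fc_zero]; exact Par.refl _
    | succ j =>
      exact ⟨by rw [dim_fc, dim_fc], fun e => by rw [d_fc e b (by omega), d_fc e c (by omega)]⟩

theorem Par.fc_eq {x y : X.A} (h : X.Par x y) (b : Bool) {j : ℕ} (hj : j < X.dim x) :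
    X.fc b j x = X.fc b j y := by
  rw [← fc_d_same b hj, h.2, fc_d_same b (h.1 ▸ hj)]

theorem Map.fc_f (f : Map X Y) (b : Bool) (j : ℕ) (x : X.A) :
    Y.fc b j (f x) = f (X.fc b j x) := by
  rw [fc, fc, f.dim_f]
  generalize X.dim x - j = n
  induction n with
  | zero => rfl
  | succ n ih => rw [Function.iterate_succ_apply', Function.iterate_succ_apply', ih, f.d_f]

/-! ### Higher cells between two cells -/

theorem Arr.isIn {e x y : X.A} (h : X.Arr e x y) : X.In x y e :=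
  ⟨by rw [h.1]; omega, by rw [fc_succ _ h.1, h.2.1], by rw [fc_succ _ h.1, h.2.2]⟩

theorem In.arr {x y e : X.A} (h : X.In x y e) (he : X.dim e = X.dim x + 1) : X.Arr e x y :=
  ⟨he, by rw [← fc_succ _ he, h.2.1], by rw [← fc_succ _ he, h.2.2]⟩

theorem In.par {x y e : X.A} (h : X.In x y e) : X.Par x y := by
  have := par_fc false true (X.dim x) e
  rwa [h.2.1, h.2.2] at this

theorem In.d {x y e : X.A} (h : X.In x y e) (he : X.dim x + 1 < X.dim e) (b : Bool) :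
    X.In x y (X.d b e) :=
  ⟨by rw [X.dim_d]; omega, by rw [fc_d _ _ he, h.2.1], by rw [fc_d _ _ he, h.2.2]⟩

theorem In.of_par {x y e e' : X.A} (h : X.In x y e) (h' : X.Par e e') : X.In x y e' :=
  ⟨h'.1 ▸ h.1, by rw [← h'.fc_eq _ h.1, h.2.1], by rw [← h'.fc_eq _ h.1, h.2.2]⟩

theorem In.trans {x y g g' e : X.A} (h : X.In x y g) (h' : X.In g g' e) : X.In x y e := by
  refine ⟨h.1.trans h'.1, ?_, ?_⟩
  · rw [← fc_fc false false h.1, h'.2.1, h.2.1]
  · rw [← fc_fc true false h.1, h'.2.1, h.2.2]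

theorem In.map (f : Map X Y) {x y e : X.A} (h : X.In x y e) : Y.In (f x) (f y) (f e) :=
  ⟨by rw [f.dim_f, f.dim_f]; exact h.1, by rw [f.dim_f, f.fc_f, h.2.1],
    by rw [f.dim_f, f.fc_f, h.2.2]⟩

theorem Cmp.map (f : Map X Y) {p γ q : X.A} (h : X.Cmp p γ q) : Y.Cmp (f p) (f γ) (f q) :=
  ⟨by rw [f.dim_f]; exact h.1, by rw [f.dim_f, f.dim_f]; exact h.2.1,
    by rw [f.d_f, f.d_f]; exact h.2.2.map f⟩

theorem Cmp.dim_le {p γ q : X.A} (h : X.Cmp p γ q) : X.dim p ≤ X.dim γ := by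
  have h1 := h.2.2.1
  have h2 := h.1
  rw [X.dim_d] at h1; omega

theorem Cmp.d {p γ q : X.A} (h : X.Cmp p γ q) (hd : X.dim p < X.dim γ) (b : Bool) :
    X.Cmp p (X.d b γ) q :=
  ⟨h.1, h.2.1, h.2.2.d (by have := h.1; rw [X.dim_d]; omega) b⟩

theorem Cmp.of_in {p γ q g g' : X.A} (h : X.Cmp p g q) (h' : X.In g g' γ) : X.Cmp p γ q :=
  ⟨h.1, h.2.1, h.2.2.trans h'⟩

theorem Cmp.of_par {p γ q γ' : X.A} (h : X.Cmp p γ q) (h' : X.Par γ γ') : X.Cmp p γ' q :=
  ⟨h.1, h.2.1, h.2.2.of_par h'⟩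

/-! ### Lifting properties -/

/-- Trivial fibration for cells of dimension `≤ N`. -/
def TF (N : ℕ) (f : Map X Y) : Prop :=
  ∀ c c', X.Par c c' → X.dim c < N → ∀ y, Y.Arr y (f c) (f c') → ∃ e, X.Arr e c c' ∧ f e = y

/-- The pair `p` jointly lifts cells with prescribed source `c`, for `m ≤ dim c ≤ N`. -/
def Fib (m N : ℕ) (p : Bool → Map X Y) : Prop :=
  ∀ c, m ≤ X.dim c → X.dim c ≤ N → ∀ y : Bool → Y.A,
    (∀ ε, Y.dim (y ε) = X.dim c + 1 ∧ Y.d false (y ε) = p ε c) →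
    ∃ e, X.dim e = X.dim c + 1 ∧ X.d false e = c ∧ ∀ ε, p ε e = y ε

/-- Bijective on cells of dimension `≤ N`. -/
def BijLe (N : ℕ) (f : Map X Y) : Prop :=
  (∀ c c', X.dim c ≤ N → f c = f c' → c = c') ∧ ∀ y, Y.dim y ≤ N → ∃ c, f c = y

theorem TF.mono {N N' : ℕ} {f : Map X Y} (h : TF N f) (hN : N' ≤ N) : TF N' f :=
  fun c c' hp hc => h c c' hp (by omega)

theorem TF.comp {N : ℕ} {f : Map X Y} {g : Map Y Z} (hg : TF N g) (hf : TF N f) :
    TF N (g.comp f) := by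
  intro c c' hp hc y hy
  obtain ⟨e, he, rfl⟩ := hg (f c) (f c') (hp.map f) (by rw [f.dim_f]; exact hc) y hy
  obtain ⟨e', he', rfl⟩ := hf c c' hp hc e he
  exact ⟨e', he', rfl⟩

theorem BijLe.tf {N : ℕ} {f : Map X Y} (h : BijLe N f) : TF N f := by
  intro c c' hp hc y hy
  have hd : Y.dim y = X.dim c + 1 := by rw [hy.1, f.dim_f]
  obtain ⟨e, rfl⟩ := h.2 y (by omega)
  rw [f.dim_f] at hd
  refine ⟨e, ⟨hd, h.1 _ _ (by rw [X.dim_d]; omega) ?_, h.1 _ _ (by rw [X.dim_d]; omega) ?_⟩, rfl⟩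
  · rw [← f.d_f, hy.2.1]
  · rw [← f.d_f, hy.2.2]

theorem bijLe_of_bijective {f : Map X Y} (h : Function.Bijective f) (N : ℕ) : BijLe N f :=
  ⟨fun _ _ _ e => h.1 e, fun y _ => h.2 y⟩

theorem bijLe_id (N : ℕ) : BijLe N (Map.id X) := ⟨fun _ _ _ e => e, fun y _ => ⟨y, rfl⟩⟩

theorem BijLe.mono {N N' : ℕ} {f : Map X Y} (h : BijLe N f) (hN : N' ≤ N) : BijLe N' f :=
  ⟨fun c c' hc => h.1 c c' (by omega), fun y hy => h.2 y (by omega)⟩

theorem BijLe.par {N : ℕ} {f : Map X Y} (h : BijLe N f) {c c' : X.A} (hc : X.dim c ≤ N + 1)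
    (hp : Y.Par (f c) (f c')) : X.Par c c' :=
  ⟨by rw [← f.dim_f, hp.1, f.dim_f], fun b => h.1 _ _ (by rw [X.dim_d]; omega)
    (by rw [← f.d_f, ← f.d_f, hp.2])⟩

/-- Lifting a parallel cell. -/
theorem TF.lift_par {N : ℕ} {f : Map X Y} (h : TF N f) {g : X.A} (hg : X.dim g ≤ N) {y : Y.A}
    (hy : Y.Par (f g) y) : ∃ g', X.Par g g' ∧ f g' = y := by
  by_cases h0 : X.dim g = 0
  · refine ⟨g, Par.refl g, ?_⟩
    rw [Y.eq_pt y (by rw [← hy.1, f.dim_f, h0]), X.eq_pt g h0, f.pt]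
  · have ha : X.Arr g (X.d false g) (X.d true g) := arr_self (by omega)
    obtain ⟨e, he, rfl⟩ := h _ _ ha.par (by rw [X.dim_d]; omega) y ((ha.map f).of_par hy)
    exact ⟨e, ha.par_arr he, rfl⟩

/-- Lifting a cell with prescribed iterated source. -/
theorem TF.lift_face {N : ℕ} {f : Map X Y} (h : TF N f) (x : X.A) (n : ℕ) :
    ∀ y : Y.A, Y.dim y = X.dim x + n → Y.dim y ≤ N → Y.fc false (X.dim x) y = f x →
      ∃ a, f a = y ∧ X.fc false (X.dim x) a = x := by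
  induction n with
  | zero =>
    intro y hy _ hf
    rw [fc_of_le false (show Y.dim y ≤ X.dim x by omega)] at hf
    exact ⟨x, hf.symm, fc_of_le _ le_rfl⟩
  | succ n ih =>
    intro y hy hN hf
    obtain ⟨g, hg, hgx⟩ := ih (Y.d false y) (by rw [Y.dim_d]; omega) (by rw [Y.dim_d]; omega)
      (by rw [fc_d_same _ (by omega), hf])
    have hdg : X.dim g = X.dim x + n := by rw [← f.dim_f, hg, Y.dim_d]; omega
    obtain ⟨g', hgg, hg'⟩ := h.lift_par (g := g) (by omega) (y := Y.d true y)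
      (by rw [hg]; exact par_d _ _ _)
    obtain ⟨a, ha, rfl⟩ := h g g' hgg (by omega) y (by rw [hg, hg']; exact arr_self (by omega))
    refine ⟨a, rfl, ?_⟩
    rw [← fc_d_same _ (by rw [ha.1]; omega), ha.2.1, hgx]

/-- Transfer of `TF` along a map `η` that is bijective in low dimensions. -/
theorem TF.of_bijLe {N : ℕ} {η : Map X Y} {f : Map Y Z} (hη : BijLe N η)
    (h : TF (N + 1) (f.comp η)) : TF (N + 1) f := by
  intro c c' hp hc y hy
  obtain ⟨a, rfl⟩ := hη.2 c (by omega)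
  obtain ⟨a', rfl⟩ := hη.2 c' (by rw [← hp.1]; omega)
  rw [η.dim_f] at hc
  obtain ⟨e, he, rfl⟩ := h a a' (hη.par (by omega) hp) hc y hy
  exact ⟨η e, he.map η, rfl⟩

/-- Transfer of `Fib` along a map `η` that is bijective in low dimensions. -/
theorem Fib.of_bijLe {m N : ℕ} {η : Map X Y} {p : Bool → Map Y Z} (hη : BijLe N η)
    (h : Fib m N fun ε => (p ε).comp η) : Fib m N p := by
  intro c hm hc y hy
  obtain ⟨a, rfl⟩ := hη.2 c hc
  rw [η.dim_f] at hm hc hy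
  obtain ⟨e, h1, h2, h3⟩ := h a hm hc y hy
  exact ⟨η e, by rw [η.dim_f, η.dim_f, h1], by rw [η.d_f, h2], h3⟩

/-- Transfer of `Fib` to the source of a bijection. -/
theorem Fib.comp_bij {m N : ℕ} {j : Map X Y} {p : Bool → Map Y Z} (hj : Function.Bijective j)
    (h : Fib m N p) : Fib m N fun ε => (p ε).comp j := by
  intro c hm hc y hy
  obtain ⟨e, h1, h2, h3⟩ := h (j c) (by rwa [j.dim_f]) (by rwa [j.dim_f]) y
    (by simpa only [j.dim_f, Map.comp_apply] using hy)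
  obtain ⟨a, rfl⟩ := hj.2 e
  rw [j.dim_f, j.dim_f] at h1
  exact ⟨a, h1, hj.1 (by rw [← j.d_f, h2]), h3⟩

/-! ### Pullbacks -/

/-- The pullback. -/
def PB (f : Map X Z) (g : Map Y Z) : AG.{u} where
  A := {z : X.A × Y.A // f z.1 = g z.2}
  dim z := X.dim z.1.1
  d b z := ⟨(X.d b z.1.1, Y.d b z.1.2), by rw [← f.d_f, ← g.d_f, z.2]⟩
  pt := ⟨(X.pt, Y.pt), by rw [f.pt, g.pt]⟩
  dim_pt := X.dim_pt
  eq_pt z h := Subtype.ext (Prod.ext (X.eq_pt _ h)
    (Y.eq_pt _ (by rw [← g.dim_f, ← z.2, f.dim_f, h])))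
  dim_d b z := X.dim_d b _
  dd b c c' z := Subtype.ext (Prod.ext (X.dd b c c' _) (Y.dd b c c' _))

/-- First projection. -/
def PB.fst (f : Map X Z) (g : Map Y Z) : Map (PB f g) X := ⟨fun z => z.1.1, fun _ => rfl, fun _ _ => rfl⟩

/-- Second projection. -/
def PB.snd (f : Map X Z) (g : Map Y Z) : Map (PB f g) Y :=
  ⟨fun z => z.1.2, fun z => by
    change Y.dim z.1.2 = X.dim z.1.1
    rw [← g.dim_f, ← z.2, f.dim_f], fun _ _ => rfl⟩

/-- The universal map. -/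
def PB.lift {V : AG.{u}} {f : Map X Z} {g : Map Y Z} (a : Map V X) (b : Map V Y)
    (h : ∀ v, f (a v) = g (b v)) : Map V (PB f g) :=
  ⟨fun v => ⟨(a v, b v), h v⟩, fun v => a.dim_f v,
    fun c v => Subtype.ext (Prod.ext (a.d_f c v) (b.d_f c v))⟩

theorem PB.cond {f : Map X Z} {g : Map Y Z} (z : (PB f g).A) :
    f (PB.fst f g z) = g (PB.snd f g z) := z.2

theorem PB.ext {f : Map X Z} {g : Map Y Z} {z z' : (PB f g).A}
    (h1 : PB.fst f g z = PB.fst f g z') (h2 : PB.snd f g z = PB.snd f g z') : z = z' :=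
  Subtype.ext (Prod.ext h1 h2)

theorem PB.exists_arr {f : Map X Z} {g : Map Y Z} {z z' : (PB f g).A} {a : X.A} {b : Y.A}
    (ha : X.Arr a (PB.fst f g z) (PB.fst f g z')) (hb : Y.Arr b (PB.snd f g z) (PB.snd f g z'))
    (h : f a = g b) : ∃ e, (PB f g).Arr e z z' ∧ PB.fst f g e = a ∧ PB.snd f g e = b :=
  ⟨⟨(a, b), h⟩, ⟨ha.1, PB.ext ha.2.1 hb.2.1, PB.ext ha.2.2 hb.2.2⟩, rfl, rfl⟩

theorem TF.pb_fst {N : ℕ} (f : Map X Z) {g : Map Y Z} (h : TF N g) : TF N (PB.fst f g) := by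
  intro c c' hp hc a ha
  obtain ⟨b, hb, e⟩ := h _ _ (hp.map (PB.snd f g)) (by rwa [(PB.snd f g).dim_f]) (f a)
    (by rw [← PB.cond, ← PB.cond]; exact ha.map f)
  obtain ⟨z, hz, h1, -⟩ := PB.exists_arr ha hb e.symm
  exact ⟨z, hz, h1⟩

theorem TF.pb_snd {N : ℕ} {f : Map X Z} (g : Map Y Z) (h : TF N f) : TF N (PB.snd f g) := by
  intro c c' hp hc b hb
  obtain ⟨a, ha, e⟩ := h _ _ (hp.map (PB.fst f g)) (by rwa [(PB.fst f g).dim_f]) (g b)
    (by rw [PB.cond, PB.cond]; exact hb.map g)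
  obtain ⟨z, hz, -, h2⟩ := PB.exists_arr ha hb e
  exact ⟨z, hz, h2⟩

end AG

end Crest.Agent.R248
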