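import Crest.Agent.R248.OpsDef

/-!
# R248: representing objects (adjoint functor theorem by hand)
-/

set_option autoImplicit false
set_option backward.isDefEq.respectTransparency false

namespace Crest.Agent.R248

universe u

open CategoryTheory Opposite Crest.GeometryTopology.Coherator AG GlobTheory

variable {C : GlobTheory.{u}}

/-- Terms over a set of generators. -/
inductive RepTm (C : GlobTheory.{u}) (I : Type) : Shape → Type u
  | gen (i : I) (m : ℕ) : RepTm C I (Shape.globe m)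
  | act {S T : Shape} (o : C.arr S T) (a : RepTm C I T) : RepTm C I S
  | glue {S : Shape} {b h : ℕ} (hb : b < S.last) (hh : b < h) (a : RepTm C I S)
      (a' : RepTm C I (Shape.globe h)) : RepTm C I (S.glue b h hb hh)

namespace RepTm

variable {I : Type}

/-- `y` is the value of the term. -/
def Ev {Y : GlobModel C} (g : I → (U Y).A) : ∀ {S : Shape}, RepTm C I S → El Y S → Prop
  | _, .gen i m, y => cl m y = g i
  | _, .act o a, y => ∃ x, Ev g a x ∧ Y.act o x = y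
  | _, .glue (S := S) (b := b) (h := h) hb hh a a', y =>
      Ev g a (rs Y (S.inLeft b h hb hh) y) ∧ Ev g a' (rs Y (S.inRight b h hb hh) y)

theorem Ev.unique {Y : GlobModel C} {g : I → (U Y).A} {S : Shape} {a : RepTm C I S} :
    ∀ {y y' : El Y S}, Ev g a y → Ev g a y' → y = y' := by
  induction a with
  | gen i m => intro y y' h h'; exact cl_inj (h.trans h'.symm)
  | act o a ih =>
    rintro y y' ⟨x, hx, rfl⟩ ⟨x', hx', rfl⟩
    rw [ih hx hx']
  | glue hb hh a a' ih ih' =>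
    intro y y' h h'
    exact glue_el_ext Y (ih h.1 h'.1) (ih' h.2 h'.2)

theorem Ev.map {X Y : GlobModel C} (f : X ⟶ Y) {g : I → (U X).A} {g' : I → (U Y).A}
    (hg : ∀ i, Um f (g i) = g' i) {S : Shape} {a : RepTm C I S} :
    ∀ {y : El X S}, Ev g a y → Ev g' a (el f y) := by
  induction a with
  | gen i m =>
    intro y h
    change cl m (el f y) = g' i
    rw [← hg, ← Um_cl, show cl m y = g i from h]
  | act o a ih =>
    rintro y ⟨x, hx, rfl⟩
    exact ⟨el f x, ih hx, (el_act f o x).symm⟩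
  | glue hb hh a a' ih ih' =>
    intro y h
    exact ⟨by rw [← el_rs]; exact ih h.1, by rw [← el_rs]; exact ih' h.2⟩

/-- The pairs of terms with a common value. -/
def sig {Y : GlobModel C} (g : I → (U Y).A) : Set (Σ T : Shape, RepTm C I T × RepTm C I T) :=
  {p | ∃ y, Ev g p.2.1 y ∧ Ev g p.2.2 y}

/-- The submodel of the product generated by the given cells. -/
theorem exists_sub {κ : Type u} (Y : κ → GlobModel C) (g : ∀ k, I → (U (Y k)).A) :
    ∃ (K : GlobModel C) (π : ∀ k, K ⟶ Y k),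
      (∀ (T : Shape) (z z' : El K T), (∀ k, el (π k) z = el (π k) z') → z = z') ∧
      (∀ (T : Shape) (z : El K T), ∃ a : RepTm C I T, ∀ k, Ev (g k) a (el (π k) z)) ∧
      ∀ (T : Shape) (a : RepTm C I T) (z : ∀ k, El (Y k) T), (∀ k, Ev (g k) a (z k)) →
        ∃ z₀ : El K T, ∀ k, el (π k) z₀ = z k := by
  let E : Shape → Type u := fun T =>
    {z : ∀ k, El (Y k) T // ∃ a : RepTm C I T, ∀ k, Ev (g k) a (z k)}
  let ac : ∀ {S T : Shape}, C.arr S T → E T → E S := fun o z =>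
    ⟨fun k => (Y k).act o (z.1 k), by
      obtain ⟨a, ha⟩ := z.2
      exact ⟨.act o a, fun k => ⟨z.1 k, ha k, rfl⟩⟩⟩
  let K : GlobModel C := mkModel E ac
    (fun S y => Subtype.ext (funext fun k => act_one (Y k) _))
    (fun o o' y => Subtype.ext (funext fun k => act_seq (Y k) o o' _))
    (fun S b h hb hh z z' h1 h2 => Subtype.ext (funext fun k =>
      glue_el_ext (Y k) (congrFun (congrArg Subtype.val h1) k)
        (congrFun (congrArg Subtype.val h2) k)))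
    (fun S b h hb hh x y e => by
      choose z h1 h2 using fun k => exists_glue_el (Y k) hb hh (x.1 k) (y.1 k)
        (congrFun (congrArg Subtype.val e) k)
      obtain ⟨a, ha⟩ := x.2
      obtain ⟨a', ha'⟩ := y.2
      exact ⟨⟨z, .glue hb hh a a', fun k => ⟨by rw [h1]; exact ha k, by rw [h2]; exact ha' k⟩⟩,
        Subtype.ext (funext h1), Subtype.ext (funext h2)⟩)
  refine ⟨K, fun k => mkHom (X := K) (Y := Y k) (fun T (z : E T) => z.1 k) fun _ _ _ _ => rfl,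
    fun T z z' h => Subtype.ext (funext h), fun T z => z.2, fun T a z h => ⟨⟨z, a, h⟩, fun _ => rfl⟩⟩

end RepTm

theorem rep_ji {κ : Type u} [Nonempty κ] {K : GlobModel C} {Y : κ → GlobModel C}
    {π : ∀ k, K ⟶ Y k}
    (h : ∀ (T : Shape) (z z' : El K T), (∀ k, el (π k) z = el (π k) z') → z = z') :
    JI fun k => Um (π k) := by
  intro x x' e
  obtain ⟨k₀⟩ := ‹Nonempty κ›
  have hd : (U K).dim x = (U K).dim x' := by
    rw [← (Um (π k₀)).dim_f, e k₀, (Um (π k₀)).dim_f]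
  rcases hx : (U K).dim x with _ | n
  · rw [(U K).eq_pt x hx, (U K).eq_pt x' (hd ▸ hx)]
  · obtain ⟨y, rfl⟩ := exists_cl hx
    obtain ⟨y', rfl⟩ := exists_cl (hd ▸ hx : (U K).dim x' = n + 1)
    rw [h _ y y' fun k => cl_inj (e k)]

/-- The cells that make up a diagram. -/
noncomputable def repGen (𝒪 : Ops C) (𝒢 : NG.{u}) {S : Shape} {Y : GlobModel C}
    (t : Dg S (𝒪.G 𝒢 Y)) (i : (Σ n : ℕ, S.psh.obj (op ⟨n⟩)) × 𝒢.ι) : (U Y).A :=
  𝒢.sp (X := 𝒪.W Y) (t.app i.1.1 i.1.2) i.2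

theorem dim_repGen (𝒪 : Ops C) (𝒢 : NG.{u}) {S : Shape} {Y : GlobModel C}
    (t : Dg S (𝒪.G 𝒢 Y)) (i : (Σ n : ℕ, S.psh.obj (op ⟨n⟩)) × 𝒢.ι) :
    (U Y).dim (repGen 𝒪 𝒢 t i) = 𝒢.δ (i.1.1 + 1) i.2 :=
  (𝒢.dim_sp (X := 𝒪.W Y) _ _).trans (by rw [t.dim_app])

theorem repGen_map (𝒪 : Ops C) (𝒢 : NG.{u}) {S : Shape} {X Y : GlobModel C} (f : X ⟶ Y)
    (t : Dg S (𝒪.G 𝒢 X)) (i : (Σ n : ℕ, S.psh.obj (op ⟨n⟩)) × 𝒢.ι) :
    Um f (repGen 𝒪 𝒢 t i) = repGen 𝒪 𝒢 (t.map (𝒪.Gm 𝒢 f)) i :=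
  (𝒢.sp_map (𝒪.hom f) _ _).symm

open RepTm in
/-- The functor `Y ↦ Dg S (𝒢 Y)` is representable as soon as it is not empty.

Proof.  Let `I := (Σ n : ℕ, S.psh.obj (op ⟨n⟩)) × 𝒢.ι`, and for `t : Dg S (𝒪.G 𝒢 Y)` let
`gen t (⟨n, c⟩, i) := 𝒢.sp (t.app n c) i : (U Y).A`; its dimension is `𝒢.δ (n + 1) i` (`dim_sp`,
`dim_app`), and `gen (t.map (Gm f)) = Um f ∘ gen t` (`sp_map`).
* Terms: `inductive Tm (C) (I : Type) : Shape → Type u` with `gen (i : I) (m : ℕ) : Tm (globe m)`,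
  `act (o : C.arr S T) : Tm T → Tm S`, `glue : Tm S → Tm (globe h) → Tm (S.glue b h hb hh)`.
  Evaluation is a FUNCTION `ev (g : I → (U Y).A) : Tm S → Option (El Y S)` by structural recursion
  (classical `if`): `gen i m ↦ if h : ∃ x, cl m x = g i then some h.choose else none`,
  `act o a ↦ (ev a).map (Y.act o)`, `glue a a' ↦ if h : ∃ z, ev a = some (rs Y inLeft z) ∧
  ev a' = some (rs Y inRight z) then some h.choose else none`.  Prove the three
  characterisations `ev .. = some z ↔ ..` (`cl_inj`, `glue_el_ext`), then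
  `ev_map : ev g a = some y → ev (Um f ∘ g) a = some (el f y)` by induction on `a`.
* Signature `sig t : Set (Σ T, Tm T × Tm T)`, `{(T, a, a') | ∃ y, ev (gen t) a = some y ∧
  ev (gen t) a' = some y}`.  `κ := {σ // ∃ Y t, sig t = σ} : Type u` is nonempty; choose `Y k, t k`.
* `K := mkModel (fun T => {z : ∀ k, El (Y k) T // ∃ a : Tm T, ∀ k, ev (gen (t k)) a = some (z k)}) ..`
  (pointwise action; `glue_el_ext`, `exists_glue_el` in every `Y k`), projections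
  `π k : K ⟶ Y k` (`mkHom`); the family `Um (π k)` is `JI` (case on `exists_cl` / `eq_pt`).
  For `i : I` there is `x i : (U K).A` with `Um (π k) (x i) = gen (t k) i` for all `k`
  (if `δ = 0` take `pt`, if `δ = m + 1` use `exists_cl` and the term `gen i m`).
  `𝒢.refl` (with `f k := 𝒪.hom (π k)`) gives cells `s n c` with `Gm (π k) (s n c) = (t k).app n c`;
  `dim_app` from one `k`, `fc_app` from `𝒢.ji` and `Map.fc_f`.  By `JI`, `gen s = x`.
* Claim A (induction on `a`): if `∀ k, ev (gen (t k)) a = some (z.1 k)` then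
  `ev (gen s) a = some z`.  Uniqueness: if `s.map (Gm f) = t = s.map (Gm f')` then by `ev_map`
  `some (el f z) = ev (gen t) a = some (el f' z)`, use `hom_ext_el`.
* Existence: for `(Y, t)` let `k₀ := ⟨sig t, _⟩`, so `sig (t k₀) = sig t`.  For `z : El K T` with term
  `a`, `(T, a, a) ∈ sig t` gives `y` with `ev (gen t) a = some y`; if `a'` is another term for `z` then
  `(T, a, a') ∈ sig t`, so `ev (gen t) a' = some y` too.  This defines `f` (`mkHom`, naturality by the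
  term `act o a`), and `s.map (Gm f) = t` by `𝒢.inj`, `sp_map` and the terms `gen i m`
  (`Map.pt` / `eq_pt` when `δ = 0`). -/
theorem Ops.exists_rep (𝒪 : Ops C) (𝒢 : NG.{u}) (S : Shape)
    (hne : ∃ Y : GlobModel C, Nonempty (Dg S (𝒪.G 𝒢 Y))) :
    ∃ (K : GlobModel C) (s : Dg S (𝒪.G 𝒢 K)), 𝒪.IsRep 𝒢 S K s := by
  classical
  let I : Type := (Σ n : ℕ, S.psh.obj (op ⟨n⟩)) × 𝒢.ι
  let κ : Type u := {σ : Set (Σ T : Shape, RepTm C I T × RepTm C I T) //
    ∃ (Y : GlobModel C) (t : Dg S (𝒪.G 𝒢 Y)), sig (repGen 𝒪 𝒢 t) = σ}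
  have hκ : Nonempty κ := by
    obtain ⟨Y, ⟨t⟩⟩ := hne
    exact ⟨⟨_, Y, t, rfl⟩⟩
  choose Y t ht using fun k : κ => k.2
  obtain ⟨K, π, hinj, hterm, hlift⟩ := exists_sub Y fun k => repGen 𝒪 𝒢 (t k)
  have hji : JI fun k => Um (π k) := rep_ji hinj
  have hx : ∀ i : I, ∃ x : (U K).A, ∀ k, Um (π k) x = repGen 𝒪 𝒢 (t k) i := by
    intro i
    rcases hδ : 𝒢.δ (i.1.1 + 1) i.2 with _ | m
    · exact ⟨(U K).pt, fun k => by
        rw [Map.pt, (U (Y k)).eq_pt _ ((dim_repGen 𝒪 𝒢 (t k) i).trans hδ)]⟩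
    · choose z hz using fun k => exists_cl ((dim_repGen 𝒪 𝒢 (t k) i).trans hδ)
      obtain ⟨z₀, hz₀⟩ := hlift _ (.gen i m) z hz
      exact ⟨cl m z₀, fun k => by rw [Um_cl, hz₀, hz]⟩
  choose x hx using hx
  have hs : ∀ (n : ℕ) (c : S.psh.obj (op ⟨n⟩)), ∃ z : (𝒪.G 𝒢 K).A,
      ∀ k, 𝒪.Gm 𝒢 (π k) z = (t k).app n c := fun n c =>
    𝒢.refl (fun k => 𝒪.hom (π k)) hji (fun k => (t k).app n c) (n + 1)
      (fun k => (t k).dim_app n c) (fun j => x (⟨n, c⟩, j)) fun k j => hx (⟨n, c⟩, j) k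
  choose sa hsa using hs
  have hji' : JI fun k => 𝒪.Gm 𝒢 (π k) := 𝒢.ji (f := fun k => 𝒪.hom (π k)) hji
  let s : Dg S (𝒪.G 𝒢 K) :=
    { app := sa
      dim_app := fun n c => by
        obtain ⟨k⟩ := hκ
        rw [← (𝒪.Gm 𝒢 (π k)).dim_f, hsa, (t k).dim_app]
      fc_app := fun m n h b c => hji' _ _ fun k => by
        rw [← Map.fc_f, hsa, hsa, (t k).fc_app] }
  have hsπ : ∀ k, s.map (𝒪.Gm 𝒢 (π k)) = t k := fun k => DP.ext' fun n c => hsa n c k
  have hgen : ∀ k i, Um (π k) (repGen 𝒪 𝒢 s i) = repGen 𝒪 𝒢 (t k) i := fun k i => by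
    rw [repGen_map, hsπ]
  have claimA : ∀ (T : Shape) (a : RepTm C I T) (z : El K T),
      (∀ k, Ev (repGen 𝒪 𝒢 (t k)) a (el (π k) z)) → Ev (repGen 𝒪 𝒢 s) a z := by
    intro T a
    induction a with
    | gen i m =>
      intro z h
      exact hji _ _ fun k => (h k).trans (hgen k i).symm
    | act o a ih =>
      intro z h
      choose y hy hy' using h
      obtain ⟨z₀, hz₀⟩ := hlift _ a y hy
      refine ⟨z₀, ih z₀ fun k => by rw [hz₀]; exact hy k, hinj _ _ _ fun k => ?_⟩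
      rw [el_act, hz₀, hy']
    | glue hb hh a a' ih ih' =>
      intro z h
      exact ⟨ih _ fun k => by rw [el_rs]; exact (h k).1, ih' _ fun k => by rw [el_rs]; exact (h k).2⟩
  have hterm' : ∀ (T : Shape) (z : El K T), ∃ a : RepTm C I T, Ev (repGen 𝒪 𝒢 s) a z :=
    fun T z => (hterm T z).imp fun a ha => claimA T a z ha
  refine ⟨K, s, fun Y' t' => ?_⟩
  have hF : ∀ (T : Shape) (z : El K T), ∃ y : El Y' T, ∀ a : RepTm C I T,
      Ev (repGen 𝒪 𝒢 s) a z → Ev (repGen 𝒪 𝒢 t') a y := by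
    intro T z
    let k₀ : κ := ⟨sig (repGen 𝒪 𝒢 t'), Y', t', rfl⟩
    have hk : sig (repGen 𝒪 𝒢 (t k₀)) = sig (repGen 𝒪 𝒢 t') := ht k₀
    obtain ⟨a₀, ha₀⟩ := hterm' T z
    have key : ∀ a : RepTm C I T, Ev (repGen 𝒪 𝒢 s) a z →
        ∃ y, Ev (repGen 𝒪 𝒢 t') a₀ y ∧ Ev (repGen 𝒪 𝒢 t') a y := by
      intro a ha
      have h1 : (⟨T, a₀, a⟩ : Σ T : Shape, RepTm C I T × RepTm C I T) ∈
          sig (repGen 𝒪 𝒢 (t k₀)) :=
        ⟨el (π k₀) z, ha₀.map (π k₀) (hgen k₀), ha.map (π k₀) (hgen k₀)⟩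
      rw [hk] at h1
      exact h1
    obtain ⟨y, hy, -⟩ := key a₀ ha₀
    refine ⟨y, fun a ha => ?_⟩
    obtain ⟨y', h1, h2⟩ := key a ha
    rwa [hy.unique h1]
  choose F hF using hF
  have hnat : ∀ (R T : Shape) (o : C.arr R T) (z : El K T),
      F R (K.act o z) = Y'.act o (F T z) := by
    intro R T o z
    obtain ⟨a, ha⟩ := hterm' T z
    obtain ⟨y, hy, e⟩ := hF R (K.act o z) (.act o a) ⟨z, ha, rfl⟩
    rw [← e, hy.unique (hF T z a ha)]
  refine ⟨mkHom F hnat, DP.ext' fun n c => ?_, fun f' hf' => hom_ext_el fun T z => ?_⟩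
  · refine 𝒢.inj (X := 𝒪.W Y') _ _ (by rw [DP.dim_app, DP.dim_app]) fun j => ?_
    change repGen 𝒪 𝒢 (s.map (𝒪.Gm 𝒢 (mkHom F hnat))) (⟨n, c⟩, j) = repGen 𝒪 𝒢 t' (⟨n, c⟩, j)
    rw [← repGen_map]
    rcases hδ : 𝒢.δ (n + 1) j with _ | m
    · rw [(U K).eq_pt _ ((dim_repGen 𝒪 𝒢 s (⟨n, c⟩, j)).trans hδ), Map.pt,
        (U Y').eq_pt _ ((dim_repGen 𝒪 𝒢 t' (⟨n, c⟩, j)).trans hδ)]
    · obtain ⟨z, hz⟩ := exists_cl ((dim_repGen 𝒪 𝒢 s (⟨n, c⟩, j)).trans hδ)
      rw [← hz, Um_cl, el_mkHom]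
      exact hF _ z (.gen ((⟨n, c⟩, j) : I) m) hz
  · obtain ⟨a, ha⟩ := hterm' T z
    rw [el_mkHom]
    exact (ha.map f' fun i => by rw [repGen_map, hf']).unique (hF T z a ha)

end Crest.Agent.R248
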