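import Crest.Agent.R248.NG

/-!
# R248: the strict part of the path object
-/

set_option autoImplicit false
set_option backward.isDefEq.respectTransparency false

namespace Crest.Agent.R248

universe u

open AG WG

/-- Cells: a cell `g` in dimension `≤ μ`, an arrow in dimension `μ + 1`, and a composable triple
in higher dimensions. -/
inductive TC (μ : ℕ) (X : AG.{u}) : Type u
  | lo (g : X.A) (hg : X.dim g ≤ μ)
  | mid (g : X.A) (hg : X.dim g = μ + 2)
  | hi (p g q : X.A) (hc : X.Cmp p g q) (hp : X.dim p = μ + 2)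

namespace TC

variable {μ : ℕ} {X Y : AG.{u}}

/-- The dimension. -/
def dim : TC μ X → ℕ
  | lo g _ => X.dim g
  | mid _ _ => μ + 1
  | hi _ g _ _ _ => X.dim g

/-- First component. -/
def p : TC μ X → X.A
  | lo g _ => g
  | mid g _ => g
  | hi p _ _ _ _ => p

/-- Middle component. -/
def g : TC μ X → X.A
  | lo g _ => g
  | mid g _ => g
  | hi _ g _ _ _ => g

/-- Last component. -/
def q : TC μ X → X.A
  | lo g _ => g
  | mid g _ => g
  | hi _ _ q _ _ => q

theorem ext {z z' : TC μ X} (h : z.dim = z'.dim) (h1 : z.p = z'.p) (h2 : z.g = z'.g)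
    (h3 : z.q = z'.q) : z = z' := by
  rcases z with ⟨g, hg⟩ | ⟨g, hg⟩ | ⟨p, g, q, hc, hp⟩ <;>
    rcases z' with ⟨g', hg'⟩ | ⟨g', hg'⟩ | ⟨p', g', q', hc', hp'⟩ <;>
    simp only [dim, TC.p, TC.g, TC.q] at h h1 h2 h3
  · subst h2; rfl
  · omega
  · have := hc'.dim_le; omega
  · omega
  · subst h2; rfl
  · have := hc'.dim_le; omega
  · have := hc.dim_le; omega
  · have := hc.dim_le; omega
  · subst h1 h2 h3; rfl

/-- The faces. -/
def d (b : Bool) : TC μ X → TC μ X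
  | lo g hg => lo (X.d b g) (by rw [X.dim_d]; omega)
  | mid g _ => lo (X.fc b μ g) (by rw [dim_fc]; omega)
  | hi p g q hc hp =>
    if h : X.dim g = μ + 2 then mid (if b then q else p) (by
      cases b
      · exact hp
      · exact hc.2.1.trans hp)
    else hi p (X.d b g) q (hc.d (by have := hc.dim_le; omega) b) hp

theorem d_hi_eq (b : Bool) {p g q : X.A} (hc : X.Cmp p g q) (hp : X.dim p = μ + 2)
    (h : X.dim g = μ + 2) : d b (hi p g q hc hp) = mid (if b then q else p) (by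
      cases b
      · exact hp
      · exact hc.2.1.trans hp) := dif_pos h

theorem d_hi_ne (b : Bool) {p g q : X.A} (hc : X.Cmp p g q) (hp : X.dim p = μ + 2)
    (h : X.dim g ≠ μ + 2) : d b (hi p g q hc hp) =
      hi p (X.d b g) q (hc.d (by have := hc.dim_le; omega) b) hp := dif_neg h

theorem dim_d (b : Bool) (z : TC μ X) : (d b z).dim = z.dim - 1 := by
  rcases z with ⟨g, hg⟩ | ⟨g, hg⟩ | ⟨p, g, q, hc, hp⟩
  · exact X.dim_d _ _
  · exact dim_fc_of_le _ (by omega)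
  · by_cases h : X.dim g = μ + 2
    · rw [d_hi_eq b hc hp h]; simp only [dim]; omega
    · rw [d_hi_ne b hc hp h]; exact X.dim_d _ _

theorem _root_.Crest.Agent.R248.AG.Cmp.fc_eq {p g q : X.A} (hc : X.Cmp p g q) (b : Bool) {j : ℕ}
    (hj : j + 1 < X.dim p) : X.fc b j p = X.fc b j g ∧ X.fc b j q = X.fc b j g := by
  have h1 := hc.2.2.2.1
  have h2 := hc.2.2.2.2
  have h3 : j < X.dim (X.d true p) := by rw [X.dim_d]; omega
  exact ⟨by rw [← fc_d b true hj, ← h1, fc_fc _ _ h3],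
    by rw [← fc_d b false (hc.2.1 ▸ hj), ← h2, fc_fc _ _ h3]⟩

theorem dd (b c c' : Bool) (z : TC μ X) : d b (d c z) = d b (d c' z) := by
  rcases z with ⟨g, hg⟩ | ⟨g, hg⟩ | ⟨p, g, q, hc, hp⟩
  · exact ext (congrArg X.dim (X.dd ..)) (X.dd ..) (X.dd ..) (X.dd ..)
  · have := (par_fc c c' μ g).2 b
    exact ext (congrArg X.dim this) this this this
  · by_cases h : X.dim g = μ + 2
    · rw [d_hi_eq c hc hp h, d_hi_eq c' hc hp h]
      have k : ∀ e : Bool, X.fc b μ (if e then q else p) = X.fc b μ g := fun e => by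
        cases e
        · exact (hc.fc_eq b (by omega)).1
        · exact (hc.fc_eq b (by omega)).2
      have := (k c).trans (k c').symm
      exact ext (congrArg X.dim this) this this this
    · rw [d_hi_ne c hc hp h, d_hi_ne c' hc hp h]
      by_cases h' : X.dim g = μ + 3
      · rw [d_hi_eq b _ hp (by rw [X.dim_d]; omega), d_hi_eq b _ hp (by rw [X.dim_d]; omega)]
      · have := hc.dim_le
        rw [d_hi_ne b _ hp (by rw [X.dim_d]; omega), d_hi_ne b _ hp (by rw [X.dim_d]; omega)]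
        exact ext (congrArg X.dim (X.dd ..)) rfl (X.dd ..) rfl

/-- Functoriality. -/
def map (f : Map X Y) : TC μ X → TC μ Y
  | lo g hg => lo (f g) (by rw [f.dim_f]; exact hg)
  | mid g hg => mid (f g) (by rw [f.dim_f]; exact hg)
  | hi p g q hc hp => hi (f p) (f g) (f q) (hc.map f) (by rw [f.dim_f]; exact hp)

theorem dim_map (f : Map X Y) (z : TC μ X) : (map f z).dim = z.dim := by
  rcases z with ⟨g, hg⟩ | ⟨g, hg⟩ | ⟨p, g, q, hc, hp⟩
  · exact f.dim_f _
  · rfl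
  · exact f.dim_f _

theorem p_map (f : Map X Y) (z : TC μ X) : (map f z).p = f z.p := by cases z <;> rfl
theorem g_map (f : Map X Y) (z : TC μ X) : (map f z).g = f z.g := by cases z <;> rfl
theorem q_map (f : Map X Y) (z : TC μ X) : (map f z).q = f z.q := by cases z <;> rfl

theorem d_map (f : Map X Y) (b : Bool) (z : TC μ X) : d b (map f z) = map f (d b z) := by
  rcases z with ⟨g, hg⟩ | ⟨g, hg⟩ | ⟨p, g, q, hc, hp⟩
  · exact ext (congrArg Y.dim (f.d_f ..)) (f.d_f ..) (f.d_f ..) (f.d_f ..)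
  · exact ext (congrArg Y.dim (f.fc_f ..)) (f.fc_f ..) (f.fc_f ..) (f.fc_f ..)
  · by_cases h : X.dim g = μ + 2
    · rw [d_hi_eq b hc hp h]
      refine (d_hi_eq b (hc.map f) _ (by rw [f.dim_f]; exact h)).trans ?_
      cases b <;> rfl
    · rw [d_hi_ne b hc hp h]
      refine (d_hi_ne b (hc.map f) _ (by rw [f.dim_f]; exact h)).trans ?_
      exact ext (congrArg Y.dim (f.d_f ..)) rfl (f.d_f ..) rfl

theorem exists_lo {z : TC μ X} (h : z.dim ≤ μ) : ∃ g hg, z = lo g hg := by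
  rcases z with ⟨g, hg⟩ | ⟨g, hg⟩ | ⟨p, g, q, hc, hp⟩
  · exact ⟨g, hg, rfl⟩
  · simp only [dim] at h; omega
  · have := hc.dim_le; simp only [dim] at h; omega

theorem exists_mid {z : TC μ X} (h : z.dim = μ + 1) : ∃ g hg, z = mid g hg := by
  rcases z with ⟨g, hg⟩ | ⟨g, hg⟩ | ⟨p, g, q, hc, hp⟩
  · simp only [dim] at h; omega
  · exact ⟨g, hg, rfl⟩
  · have := hc.dim_le; simp only [dim] at h; omega

theorem exists_hi {z : TC μ X} (h : μ + 1 < z.dim) : ∃ p g q hc hp, z = hi p g q hc hp := by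
  rcases z with ⟨g, hg⟩ | ⟨g, hg⟩ | ⟨p, g, q, hc, hp⟩
  · simp only [dim] at h; omega
  · simp only [dim] at h; omega
  · exact ⟨p, g, q, hc, hp, rfl⟩

end TC

/-- The strict part of the path object. -/
def T (μ : ℕ) (X : AG.{u}) : AG.{u} where
  A := TC μ X
  dim := TC.dim
  d := TC.d
  pt := .lo X.pt (by rw [X.dim_pt]; omega)
  dim_pt := X.dim_pt
  eq_pt z h := by
    obtain ⟨g, hg, rfl⟩ := TC.exists_lo (z := z) (by omega)
    obtain rfl := X.eq_pt g h
    rfl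
  dim_d := TC.dim_d
  dd := TC.dd

namespace T

variable {μ : ℕ}

section

variable {X Y Z : AG.{u}}

variable (μ) in
/-- Functoriality. -/
def map (f : Map X Y) : Map (T μ X) (T μ Y) := ⟨TC.map f, TC.dim_map f, TC.d_map f⟩

theorem map_comp (f : Map X Y) (g : Map Y Z) (z : (T μ X).A) :
    map μ (g.comp f) z = map μ g (map μ f z) := by cases z <;> rfl

theorem map_congr {f g : Map X Y} (h : ∀ x, f x = g x) : map μ f = map μ g := by
  obtain rfl : f = g := Map.ext (funext h)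
  rfl

theorem arr_lo {g x x' : X.A} (h : X.Arr g x x') (hg : X.dim g ≤ μ) (hx hx') :
    (T μ X).Arr (.lo g hg) (.lo x hx) (.lo x' hx') := by
  obtain ⟨h1, rfl, rfl⟩ := h
  exact ⟨h1, rfl, rfl⟩

theorem arr_mid {g x x' : X.A} (h : X.In x x' g) (hg : X.dim g = μ + 2) (hd : X.dim x = μ)
    (hx hx') : (T μ X).Arr (.mid g hg) (.lo x hx) (.lo x' hx') := by
  obtain ⟨-, h1, h2⟩ := h
  rw [hd] at h1 h2
  subst h1 h2
  exact ⟨congrArg (· + 1) hd.symm, rfl, rfl⟩

theorem arr_hi0 {p g q : X.A} (hc : X.Cmp p g q) (hp : X.dim p = μ + 2) (hg : X.dim g = μ + 2)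
    (hq) : (T μ X).Arr (.hi p g q hc hp) (.mid p hp) (.mid q hq) :=
  ⟨hg, TC.d_hi_eq false hc hp hg, TC.d_hi_eq true hc hp hg⟩

theorem arr_hi {p g g' γ q : X.A} (hc : X.Cmp p g q) (hp : X.dim p = μ + 2) (h : X.Arr γ g g')
    (hc') : (T μ X).Arr (.hi p γ q (hc.of_in h.isIn) hp) (.hi p g q hc hp) (.hi p g' q hc' hp) := by
  have := hc.dim_le
  have h0 := hc.of_in h.isIn
  obtain ⟨h1, rfl, rfl⟩ := h
  exact ⟨h1, TC.d_hi_ne false h0 hp (by omega), TC.d_hi_ne true h0 hp (by omega)⟩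

theorem par_lo {x x' : X.A} {hx hx'} (h : (T μ X).Par (.lo x hx) (.lo x' hx')) : X.Par x x' :=
  ⟨h.1, fun b => congrArg TC.g (h.2 b)⟩

theorem par_hi {p g q p' g' q' : X.A} {hc hp hc' hp'}
    (h : (T μ X).Par (.hi p g q hc hp) (.hi p' g' q' hc' hp')) : p = p' ∧ q = q' ∧ X.Par g g' := by
  have h1 : X.dim g = X.dim g' := h.1
  have h2 : ∀ b, TC.d b (.hi p g q hc hp) = TC.d b (.hi p' g' q' hc' hp') := h.2
  by_cases hg : X.dim g = μ + 2
  · have h3 := h2 false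
    have h4 := h2 true
    rw [TC.d_hi_eq _ hc hp hg, TC.d_hi_eq _ hc' hp' (h1 ▸ hg)] at h3 h4
    obtain rfl : p = p' := congrArg TC.g h3
    obtain rfl : q = q' := congrArg TC.g h4
    exact ⟨rfl, rfl, (hc.2.2.arr (by rw [X.dim_d]; omega)).par_arr
      (hc'.2.2.arr (by rw [X.dim_d]; omega))⟩
  · have h3 := fun b => (TC.d_hi_ne b hc hp hg).symm.trans
      ((h2 b).trans (TC.d_hi_ne b hc' hp' (h1 ▸ hg)))
    exact ⟨congrArg TC.p (h3 false), congrArg TC.q (h3 false), h1, fun b => congrArg TC.g (h3 b)⟩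

end

variable {X Y : WG.{u}}

/-- Left whisker. -/
def wl (X : WG.{u}) (ε : Bool) (p : X.A) : X.A := if ε then X.unit (X.d true p) else p

/-- Right whisker. -/
def wr (X : WG.{u}) (ε : Bool) (q : X.A) : X.A := if ε then q else X.unit (X.d false q)

theorem arr_wl (ε : Bool) {p : X.A} (hp : 2 ≤ X.dim p) :
    X.Arr (wl X ε p) (X.d ε p) (X.d true p) := by
  cases ε
  · exact arr_self (e := p) (by omega)
  · exact X.unit_arr _ (by rw [X.dim_d]; omega)

theorem arr_wr (ε : Bool) {q : X.A} (hq : 2 ≤ X.dim q) :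
    X.Arr (wr X ε q) (X.d false q) (X.d ε q) := by
  cases ε
  · exact X.unit_arr _ (by rw [X.dim_d]; omega)
  · exact arr_self (e := q) (by omega)

theorem cmp_w (ε : Bool) {p g q : X.A} (hc : X.Cmp p g q) : X.Cmp (wl X ε p) g (wr X ε q) :=
  cmp_of_arr (arr_wl ε hc.1) hc.2.2 (arr_wr ε (hc.2.1 ▸ hc.1))
    (by have := hc.1; rw [X.dim_d]; omega)

theorem dim_wl (ε : Bool) {p : X.A} (hp : 2 ≤ X.dim p) : X.dim (wl X ε p) = X.dim p := by
  rw [(arr_wl ε hp).1, X.dim_d]; omega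

/-- The two ends on cells. -/
def om (X : WG.{u}) (ε : Bool) : TC μ X.toAG → X.A
  | .lo g _ => g
  | .mid g _ => X.d ε g
  | .hi p g q _ _ => X.M (wl X ε p) g (wr X ε q)

variable (μ X) in
/-- The two ends. -/
def ω (ε : Bool) : Map (T μ X.toAG) X.toAG where
  f := om X ε
  dim_f z := by
    rcases z with ⟨g, hg⟩ | ⟨g, hg⟩ | ⟨p, g, q, hc, hp⟩
    · rfl
    · exact (X.dim_d _ _).trans (by rw [hg]; rfl)
    · exact X.M_dim _ _ _ (cmp_w ε hc)
  d_f b z := by
    rcases z with ⟨g, hg⟩ | ⟨g, hg⟩ | ⟨p, g, q, hc, hp⟩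
    · rfl
    · change X.d b (X.d ε g) = X.fc b μ g
      rw [← fc_d b ε (by omega), fc_succ _ (by rw [X.dim_d]; omega)]
    · change X.d b (X.M _ _ _) = om X ε (TC.d b (.hi p g q hc hp))
      have h1 := dim_wl ε hc.1
      by_cases h : X.dim g = μ + 2
      · rw [TC.d_hi_eq b hc hp h]
        have := X.M_bot _ _ _ (cmp_w ε hc) (by omega)
        cases b
        · exact this.1.trans (arr_wl ε hc.1).2.1
        · exact this.2.trans (arr_wr ε (hc.2.1 ▸ hc.1)).2.2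
      · have := hc.dim_le
        rw [TC.d_hi_ne b hc hp h]
        exact X.M_d _ _ _ (cmp_w ε hc) (by omega) b

theorem ω_map (ε : Bool) (f : Hom X Y) (z : (T μ X.toAG).A) :
    ω μ Y ε (map μ f.toMap z) = f (ω μ X ε z) := by
  rcases z with ⟨g, hg⟩ | ⟨g, hg⟩ | ⟨p, g, q, hc, hp⟩
  · rfl
  · exact f.d_f _ _
  · change Y.M (wl Y ε (f p)) (f g) (wr Y ε (f q)) = f (X.M _ _ _)
    rw [f.f_M _ _ _ (cmp_w ε hc)]
    have h1 := hc.1
    have h2 := hc.2.1
    cases ε
    · change _ = Y.M (f p) (f g) (f (X.unit _))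
      rw [f.f_unit _ (by rw [X.dim_d]; omega), ← f.d_f]; rfl
    · change _ = Y.M (f (X.unit _)) (f g) (f q)
      rw [f.f_unit _ (by rw [X.dim_d]; omega), ← f.d_f]; rfl

theorem ω_low {z : (T μ X.toAG).A} (h : (T μ X.toAG).dim z ≤ μ) :
    ω μ X false z = ω μ X true z := by
  obtain ⟨g, hg, rfl⟩ := TC.exists_lo h
  rfl

/-- The ends are trivial fibrations in low dimensions. -/
theorem tf_ω (ε : Bool) : TF (μ + 1) (ω μ X ε) := by
  intro c c' hp hc y hy
  obtain ⟨x, hx, rfl⟩ := TC.exists_lo (z := c) (Nat.lt_succ_iff.1 hc)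
  obtain ⟨x', hx', rfl⟩ := TC.exists_lo (z := c') (hp.1.symm.trans_le (Nat.lt_succ_iff.1 hc))
  have hy' : X.Arr y x x' := hy
  have h1 := hy'.1
  by_cases hd : X.dim x = μ
  · have hu := X.unit_arr y (by omega)
    exact ⟨_, arr_mid (hy'.isIn.trans hu.isIn) (by rw [hu.1]; omega) hd hx hx',
      d_unit (by omega) ε⟩
  · exact ⟨_, arr_lo hy' (by omega) hx hx', rfl⟩

/-- The ends are essentially surjective in high dimensions. -/
theorem ess_ω (hT : X.Theta) (ε : Bool) {c c' : (T μ X.toAG).A} (hp : (T μ X.toAG).Par c c')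
    (hc : μ < (T μ X.toAG).dim c) {y : X.A} (hy : X.Arr y (ω μ X ε c) (ω μ X ε c')) :
    ∃ e, (T μ X.toAG).Arr e c c' ∧ X.Step (ω μ X ε e) y := by
  by_cases hd : (T μ X.toAG).dim c = μ + 1
  · obtain ⟨p, hp', rfl⟩ := TC.exists_mid hd
    obtain ⟨q, hq', rfl⟩ := TC.exists_mid (z := c') (hp.1.symm.trans hd)
    obtain ⟨a, ha, hs⟩ := M_ess0 hT (arr_wl ε (p := p) (by omega)) (arr_wr ε (q := q) (by omega))
      (by rw [X.dim_d]; omega) hy
    exact ⟨_, arr_hi0 ⟨by omega, by omega, ha.isIn⟩ hp' (by rw [ha.1, X.dim_d]; omega) hq', hs⟩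
  · obtain ⟨p, g, q, h1, h2, rfl⟩ := TC.exists_hi (z := c) (lt_of_le_of_ne hc (Ne.symm hd))
    obtain ⟨p', g', q', h1', h2', rfl⟩ :=
      TC.exists_hi (z := c') ((lt_of_le_of_ne hc (Ne.symm hd)).trans_eq hp.1)
    obtain ⟨rfl, rfl, h3⟩ := par_hi hp
    obtain ⟨a, ha, hs⟩ := M_ess hT (cmp_w ε h1) h3 hy
    exact ⟨_, arr_hi h1 h2 ha h1', hs⟩

/-- Joint lifting in the critical dimension. -/
theorem lift_mid (hT : X.Theta) {c : (T μ X.toAG).A} (hc : (T μ X.toAG).dim c = μ + 1)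
    {y z : Bool → X.A} (hy : ∀ ε, X.Arr (y ε) (ω μ X ε c) (z ε)) :
    ∃ e c', (T μ X.toAG).Arr e c c' ∧ ∀ ε, ω μ X ε c' = z ε ∧ X.Step (ω μ X ε e) (y ε) := by
  obtain ⟨p, hp, rfl⟩ := TC.exists_mid hc
  have h0 : X.Arr (y false) (X.d false p) (z false) := hy false
  have h1 : X.Arr (y true) (X.d true p) (z true) := hy true
  have d0 : ∀ b, X.dim (X.d b p) = μ + 1 := fun b => by rw [X.dim_d]; omega
  have dz : X.dim (z false) = μ + 1 := by rw [← h0.par.1, d0]
  obtain ⟨g, hg, s0⟩ := M_ess0 hT (arr_self (e := p) (by omega)) (X.unit_arr (z false) (by omega))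
    (by rw [d0]; omega) h0
  obtain ⟨q, hq, s1⟩ := M_last hT (X.unit_arr (X.d true p) (by rw [d0]; omega)) hg
    (by rw [d0]; omega) h1
  have dq : X.dim q = μ + 2 := by rw [hq.1, dz]
  have hc : X.Cmp p g q := ⟨by omega, by omega, by rw [hq.2.1]; exact hg.isIn⟩
  refine ⟨_, _, arr_hi0 hc hp (by rw [hg.1, d0]) dq, fun ε => ?_⟩
  cases ε
  · refine ⟨hq.2.1, ?_⟩
    change X.Step (X.M p g (X.unit (X.d false q))) _
    rw [hq.2.1]; exact s0
  · exact ⟨hq.2.2, s1⟩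

/-- Units in high dimensions. -/
theorem step_hi {c : (T μ X.toAG).A} (hc : μ + 1 < (T μ X.toAG).dim c) :
    (T μ X.toAG).Step c c := by
  obtain ⟨p, g, q, h1, h2, rfl⟩ := TC.exists_hi hc
  exact ⟨_, arr_hi h1 h2 (X.unit_arr g (by have := h1.dim_le; omega)) h1⟩

end T

end Crest.Agent.R248
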