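import Crest.Agent.R248.Dg
import Crest.Agent.R248.T

/-!
# R248: diagrams in `T μ A` are diagrams of another globular sum in `A`
-/

set_option autoImplicit false
set_option backward.isDefEq.respectTransparency false

namespace Crest.Agent.R248

universe u

open CategoryTheory Crest.GeometryTopology.Coherator AG

namespace TC

variable {μ : ℕ} {X Z A : AG.{u}}

theorem lo_cond {z : TC μ X} (h : z.dim ≤ μ + 1) : z.p = z.g ∧ z.q = z.g := by
  rcases z with ⟨g, hg⟩ | ⟨g, hg⟩ | ⟨p, g, q, hc, hp⟩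
  · exact ⟨rfl, rfl⟩
  · exact ⟨rfl, rfl⟩
  · have := hc.dim_le; simp only [dim] at h; omega

theorem hi_cond {z : TC μ X} (h : μ + 1 < z.dim) :
    X.fc true (μ + 1) z.p = X.fc false (μ + 1) z.g ∧ X.d false z.q = X.fc true (μ + 1) z.g ∧
      X.dim z.p = μ + 2 ∧ X.dim z.q = μ + 2 ∧ X.dim z.g = z.dim := by
  obtain ⟨p, g, q, hc, hp, rfl⟩ := exists_hi h
  obtain ⟨-, h1, h2⟩ := hc.2.2
  rw [X.dim_d, hp] at h1 h2
  exact ⟨(fc_succ true hp).trans h1.symm, h2.symm, hp, hc.2.1.trans hp, rfl⟩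

theorem dim_pq (z : TC μ X) : X.dim z.p ≤ μ + 2 ∧
    ∀ j, j ≤ μ + 1 → j < z.dim → j < X.dim z.p ∧ j < X.dim z.q := by
  rcases z with ⟨g, hg⟩ | ⟨g, hg⟩ | ⟨p, g, q, hc, hp⟩
  · exact ⟨by simp only [TC.p]; omega, fun j _ h => ⟨h, h⟩⟩
  · exact ⟨hg.le, fun j h _ => ⟨by simp only [TC.p]; omega, by simp only [TC.q]; omega⟩⟩
  · have := hc.2.1
    exact ⟨hp.le, fun j h _ => ⟨by simp only [TC.p]; omega, by simp only [TC.q]; omega⟩⟩

theorem fc_pq {z : TC μ X} (b : Bool) {j : ℕ} (hj : j ≤ μ) :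
    X.fc b j z.p = X.fc b j z.g ∧ X.fc b j z.q = X.fc b j z.g := by
  rcases z with ⟨g, hg⟩ | ⟨g, hg⟩ | ⟨p, g, q, hc, hp⟩
  · exact ⟨rfl, rfl⟩
  · exact ⟨rfl, rfl⟩
  · exact hc.fc_eq b (by omega)

theorem fc_lo (b : Bool) {j : ℕ} (hj : j ≤ μ) : ∀ (n : ℕ) (z : TC μ X), z.dim = j + 1 + n →
    ((T μ X).fc b j z).g = X.fc b j z.g := by
  intro n
  induction n with
  | zero =>
    intro z hz
    rw [fc_succ (X := T μ X) b hz]
    rcases z with ⟨g, hg⟩ | ⟨g, hg⟩ | ⟨p, g, q, hc, hp⟩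
    · exact (fc_succ b hz).symm
    · obtain rfl : μ = j := by simp only [dim] at hz; omega
      rfl
    · have := hc.dim_le; simp only [dim] at hz; omega
  | succ n ih =>
    intro z hz
    rw [← fc_d_same (X := T μ X) b (show j < z.dim by omega),
      ih ((T μ X).d b z) (by change (d b z).dim = _; rw [dim_d]; omega)]
    change X.fc b j (d b z).g = _
    rcases z with ⟨g, hg⟩ | ⟨g, hg⟩ | ⟨p, g, q, hc, hp⟩
    · exact fc_d_same b (by simp only [dim] at hz; omega)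
    · exact fc_fc b b (by simp only [dim] at hz; omega) g
    · by_cases h : X.dim g = μ + 2
      · rw [d_hi_eq b hc hp h]
        cases b
        · exact (hc.fc_eq false (by omega)).1
        · exact (hc.fc_eq true (by omega)).2
      · rw [d_hi_ne b hc hp h]
        exact fc_d_same b (by have := hc.dim_le; omega)

theorem fc_hi (b : Bool) {j : ℕ} (hj : μ + 2 ≤ j) : ∀ (n : ℕ) (z : TC μ X), μ + 1 < z.dim →
    z.dim ≤ j + n → ((T μ X).fc b j z).p = z.p ∧ ((T μ X).fc b j z).g = X.fc b j z.g ∧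
      ((T μ X).fc b j z).q = z.q := by
  intro n
  induction n with
  | zero =>
    intro z h hz
    rw [fc_of_le (X := T μ X) (j := j) b hz, fc_of_le b (by rw [(hi_cond h).2.2.2.2]; exact hz)]
    exact ⟨rfl, rfl, rfl⟩
  | succ n ih =>
    intro z h hz
    by_cases h1 : z.dim ≤ j + n
    · exact ih z h h1
    · have := ih ((T μ X).d b z) (by change _ < (d b z).dim; rw [dim_d]; omega)
        (by change (d b z).dim ≤ _; rw [dim_d]; omega)
      rw [fc_d_same (X := T μ X) b (show j < z.dim by omega)] at this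
      obtain ⟨p, g, q, hc, hp, rfl⟩ := exists_hi h
      simp only [dim] at h1
      have e : (T μ X).d b (hi p g q hc hp) = _ := d_hi_ne b hc hp (by omega)
      rw [e] at this
      exact ⟨this.1, this.2.1.trans (fc_d_same b (by omega)), this.2.2⟩

theorem fc_mid (b : Bool) {z : TC μ X} (h : μ + 1 < z.dim) :
    ((T μ X).fc b (μ + 1) z).g = if b then z.q else z.p := by
  obtain ⟨h1, -, h2⟩ := fc_hi b (le_refl (μ + 2)) z.dim z h (by omega)
  have h3 : ((T μ X).fc b (μ + 2) z).dim = μ + 2 := dim_fc_of_le (X := T μ X) b h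
  rw [← d_fc (X := T μ X) b b h, ← h1, ← h2]
  obtain ⟨p, g, q, hc, hp, e⟩ := exists_hi (z := (T μ X).fc b (μ + 2) z) (by omega)
  rw [e] at h3 ⊢
  exact congrArg TC.g (d_hi_eq b hc hp h3)

theorem ext_lo {z z' : TC μ X} (h : z.dim = z'.dim) (h1 : z.dim ≤ μ + 1) (e : z.g = z'.g) :
    z = z' :=
  ext h (by rw [(lo_cond h1).1, (lo_cond (h ▸ h1)).1, e]) e
    (by rw [(lo_cond h1).2, (lo_cond (h ▸ h1)).2, e])

theorem glue_lo {j : ℕ} (hj : j ≤ μ) {z z' : TC μ X} (h1 : j < z.dim) (h2 : j < z'.dim) :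
    (T μ X).fc true j z = (T μ X).fc false j z' ↔ X.fc true j z.q = X.fc false j z'.p := by
  have e1 := fc_lo true hj (z.dim - (j + 1)) z (by omega)
  have e2 := fc_lo false hj (z'.dim - (j + 1)) z' (by omega)
  have d1 : ((T μ X).fc true j z).dim = j := dim_fc_of_le (X := T μ X) true h1.le
  have d2 : ((T μ X).fc false j z').dim = j := dim_fc_of_le (X := T μ X) false h2.le
  rw [(fc_pq true hj).2, (fc_pq false hj).1, ← e1, ← e2]
  exact ⟨fun h => by rw [h], ext_lo (d1.trans d2.symm) (by omega)⟩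

theorem glue_mid {z z' : TC μ X} (h1 : μ + 1 < z.dim) (h2 : μ + 1 < z'.dim) :
    (T μ X).fc true (μ + 1) z = (T μ X).fc false (μ + 1) z' ↔ z.q = z'.p := by
  have e1 : _ = z.q := fc_mid true h1
  have e2 : _ = z'.p := fc_mid false h2
  have d1 : ((T μ X).fc true (μ + 1) z).dim = μ + 1 := dim_fc_of_le (X := T μ X) true h1.le
  have d2 : ((T μ X).fc false (μ + 1) z').dim = μ + 1 := dim_fc_of_le (X := T μ X) false h2.le
  rw [← e1, ← e2]
  exact ⟨fun h => by rw [h], ext_lo (d1.trans d2.symm) (by omega)⟩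

theorem glue_hi {j : ℕ} (hj : μ + 2 ≤ j) {z z' : TC μ X} (h1 : j < z.dim) (h2 : j < z'.dim) :
    (T μ X).fc true j z = (T μ X).fc false j z' ↔
      z.p = z'.p ∧ X.fc true j z.g = X.fc false j z'.g ∧ z.q = z'.q := by
  obtain ⟨a1, a2, a3⟩ := fc_hi true hj z.dim z (by omega) (by omega)
  obtain ⟨b1, b2, b3⟩ := fc_hi false hj z'.dim z' (by omega) (by omega)
  have d1 : ((T μ X).fc true j z).dim = j := dim_fc_of_le (X := T μ X) true h1.le
  have d2 : ((T μ X).fc false j z').dim = j := dim_fc_of_le (X := T μ X) false h2.le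
  rw [← a1, ← a2, ← a3, ← b1, ← b2, ← b3]
  exact ⟨fun h => by rw [h]; exact ⟨rfl, rfl, rfl⟩, fun h => ext (d1.trans d2.symm) h.1 h.2.1 h.2.2⟩

theorem lift_lo (f : Map Z A) {x : TC μ A} (h : x.dim ≤ μ + 1) {g : Z.A} (hg : f g = x.g) :
    ∃ y : TC μ Z, map f y = x ∧ y.p = g ∧ y.g = g := by
  rcases x with ⟨g', hg'⟩ | ⟨g', hg'⟩ | ⟨p', g', q', hc, hp⟩
  · obtain rfl : f g = g' := hg
    exact ⟨lo g (by rwa [f.dim_f] at hg'), rfl, rfl, rfl⟩
  · obtain rfl : f g = g' := hg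
    exact ⟨mid g (by rwa [f.dim_f] at hg'), rfl, rfl, rfl⟩
  · have := hc.dim_le; simp only [dim] at h; omega

theorem lift_hi (f : Map Z A) {x : TC μ A} (h : μ + 1 < x.dim) {p g q : Z.A} (hp : f p = x.p)
    (hg : f g = x.g) (hq : f q = x.q) (h1 : Z.fc true (μ + 1) p = Z.fc false (μ + 1) g)
    (h2 : Z.d false q = Z.fc true (μ + 1) g) :
    ∃ y : TC μ Z, map f y = x ∧ y.p = p ∧ y.g = g ∧ y.q = q := by
  obtain ⟨-, -, d1, d2, d3⟩ := hi_cond h
  rw [← hp, f.dim_f] at d1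
  rw [← hq, f.dim_f] at d2
  rw [← hg, f.dim_f] at d3
  have d4 : Z.dim (Z.d true p) = μ + 1 := by rw [Z.dim_d]; omega
  refine ⟨hi p g q ⟨by omega, by omega, by omega, ?_, ?_⟩ d1, ext ?_ hp hg hq, rfl, rfl, rfl⟩
  · rw [d4, ← h1, fc_succ true d1]
  · rw [d4, h2]
  · exact (f.dim_f g).trans d3

end TC

section

variable {μ : ℕ} {A : AG.{u}}

/-- The open invariant. -/
def TOpen (N : ℕ) {S : Shape} (s : Dg S (T μ A)) : Prop :=
  ∃ (S' : Shape) (r : Dg S' A), S'.dim ≤ N ∧ r.last = TC.g s.last ∧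
    ∀ (Z : AG.{u}) (f : Map Z A) (rZ : Dg S' Z) (qZ : Z.A), rZ.map f = r →
      (μ < S.last → f qZ = TC.q s.last ∧ Z.d false qZ = Z.fc true (μ + 1) rZ.last) →
      ∃ t : Dg S (T μ Z), t.map (T.map μ f) = s ∧ TC.g t.last = rZ.last ∧
        (μ < S.last → TC.q t.last = qZ)

/-- The closed invariant. -/
def TClosed (N : ℕ) {S : Shape} (s : Dg S (T μ A)) : Prop :=
  ∃ (S' : Shape) (r : Dg S' A), S'.dim ≤ N ∧ r.last = TC.q s.last ∧
    ∀ (Z : AG.{u}) (f : Map Z A) (rZ : Dg S' Z), rZ.map f = r →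
      ∃ t : Dg S (T μ Z), t.map (T.map μ f) = s ∧ TC.q t.last = rZ.last

theorem TOpen.closed {N : ℕ} (hN : μ + 1 ≤ N) {S : Shape} {s : Dg S (T μ A)} (h : TOpen N s) :
    TClosed N s := by
  obtain ⟨S', r, h1, h2, h3⟩ := h
  have hs : TC.dim s.last = S.last + 1 := s.dim_last
  by_cases hS : μ < S.last
  · obtain ⟨-, c2, -, c4, c5⟩ := TC.hi_cond (z := s.last) (by omega)
    have hr := r.dim_last
    rw [h2, c5] at hr
    obtain ⟨r', e1, e2⟩ := DP.exists_glue (show μ < S'.last by omega) (Nat.lt_succ_self μ) r _ c4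
      (by rw [h2, ← c2, fc_succ false c4])
    refine ⟨_, r', by rw [dim_glue]; omega, e2, fun Z f rZ e => ?_⟩
    obtain ⟨t, k1, -, k3⟩ := h3 Z f rZ.left rZ.last (by rw [← DP.left_map, e, e1]) fun _ =>
      ⟨by rw [← DP.last_map, e, e2], by
        rw [DP.glue_cond, fc_succ false (j := μ + 1) (DP.dim_last rZ)]⟩
    exact ⟨t, k1, k3 hS⟩
  · refine ⟨S', r, h1, by rw [h2, (TC.lo_cond (by omega)).2], fun Z f rZ e => ?_⟩
    obtain ⟨t, k1, k2, -⟩ := h3 Z f rZ Z.pt e fun h => absurd h hS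
    have ht : TC.dim t.last = S.last + 1 := t.dim_last
    exact ⟨t, k1, by rw [(TC.lo_cond (by omega)).2, k2]⟩

theorem tfinish {N h : ℕ} (hN : h ≤ N) (x : TC μ A) (hx : x.dim = h + 1) (S₁ : Shape)
    (r₁ : Dg S₁ A) (h1 : S₁.dim ≤ N) (h2 : r₁.last = x.p) :
    ∃ (S₂ : Shape) (r₂ : Dg S₂ A), S₂.dim ≤ N ∧ r₂.last = x.g ∧
      ∀ (Z : AG.{u}) (f : Map Z A) (rZ : Dg S₂ Z) (qZ : Z.A), rZ.map f = r₂ →
        (μ < h → f qZ = x.q ∧ Z.d false qZ = Z.fc true (μ + 1) rZ.last) →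
        ∃ (r₁Z : Dg S₁ Z) (y : TC μ Z), r₁Z.map f = r₁ ∧ TC.map f y = x ∧ y.p = r₁Z.last ∧
          y.g = rZ.last ∧ (μ < h → y.q = qZ) := by
  by_cases hh : μ < h
  · obtain ⟨c1, -, c3, -, c5⟩ := TC.hi_cond (z := x) (by omega)
    have hr := r₁.dim_last
    rw [h2, c3] at hr
    obtain ⟨r', e1, e2⟩ := DP.exists_glue (show μ < S₁.last by omega) hh r₁ _ (c5.trans hx)
      (by rw [h2, c1])
    refine ⟨_, r', by rw [dim_glue]; omega, e2, fun Z f rZ qZ e hq => ?_⟩
    have e3 : rZ.left.map f = r₁ := by rw [← DP.left_map, e, e1]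
    obtain ⟨y, k1, k2, k3, k4⟩ := TC.lift_hi f (x := x) (by omega) (p := rZ.left.last)
      (g := rZ.last) (by rw [← DP.last_map, e3, h2]) (by rw [← DP.last_map, e, e2]) (hq hh).1
      (DP.glue_cond rZ) (hq hh).2
    exact ⟨rZ.left, y, e3, k1, k2, k3, fun _ => k4⟩
  · have e1 : r₁.last = x.g := by rw [h2, (TC.lo_cond (by omega)).1]
    refine ⟨S₁, r₁, h1, e1, fun Z f rZ qZ e _ => ?_⟩
    obtain ⟨y, k1, k2, k3⟩ := TC.lift_lo f (x := x) (by omega) (g := rZ.last)
      (by rw [← DP.last_map, e, e1])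
    exact ⟨rZ, y, e, k1, k2, k3, fun h => absurd h hh⟩

theorem tglue {Z : AG.{u}} {f : Map Z A} {S : Shape} {b h : ℕ} {hb : b < S.last} {hh : b < h}
    {s : Dg (S.glue b h hb hh) (T μ A)} {t : Dg S (T μ Z)} (ht : t.map (T.map μ f) = s.left)
    {y : TC μ Z} (hy : TC.map f y = s.last)
    (e : y.dim = h + 1 → (T μ Z).fc true (b + 1) t.last = (T μ Z).fc false (b + 1) y) :
    ∃ t' : Dg (S.glue b h hb hh) (T μ Z), t'.map (T.map μ f) = s ∧ t'.last = y := by
  have hd : y.dim = h + 1 := by rw [← TC.dim_map f, hy]; exact s.dim_last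
  obtain ⟨t', e1, e2⟩ := DP.exists_glue hb hh t y hd (e hd)
  exact ⟨t', DP.glue_ext (by rw [DP.left_map, e1, ht]) (by rw [DP.last_map, e2]; exact hy), e2⟩

theorem topen (N : ℕ) (hN : μ + 1 ≤ N) (S : Shape) :
    S.dim ≤ N → ∀ s : Dg S (T μ A), TOpen N s := by
  induction S using shape_ind with
  | globe n =>
    intro hS s
    have hs : TC.dim s.last = n + 1 := s.dim_last
    obtain ⟨d1, d2⟩ := TC.dim_pq s.last
    have d3 := (d2 0 (by omega) (by omega)).1
    obtain ⟨S₂, r₂, h1, h2, h3⟩ := tfinish (N := N) hS s.last hs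
      (Shape.globe (A.dim (TC.p s.last) - 1))
      (DP.ofCell (n := A.dim (TC.p s.last) - 1) (TC.p s.last) (by omega))
      (by rw [dim_globe]; omega) rfl
    refine ⟨S₂, r₂, h1, h2, fun Z f rZ qZ e hq => ?_⟩
    obtain ⟨-, y, -, k1, -, k3, k4⟩ := h3 Z f rZ qZ e hq
    have hd : y.dim = n + 1 := by rw [← TC.dim_map f, k1, hs]
    exact ⟨DP.ofCell (X := T μ Z) y hd, DP.ext_top (n := n) k1, k3, k4⟩
  | glue S b h hb hh ih =>
    intro hS s
    rw [dim_glue] at hS
    have hs : TC.dim s.last = h + 1 := s.dim_last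
    have hs0 : TC.dim s.left.last = S.last + 1 := s.left.dim_last
    have ho := ih (by omega) s.left
    have hg := DP.glue_cond s
    rcases lt_trichotomy b μ with hbμ | rfl | hbμ
    · obtain ⟨S₀, r₀, a1, a2, a3⟩ := ho.closed hN
      rw [TC.glue_lo (by omega) (by omega) (by omega)] at hg
      obtain ⟨d1, d2⟩ := TC.dim_pq s.last
      have d3 := (d2 (b + 1) (by omega) (by omega)).1
      have d4 := ((TC.dim_pq s.left.last).2 (b + 1) (by omega) (by omega)).2
      have d5 := r₀.dim_last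
      rw [a2] at d5
      obtain ⟨r₁, e1, e2⟩ := DP.exists_glue (show b < S₀.last by omega)
        (show b < A.dim (TC.p s.last) - 1 by omega) r₀ (TC.p s.last) (by omega) (by rw [a2, hg])
      obtain ⟨S₂, r₂, h1, h2, h3⟩ := tfinish (N := N) (h := h) (by omega) s.last hs _ r₁
        (by rw [dim_glue]; omega) e2
      refine ⟨S₂, r₂, h1, h2, fun Z f rZ qZ e hq => ?_⟩
      obtain ⟨r₁Z, y, k0, k1, k2, k3, k4⟩ := h3 Z f rZ qZ e hq
      obtain ⟨t, t1, t2⟩ := a3 Z f r₁Z.left (by rw [← DP.left_map, k0, e1])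
      have ht : TC.dim t.last = S.last + 1 := t.dim_last
      obtain ⟨t', u1, u2⟩ := tglue t1 k1 fun hd => by
        rw [TC.glue_lo (by omega) (by omega) (by omega), t2, k2]
        exact DP.glue_cond r₁Z
      exact ⟨t', u1, by rw [u2, k3], fun h => by rw [u2, k4 h]⟩
    · obtain ⟨S₀, r₀, a1, a2, a3⟩ := ho.closed hN
      rw [TC.glue_mid (by omega) (by omega)] at hg
      obtain ⟨S₂, r₂, h1, h2, h3⟩ := tfinish (N := N) (h := h) (by omega) s.last hs _ r₀ a1
        (a2.trans hg)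
      refine ⟨S₂, r₂, h1, h2, fun Z f rZ qZ e hq => ?_⟩
      obtain ⟨r₁Z, y, k0, k1, k2, k3, k4⟩ := h3 Z f rZ qZ e hq
      obtain ⟨t, t1, t2⟩ := a3 Z f r₁Z k0
      have ht : TC.dim t.last = S.last + 1 := t.dim_last
      obtain ⟨t', u1, u2⟩ := tglue t1 k1 fun hd => by
        rw [TC.glue_mid (by omega) (by omega), t2, k2]
      exact ⟨t', u1, by rw [u2, k3], fun h => by rw [u2, k4 h]⟩
    · obtain ⟨S₀, r₀, a1, a2, a3⟩ := ho
      rw [TC.glue_hi (by omega) (by omega) (by omega)] at hg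
      obtain ⟨g1, g2, g3⟩ := hg
      have d1 := (TC.hi_cond (z := s.last) (by omega)).2.2.2.2
      have d2 := (TC.hi_cond (z := s.left.last) (by omega)).2.2.2.2
      have d5 := r₀.dim_last
      rw [a2] at d5
      obtain ⟨r₁, e1, e2⟩ := DP.exists_glue (show b < S₀.last by omega) hh r₀ (TC.g s.last)
        (by omega) (by rw [a2, g2])
      refine ⟨_, r₁, by rw [dim_glue]; omega, e2, fun Z f rZ qZ e hq => ?_⟩
      obtain ⟨q1, q2⟩ := hq (hbμ.trans hh)
      have hc : ∀ c, Z.fc c (μ + 1) rZ.left.last = Z.fc c (μ + 1) rZ.last := fun c => by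
        rw [← fc_fc c true (show μ + 1 < b + 1 by omega), DP.glue_cond,
          fc_fc c false (show μ + 1 < b + 1 by omega)]
      obtain ⟨t, t1, t2, t3⟩ := a3 Z f rZ.left qZ (by rw [← DP.left_map, e, e1]) fun _ =>
        ⟨by rw [q1, g3], by rw [q2, hc]⟩
      have ht : TC.dim t.last = S.last + 1 := t.dim_last
      obtain ⟨y, k1, k2, k3, k4⟩ := TC.lift_hi f (x := s.last) (by omega) (p := TC.p t.last)
        (g := rZ.last) (by rw [← g1, ← t1, ← TC.p_map]; rfl) (by rw [← DP.last_map, e, e2]) q1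
        (by rw [(TC.hi_cond (z := t.last) (by omega)).1, t2, hc]) q2
      obtain ⟨t', u1, u2⟩ := tglue t1 k1 fun hd => by
        rw [TC.glue_hi (by omega) (by omega) (by omega), k2, k3, k4, t2]
        exact ⟨rfl, DP.glue_cond rZ, t3 (by omega)⟩
      exact ⟨t', u1, by rw [u2, k3], fun _ => by rw [u2, k4]⟩

end

/-- A diagram of shape `S` in `T μ A` is encoded by a diagram of some shape `S'` in `A`.

Proof.  First compute faces in `T μ X` (induction with `fc_d_same`, `TC.d_hi_eq`, `TC.d_hi_ne`):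
for `j ≤ μ`, `(T μ X).fc b j z = .lo (X.fc b j z.g) _` when `j < z.dim` (and
`X.fc b j z.p = X.fc b j z.g = X.fc b j z.q`, `Cmp.fc_eq`);
`(T μ X).fc b (μ+1) (.hi p g q ..) = .mid (if b then q else p) _`; for `μ + 2 ≤ j`,
`(T μ X).fc b j (.hi p g q ..) = .hi p (X.fc b j g) q ..`.
Prove by `shape_ind` the OPEN invariant: there are `S'`, `r : Dg S' A` with
`S'.dim ≤ max S.dim (μ+1)`, `r.last = TC.g s.last`, and for all `Z f rZ qZ` with `rZ.map f = r` and
`(μ < S.last → f qZ = TC.q s.last ∧ Z.d false qZ = Z.fc true (μ+1) rZ.last)` there is `t` with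
`t.map (T.map μ f) = s`, `TC.g t.last = rZ.last`, `(μ < S.last → TC.q t.last = qZ)`.
It implies the CLOSED form: `S'`, `r` with the same bound, `r.last = TC.q s.last`, and for all
`Z f rZ` with `rZ.map f = r` a `t` with `t.map _ = s`, `TC.q t.last = rZ.last` (if `S.last ≤ μ` then
`q = g`; otherwise glue the globe `μ + 1` along `μ` with the cell `q`, `DP.exists_glue`, and use
`rZ.left`, `rZ.last`, `DP.glue_cond`, `fc_succ`).  `S'.last` is read off from `DP.dim_last`.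
Globe `n`: the top cell is `lo g`/`mid g` (take `S' = globe (dim g - 1)`) or `hi p g q`
(`S' = (globe (μ+1)).glue μ n`).  Gluing a cell `x` along `b`: if `b + 1 ≤ μ` use CLOSED for
`s.left` and glue `g` (cases `lo`, `mid`) or `p` along `b` and then `g` along `μ` (case `hi`);
if `b = μ` both `s.left.last` and `x` are `hi` with `q = p'`: use CLOSED and glue `g'` along `μ`;
if `μ < b` both are `hi` with the same `p, q`: use OPEN and glue `g'` along `b`
(`fc_fc` shows that the condition on `qZ` is inherited).  In each case `t` is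
`DP.exists_glue` of the diagram given by the induction hypothesis and the evident cell of `T μ Z`
(`Cmp` in `Z` from `DP.glue_cond`, dimensions from `f.dim_f`); equality of images by
`DP.glue_ext`, `TC.ext`. -/
theorem tshape (μ : ℕ) {A : AG.{u}} (S : Shape) (s : Dg S (T μ A)) :
    ∃ (S' : Shape) (r : Dg S' A), S'.dim ≤ max S.dim (μ + 1) ∧
      ∀ (Z : AG.{u}) (f : Map Z A) (rZ : Dg S' Z), rZ.map f = r →
        ∃ t : Dg S (T μ Z), t.map (T.map μ f) = s := by
  obtain ⟨S', r, h1, -, h2⟩ :=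
    (topen _ (le_max_right S.dim (μ + 1)) S (le_max_left _ _) s).closed (le_max_right _ _)
  exact ⟨S', r, h1, fun Z f rZ e => (h2 Z f rZ e).imp fun _ h => h.1⟩

end Crest.Agent.R248
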