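import Crest.Agent.R248.ThA1

/-!
# R248: a model structure on `𝒢 Y` from the filling condition
-/

set_option autoImplicit false
set_option backward.isDefEq.respectTransparency false

namespace Crest.Agent.R248

universe u

open CategoryTheory Opposite Crest.GeometryTopology.Coherator AG GlobTheory

variable {C : GlobTheory.{u}}

namespace RD

variable {𝒪 : Ops C} {𝒢 : NG.{u}} (R : RD 𝒪 𝒢) (p : Bool → NG.Nat 𝒢 NG.idN)
  (σ : TheoryMap C (R.thE p))

theorem sec_shape {S T : Shape} (φ : S ⟶ T) : (σ.map (C.ofShape φ)).1.2 = R.Km φ := by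
  rw [σ.map_ofShape]; rfl

/-- The model `S ↦ (K S ⟶ Y)`. -/
noncomputable def ob (Y : GlobModel C) : GlobModel C :=
  mkModel (fun S => R.K S ⟶ Y) (fun o f => (σ.map o).1.2 ≫ f)
    (fun S f => by rw [σ.map_one]; exact Category.id_comp f)
    (fun o o' f => by rw [σ.map_seq]; exact Category.assoc _ _ f)
    (fun S b h hb hh z z' h1 h2 => by
      rw [sec_shape] at h1 h2
      exact R.K_ext h1 h2)
    (fun S b h hb hh x y e => by
      rw [sec_shape, sec_shape] at e
      rw [sec_shape, sec_shape]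
      exact R.K_desc x y e)

theorem ob_act (Y : GlobModel C) {S T : Shape} (o : C.arr S T) (f : R.K T ⟶ Y) :
    (R.ob p σ Y).act o f = (σ.map o).1.2 ≫ f := rfl

theorem ob_rs (Y : GlobModel C) {S T : Shape} (φ : S ⟶ T) (f : R.K T ⟶ Y) :
    rs (R.ob p σ Y) φ f = R.Km φ ≫ f := by
  rw [rs, ob_act, sec_shape]

/-- The comparison of cells. -/
noncomputable def jf (Y : GlobModel C) : (U (R.ob p σ Y)).A → (𝒪.G 𝒢 Y).A
  | none => (𝒪.G 𝒢 Y).pt
  | some ⟨n, f⟩ => R.tp (n := n) f

/-- The comparison map. -/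
noncomputable def jm (Y : GlobModel C) : Map (U (R.ob p σ Y)) (𝒪.G 𝒢 Y) where
  f := R.jf p σ Y
  dim_f z := by
    rcases z with _ | ⟨n, f⟩
    · exact (𝒪.G 𝒢 Y).dim_pt
    · exact R.dim_tp f
  d_f e z := by
    rcases z with _ | ⟨_ | n, f⟩
    · exact d_pt e
    · exact R.d_tp_zero e f
    · exact (R.d_tp e f).trans (congrArg (R.tp (n := n)) (R.ob_rs p σ Y _ f).symm)

theorem jm_bij (Y : GlobModel C) : Function.Bijective (R.jm p σ Y) := by
  refine ⟨fun z z' e => ?_, fun y => ?_⟩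
  · have hd : (U _).dim z = (U _).dim z' := by
      rw [← (R.jm p σ Y).dim_f, e, (R.jm p σ Y).dim_f]
    cases hn : (U _).dim z with
    | zero => rw [(U _).eq_pt z hn, (U _).eq_pt z' (hd ▸ hn)]
    | succ n =>
      obtain ⟨f, rfl⟩ := exists_cl hn
      obtain ⟨g, rfl⟩ := exists_cl (hd.symm.trans hn)
      exact congrArg (cl n) (R.tp_inj e)
  · cases hn : (𝒪.G 𝒢 Y).dim y with
    | zero => exact ⟨none, ((𝒪.G 𝒢 Y).eq_pt y hn).symm⟩
    | succ n =>
      obtain ⟨f, hf⟩ := R.tp_surj y hn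
      exact ⟨some ⟨n, f⟩, hf⟩

/-- The path model of a section. -/
noncomputable def pathModel (hσ : σ.comp (R.proj p) = TheoryMap.id C) : 𝒪.PathModel 𝒢 p where
  obj := R.ob p σ
  map f := mkHom (fun S (g : R.K S ⟶ _) => g ≫ f) fun _ _ _ _ => Category.assoc _ _ _
  pr ε Y := mkHom (fun S (f : R.K S ⟶ Y) => el f (R.pi p ε S)) fun S T o f => by
    have e : (σ.map o).1.1 = o := congrArg (fun F : TheoryMap C C => F.map o) hσ
    rw [ob_act, el_comp, (σ.map o).2 ε, el_act, e]
  j := R.jm p σ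
  j_bij := R.jm_bij p σ
  nat ε X Y f := hom_ext_el fun _ _ => rfl
  j_pr ε Y z := by
    rcases z with _ | ⟨n, f⟩
    · exact (𝒪.pj 𝒢 p ε Y).pt
    · exact R.pj_tp p ε f

end RD

/-- If all the functors `Y ↦ Dg S (𝒢 Y)` are representable and the filling condition holds, then
`𝒢 Y` is naturally a model over `Y × Y`.

Proof.  Choose `K S`, `s S` with `IsRep`.  For `φ : S ⟶ T` let `Km φ : K S ⟶ K T` be the unique map
with `(s S).map (Gm (Km φ)) = (s T).res φ`; uniqueness (`map_Gm_id`, `map_Gm_comp`, `DP.res_map`)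
gives `Km (𝟙 S) = 𝟙 _`, `Km (φ ≫ ψ) = Km φ ≫ Km ψ`.  Let `π ε S : El (K S) S` be the element with
`toD (π ε S) = (s S).map (pj ε (K S))` (`toD_surjective`); for any `f : K S ⟶ Y`,
`toD (el f (π ε S)) = ((s S).map (Gm f)).map (pj ε Y)` (`toD_map`, `pj_Gm`), in particular
`el (Km φ) (π ε S) = rs (K T) φ (π ε T)` (`toD_injective`, `toD_res`).
* `K` sends gluing squares to pushouts, elementwise: for `Z`, `f : K S ⟶ Z`, `g : K (globe h) ⟶ Z`
  with `Km hinge ≫ f = Km (faceMap hh false) ≫ g` there is `k : K (S.glue ..) ⟶ Z` with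
  `Km inLeft ≫ k = f`, `Km inRight ≫ k = g` (`DP.po_desc (glue_isPushout ..)`, then `IsRep`), and two
  maps out of `K (S.glue ..)` agreeing on both sides agree (`DP.po_ext`).
* The theory `E : GlobTheory.{u}`: `E.arr S T := {x : C.arr S T × (K S ⟶ K T) //
  ∀ ε, el x.2 (π ε S) = (K T).act x.1 (π ε T)}`, componentwise `one`, `seq` (`el_act`, `act_seq`),
  `ofShape φ := (C.ofShape φ, Km φ)`.  `respectsSums`: `IsPushout.of_exists_unique`-style (e.g.
  `⟨⟨w⟩, ⟨PushoutCocone.IsColimit.mk ..⟩⟩`) from `C.respectsSums` and the previous item; the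
  condition for the glued pair is checked with `glue_el_ext`.  `proj : TheoryMap E C` is `x ↦ x.1.1`.
* Section.  Take the tower `τ` of `hC.1`.  By recursion build
  `G r : {G : TheoryMap (τ.stage r) E // G.comp proj = τ.toEnd r}` with
  `(τ.next r).comp (G (r+1)) = G r`: `r = 0` by `stage_zero` (uniqueness for the target `C` gives the
  equation).  Step: for a generator `g`, `P := τ.prob r g`, `n := P.n`, `T := P.shape`,
  `z := (τ.toEnd (r+1)).map (τ.fill r g) : C.arr (globe (n+1)) T`, `x := G.map P.lower`,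
  `x' := G.map P.upper`.  Put `c := DP.top ((s (globe n)).map (Gm x.1.2))`, `c'` likewise; they have
  dimension `n + 1` and are parallel (`n = 0`: faces are `pt` by `eq_pt`; `n + 1`: apply `G.map` to
  `P.parallel`, take second components, `DP.top_res_face`, `fc_succ`).
  `y ε := cl (n+1) ((K T).act z (π ε T))`; `pj ε c = cl n ((K T).act x.1.1 (π ε T))` (`top_toD`) and `z`
  fills `(x.1.1, x'.1.1)` (from `τ.free r`, `toEnd_comm`), which gives the `Arr` hypothesis of `Fill`;
  the last hypothesis holds by `toD_injective`.  `Fill` gives `e`; let `κ : K (globe (n+1)) ⟶ K T`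
  classify `DP.ofCell e _`.  Then `w g := (z, κ)` is an arrow of `E` filling `(x, x')`
  (`DP.ext_top`, uniqueness in `IsRep`).  `(τ.free r).2 E G w` gives `G (r+1)`, and the uniqueness
  part of `(τ.free r).2 C (τ.toEnd r) ..` shows `(G (r+1)).comp proj = τ.toEnd (r+1)`.
  `τ.colim E` gives `σ : TheoryMap C E`, and uniqueness in `τ.colim C` gives `σ.comp proj = id`, i.e.
  `(σ.map o).1.1 = o`.
* `obj Y := mkModel (fun S => K S ⟶ Y) (fun o f => (σ.map o).1.2 ≫ f) ..` (`σ.map_ofShape` turns the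
  gluing conditions into the first item), `map f := mkHom (fun S g => g ≫ f)`,
  `pr ε Y := mkHom (fun S f => el f (π ε S))` (natural by the defining condition of `E.arr`),
  `j Y : none ↦ pt`, `cl n f ↦ DP.top ((s (globe n)).map (Gm f))` (`d_cl`, `DP.top_res_face`,
  `fc_succ`; bijective by `IsRep`, `DP.ofCell`, `DP.ext_top`), `j_pr` by `top_toD`. -/
theorem Ops.pathModel (hC : C.IsCoheratorTheory) (𝒪 : Ops C) (𝒢 : NG.{u})
    (p : Bool → NG.Nat 𝒢 NG.idN)
    (hrep : ∀ S : Shape, ∃ (K : GlobModel C) (s : Dg S (𝒪.G 𝒢 K)), 𝒪.IsRep 𝒢 S K s)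
    (hfill : 𝒪.Fill 𝒢 p) : Nonempty (𝒪.PathModel 𝒢 p) := by
  choose K s hs using hrep
  obtain ⟨τ⟩ := hC.1
  let R : RD 𝒪 𝒢 := ⟨K, s, hs⟩
  obtain ⟨σ, hσ⟩ := tower_section τ (R.liftsFillers p hfill)
  exact ⟨R.pathModel p σ hσ⟩

end Crest.Agent.R248
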