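import Crest.Agent.R248.NG

/-!
# R248: relative coskeleta
-/

set_option autoImplicit false
set_option backward.isDefEq.respectTransparency false

namespace Crest.Agent.R248

universe u

open AG WG

/-- Cells of the relative coskeleton. -/
@[ext] structure TrC {X Y : AG.{u}} (p : Bool → Map X Y) (k : ℕ) where
  y : Bool → Y.A
  c : Bool → X.A
  dim_y : ∀ ε, Y.dim (y ε) = Y.dim (y false)
  par : X.Par (c false) (c true)
  ovr : ∀ ε b, p ε (c b) = Y.fc b k (y ε)
  low : Y.dim (y false) ≤ k → c false = c true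

namespace TrC

variable {X Y : AG.{u}} {p : Bool → Map X Y} {k : ℕ}

theorem dim_c (z : TrC p k) (b : Bool) : X.dim (z.c b) = min k (Y.dim (z.y false)) := by
  rw [← (p false).dim_f, z.ovr, dim_fc]

theorem c_low (z : TrC p k) (h : Y.dim (z.y false) ≤ k) (b : Bool) : z.c b = z.c false := by
  cases b
  · rfl
  · exact (z.low h).symm

theorem par' (z : TrC p k) (b b' : Bool) : X.Par (z.c b) (z.c b') := by
  cases b <;> cases b'
  · exact Par.refl _
  · exact z.par
  · exact z.par.symm
  · exact Par.refl _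

theorem y_low (z : TrC p k) (h : Y.dim (z.y false) ≤ k) (ε : Bool) : p ε (z.c false) = z.y ε := by
  rw [z.ovr, fc_of_le _ (by rw [z.dim_y]; exact h)]

/-- The `X`-components of the faces. -/
def dc (b : Bool) (z : TrC p k) (e : Bool) : X.A :=
  if Y.dim (z.y false) ≤ k then X.d b (z.c false)
  else if Y.dim (z.y false) = k + 1 then z.c b else z.c e

theorem dc_le {b : Bool} {z : TrC p k} {e : Bool} (h : Y.dim (z.y false) ≤ k) :
    dc b z e = X.d b (z.c false) := if_pos h

theorem dc_eq {b : Bool} {z : TrC p k} {e : Bool} (h : Y.dim (z.y false) = k + 1) :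
    dc b z e = z.c b := by rw [dc, if_neg (by omega), if_pos h]

theorem dc_gt {b : Bool} {z : TrC p k} {e : Bool} (h : k + 1 < Y.dim (z.y false)) :
    dc b z e = z.c e := by rw [dc, if_neg (by omega), if_neg (by omega)]

/-- The faces. -/
def d (b : Bool) (z : TrC p k) : TrC p k where
  y ε := Y.d b (z.y ε)
  c := dc b z
  dim_y ε := by rw [Y.dim_d, Y.dim_d, z.dim_y]
  par := by
    rcases lt_trichotomy (Y.dim (z.y false)) (k + 1) with h | h | h
    · rw [dc_le (by omega), dc_le (by omega)]; exact Par.refl _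
    · rw [dc_eq h, dc_eq h]; exact Par.refl _
    · rw [dc_gt h, dc_gt h]; exact z.par
  ovr ε e := by
    have := z.dim_y ε
    rcases lt_trichotomy (Y.dim (z.y false)) (k + 1) with h | h | h
    · rw [dc_le (by omega), ← (p ε).d_f, z.y_low (by omega), fc_of_le _ (by rw [Y.dim_d]; omega)]
    · rw [dc_eq h, z.ovr, fc_succ _ (by omega), fc_of_le _ (by rw [Y.dim_d]; omega)]
    · rw [dc_gt h, z.ovr, fc_d _ _ (by omega)]
  low h' := by
    rw [Y.dim_d] at h'
    rcases lt_trichotomy (Y.dim (z.y false)) (k + 1) with h | h | h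
    · rw [dc_le (by omega), dc_le (by omega)]
    · rw [dc_eq h, dc_eq h]
    · omega

theorem dd (b c c' : Bool) (z : TrC p k) : d b (d c z) = d b (d c' z) := by
  refine TrC.ext (funext fun ε => Y.dd ..) (funext fun e => ?_)
  have h1 : ∀ c, Y.dim ((d c z).y false) = Y.dim (z.y false) - 1 := fun c => Y.dim_d _ _
  change dc b (d c z) e = dc b (d c' z) e
  rcases lt_trichotomy (Y.dim (z.y false)) (k + 2) with h | h | h
  · rw [dc_le (by rw [h1]; omega), dc_le (by rw [h1]; omega)]
    change X.d b (dc c z false) = X.d b (dc c' z false)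
    by_cases h' : Y.dim (z.y false) = k + 1
    · rw [dc_eq h', dc_eq h', (z.par' c c').2]
    · rw [dc_le (by omega), dc_le (by omega), X.dd]
  · rw [dc_eq (by rw [h1]; omega), dc_eq (by rw [h1]; omega)]
    change dc c z b = dc c' z b
    rw [dc_gt (by omega), dc_gt (by omega)]
  · rw [dc_gt (by rw [h1]; omega), dc_gt (by rw [h1]; omega)]
    change dc c z e = dc c' z e
    rw [dc_gt (by omega), dc_gt (by omega)]

/-- The cell of the coskeleton given by a cell of `X`. -/
def eta (p : Bool → Map X Y) (k : ℕ) (x : X.A) : TrC p k where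
  y ε := p ε x
  c b := X.fc b k x
  dim_y ε := by rw [(p ε).dim_f, (p false).dim_f]
  par := par_fc _ _ _ _
  ovr ε b := ((p ε).fc_f _ _ _).symm
  low h := by
    rw [(p false).dim_f] at h
    rw [fc_of_le _ h, fc_of_le _ h]

theorem eq_eta (z : TrC p k) (h : Y.dim (z.y false) ≤ k) : eta p k (z.c false) = z := by
  refine TrC.ext (funext (z.y_low h)) (funext fun b => ?_)
  rw [z.c_low h b]
  exact fc_of_le _ (by rw [z.dim_c]; omega)

end TrC

/-- The relative coskeleton of `X → Y × Y` above dimension `k`. -/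
def Tr {X Y : AG.{u}} (p : Bool → Map X Y) (k : ℕ) : AG.{u} where
  A := TrC p k
  dim z := Y.dim (z.y false)
  d := TrC.d
  pt := TrC.eta p k X.pt
  dim_pt := by change Y.dim (p false X.pt) = 0; rw [(p false).dim_f, X.dim_pt]
  eq_pt z h := by
    rw [← z.eq_eta (by omega), X.eq_pt (z.c false) (by rw [z.dim_c]; omega)]
  dim_d _ _ := Y.dim_d _ _
  dd := TrC.dd

namespace Tr

variable {X Y : AG.{u}} (p : Bool → Map X Y) (k : ℕ)

/-- The comparison map. -/
def η : Map X (Tr p k) where
  f := TrC.eta p k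
  dim_f := (p false).dim_f
  d_f b x := by
    refine TrC.ext (funext fun ε => (p ε).d_f b x) (funext fun e => ?_)
    have h1 : Y.dim ((TrC.eta p k x).y false) = X.dim x := (p false).dim_f x
    change TrC.dc b (TrC.eta p k x) e = X.fc e k (X.d b x)
    rcases lt_trichotomy (X.dim x) (k + 1) with h | h | h
    · rw [TrC.dc_le (by omega), fc_of_le e (by rw [X.dim_d]; omega)]
      exact congrArg (X.d b) (fc_of_le false (by omega))
    · rw [TrC.dc_eq (by omega), fc_of_le e (by rw [X.dim_d]; omega)]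
      exact fc_succ b h
    · rw [TrC.dc_gt (by omega), fc_d _ _ h]; rfl

/-- The projections. -/
def pr (ε : Bool) : Map (Tr p k) Y := ⟨fun z => z.y ε, fun z => z.dim_y ε, fun _ _ => rfl⟩

theorem pr_η (ε : Bool) (x : X.A) : pr p k ε (η p k x) = p ε x := rfl

theorem bijLe_η : BijLe k (η p k) := by
  refine ⟨fun c c' h e => ?_, fun z h => ⟨_, z.eq_eta h⟩⟩
  have h1 : X.fc false k c = X.fc false k c' := congrArg (fun z : TrC p k => z.c false) e
  have h2 : X.dim c' = X.dim c := by rw [← (η p k).dim_f, ← e, (η p k).dim_f]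
  rwa [fc_of_le _ h, fc_of_le _ (by omega)] at h1

variable {p k}

/-- All spheres of dimension `≥ k` have relative fillers. -/
theorem fill {c c' : (Tr p k).A} (hp : (Tr p k).Par c c') (hc : k ≤ (Tr p k).dim c)
    (y : Bool → Y.A) (hy : ∀ ε, Y.Arr (y ε) (pr p k ε c) (pr p k ε c')) :
    ∃ e, (Tr p k).Arr e c c' ∧ ∀ ε, pr p k ε e = y ε := by
  have h0 : Y.dim (c'.y false) = Y.dim (c.y false) := hp.1.symm
  have hc' : k ≤ Y.dim (c.y false) := hc
  have h1 : ∀ ε, Y.dim (y ε) = Y.dim (c.y false) + 1 := fun ε => by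
    rw [(hy ε).1, (pr p k ε).dim_f]; rfl
  have h2 : ∀ b e, TrC.dc b c e = TrC.dc b c' e := fun b e =>
    congrArg (fun z : TrC p k => z.c e) (hp.2 b)
  have h3 : ∀ ε, Y.d false (y ε) = c.y ε := fun ε => (hy ε).2.1
  have h4 : ∀ ε, Y.d true (y ε) = c'.y ε := fun ε => (hy ε).2.2
  by_cases hk : Y.dim (c.y false) = k
  · let e : TrC p k :=
      { y := y
        c := fun b => if b then c'.c false else c.c false
        dim_y := fun ε => by rw [h1, h1]
        par := ⟨by rw [if_neg (by simp), if_pos rfl, c.dim_c, c'.dim_c, h0], fun b => by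
          have := h2 b false
          rwa [TrC.dc_le (by omega), TrC.dc_le (by omega)] at this⟩
        ovr := fun ε b => by
          rw [fc_succ _ (by rw [h1, hk])]
          cases b
          · rw [h3]; exact c.y_low (by omega) ε
          · rw [h4]; exact c'.y_low (by omega) ε
        low := fun h => by rw [h1] at h; omega }
    have he : Y.dim (e.y false) = k + 1 := by change Y.dim (y false) = _; rw [h1, hk]
    refine ⟨e, ⟨h1 false, TrC.ext (funext h3) (funext fun b => ?_),
      TrC.ext (funext h4) (funext fun b => ?_)⟩, fun _ => rfl⟩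
    · exact (TrC.dc_eq he).trans (c.c_low (by omega) b).symm
    · exact (TrC.dc_eq he).trans (c'.c_low (by omega) b).symm
  · have h5 : ∀ b, c.c b = c'.c b := fun b => by
      have := h2 b b
      by_cases h : Y.dim (c.y false) = k + 1
      · rwa [TrC.dc_eq h, TrC.dc_eq (by omega)] at this
      · rwa [TrC.dc_gt (by omega), TrC.dc_gt (by omega)] at this
    let e : TrC p k :=
      { y := y
        c := c.c
        dim_y := fun ε => by rw [h1, h1]
        par := c.par
        ovr := fun ε b => by rw [c.ovr, ← h3, fc_d _ _ (by rw [h1]; omega)]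
        low := fun h => by rw [h1] at h; omega }
    have he : k + 1 < Y.dim (e.y false) := by change _ < Y.dim (y false); rw [h1]; omega
    exact ⟨e, ⟨h1 false, TrC.ext (funext h3) (funext fun b => TrC.dc_gt he),
      TrC.ext (funext h4) (funext fun b => (TrC.dc_gt he).trans (h5 b))⟩, fun _ => rfl⟩

end Tr

namespace NG

variable (𝒢 : NG.{u}) (p : Bool → Nat 𝒢 idN) (k : ℕ)

/-- Functoriality of the coskeleton on cells. -/
def trMap {X Y : WG.{u}} (f : Hom X Y) (z : TrC (fun ε => (p ε).app X) k) :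
    TrC (fun ε => (p ε).app Y) k where
  y ε := f (z.y ε)
  c b := 𝒢.map f (z.c b)
  dim_y ε := (f.dim_f _).trans ((z.dim_y ε).trans (f.dim_f _).symm)
  par := z.par.map _
  ovr ε b := ((p ε).nat f _).trans
    ((congrArg f (z.ovr ε b)).trans (f.toMap.fc_f _ _ _).symm)
  low h := congrArg _ (z.low ((f.dim_f _).symm.trans_le h))

/-- The relative coskeleton as a natural construction. -/
def TrN : NG.{u} where
  obj X := Tr (fun ε => (p ε).app X) k
  map {X Y} f :=
    { f := trMap 𝒢 p k f
      dim_f := fun z => f.dim_f _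
      d_f := fun b z => by
        refine TrC.ext (funext fun ε => f.d_f _ _) (funext fun e => ?_)
        have h1 : (idN.obj Y).dim ((trMap 𝒢 p k f z).y false) = (idN.obj X).dim (z.y false) :=
          f.dim_f _
        change TrC.dc b (trMap 𝒢 p k f z) e = 𝒢.map f (TrC.dc b z e)
        rcases lt_trichotomy ((idN.obj X).dim (z.y false)) (k + 1) with h | h | h
        · rw [TrC.dc_le (by omega), TrC.dc_le (by omega)]; exact (𝒢.map f).d_f _ _
        · rw [TrC.dc_eq (by omega), TrC.dc_eq (by omega)]; rfl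
        · rw [TrC.dc_gt (by omega), TrC.dc_gt (by omega)]; rfl }
  ι := Bool ⊕ Bool × 𝒢.ι
  δ n := Sum.elim (fun _ => n) fun x => 𝒢.δ (min k n) x.2
  sp z := Sum.elim z.y fun x => 𝒢.sp (z.c x.1) x.2
  sp_map f z i := by
    rcases i with i | ⟨b, i⟩
    · rfl
    · exact 𝒢.sp_map f _ i
  dim_sp z i := by
    rcases i with i | ⟨b, i⟩
    · exact z.dim_y i
    · exact (𝒢.dim_sp _ i).trans (by rw [z.dim_c]; rfl)
  inj z z' h e := TrC.ext (funext fun ε => e (.inl ε)) (funext fun b =>
    𝒢.inj _ _ (by rw [z.dim_c, z'.dim_c]; exact congrArg _ h) fun i => e (.inr (b, i)))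
  refl {X κ _ Y} f hf z n hn x h := by
    have := fun b => 𝒢.refl f hf (fun j => (z j).c b) (min k n)
      (fun j => by rw [TrC.dim_c]; exact congrArg _ (hn j)) (fun i => x (.inr (b, i)))
      fun j i => h j (.inr (b, i))
    choose c hc using this
    have hy : ∀ j ε, f j (x (.inl ε)) = (z j).y ε := fun j ε => h j (.inl ε)
    obtain ⟨j₀⟩ := ‹Nonempty κ›
    refine ⟨⟨fun ε => x (.inl ε), c, fun ε => ?_, (𝒢.ji hf).par fun j => ?_, fun ε b => ?_,
      fun h' => 𝒢.ji hf _ _ fun j => ?_⟩,
      fun j => TrC.ext (funext (hy j)) (funext fun b => hc b j)⟩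
    · change X.dim _ = X.dim _
      rw [← (f j₀).dim_f, ← (f j₀).dim_f, hy, hy]; exact (z j₀).dim_y ε
    · rw [hc, hc]; exact (z j).par
    · refine hf _ _ fun j => ((p ε).nat (f j) _).symm.trans ?_
      rw [hc, (z j).ovr, ← hy]; exact (f j).toMap.fc_f _ _ _
    · rw [hc, hc]
      refine (z j).low ?_
      rw [← hy]; exact ((f j).dim_f _).trans_le h'

/-- The comparison map. -/
def TrN.η : Nat 𝒢 (TrN 𝒢 p k) where
  app X := Tr.η (fun ε => (p ε).app X) k
  nat f z := TrC.ext (funext fun ε => (p ε).nat f z) (funext fun _ => (𝒢.map f).fc_f _ _ _)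

/-- The projections. -/
def TrN.pr (ε : Bool) : Nat (TrN 𝒢 p k) idN where
  app X := Tr.pr (fun ε => (p ε).app X) k ε
  nat _ _ := rfl

end NG

end Crest.Agent.R248
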