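import Crest.Agent.R248.P
import Crest.Agent.R248.Tr
import Crest.Agent.R248.TShape
import Crest.Agent.R248.Rep
import Crest.Agent.R248.ThA

/-!
# R248: connectivity of the representing models and the downward induction
-/

set_option autoImplicit false
set_option backward.isDefEq.respectTransparency false

namespace Crest.Agent.R248

universe u

open CategoryTheory Crest.GeometryTopology.Coherator AG WG GlobTheory NG

variable {C : GlobTheory.{u}}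

/-- Connectivity of the representing model from the next path model. -/
theorem contr (hC : C.IsCoheratorTheory) (𝒪 : Ops C) {μ k : ℕ} {𝒢 : NG.{u}}
    (η : NG.Nat (PN μ) 𝒢) (hη : ∀ X, BijLe k (η.app X)) {S : Shape} (hS : S.dim + 1 ≤ k)
    (hμ : μ + 1 ≤ k) {K : GlobModel C} {s : Dg S (𝒪.G 𝒢 K)} (hr : 𝒪.IsRep 𝒢 S K s)
    (PM : PathM C (μ + 2) k) {a a' : (U K).A} (hp : (U K).Par a a') (ha : (U K).dim a = k) :
    (U K).Step a a' := by
  obtain ⟨s₀, hs₀⟩ := DP.exists_map_eq (hη (𝒪.W K)).tf S hS s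
  obtain ⟨S', r, hS', H⟩ := tshape μ S (s₀.map (P.t μ (𝒪.W K)))
  obtain ⟨i, hi, -⟩ := free_rep r
  let F := GlobModel.freeOn C S'
  obtain ⟨r', hr'⟩ := DP.exists_map_eq (PM.tf k le_rfl false F) S' (by omega) (uD C S')
  obtain ⟨t', ht'⟩ := H (U (PM.obj F)) ((Um i).comp (Um (PM.pr false F))) r'
    (by rw [← DP.map_map, hr']; exact hi)
  obtain ⟨sF, hsF⟩ := DP.exists_map_eq (P.tf_t (μ := μ) (X := 𝒪.W F) k) S hS
    (t'.map (T.map μ (Um (PM.pr true F))))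
  obtain ⟨ψ, hψ, -⟩ := hr F (sF.map (η.app _))
  have nat : ∀ ε, T.map μ ((Um (PM.pr ε K)).comp (Um (PM.map i))) =
      T.map μ ((Um i).comp (Um (PM.pr ε F))) := fun ε => T.map_congr fun x => by
    rw [Map.comp_apply, Map.comp_apply, ← Um_comp, ← Um_comp, PM.nat]
  have tc : ∀ {X Y Z : AG.{u}} (f : Map X Y) (g : Map Y Z) (t : Dg S (T μ X)),
      (t.map (T.map μ f)).map (T.map μ g) = t.map (T.map μ (g.comp f)) :=
    fun f g t => DP.ext' fun _ _ => (T.map_comp f g _).symm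
  obtain ⟨sH, hsH⟩ := P.joint_dg (μ := μ) (f := fun ε => 𝒪.hom (PM.pr ε K)) (PM.fib k le_rfl K) hS
    (t'.map (T.map μ (Um (PM.map i))))
    (fun ε => match ε with
      | false => s₀
      | true => sF.map ((PN μ).map (𝒪.hom i)))
    (fun ε => match ε with
      | false => ht'.symm.trans ((congrArg t'.map (nat false).symm).trans (tc _ _ _).symm)
      | true => by
        refine Eq.trans ?_ ((congrArg t'.map (nat true).symm).trans (tc _ _ _).symm)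
        rw [← tc, ← hsF]
        exact DP.ext' fun n x => (tP μ).nat (𝒪.hom i) _)
  obtain ⟨h, hh, -⟩ := hr (PM.obj K) (sH.map (η.app _))
  have ηn : ∀ {X Y : GlobModel C} (f : X ⟶ Y) (z : Dg S (P μ (𝒪.W X))),
      (z.map (η.app _)).map (𝒪.Gm 𝒢 f) = (z.map ((PN μ).map (𝒪.hom f))).map (η.app _) :=
    fun f z => DP.ext' fun _ _ => (η.nat (𝒪.hom f) _).symm
  have h0 : h ≫ PM.pr false K = 𝟙 K := (hr K s).unique
    (by rw [𝒪.map_Gm_comp, hh, ηn, hsH false, hs₀]) (𝒪.map_Gm_id 𝒢 s)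
  have h1 : h ≫ PM.pr true K = ψ ≫ i := (hr K (s.map (𝒪.Gm 𝒢 (ψ ≫ i)))).unique
    (by rw [𝒪.map_Gm_comp, hh, ηn, hsH true, 𝒪.map_Gm_comp, hψ, ηn]) rfl
  obtain ⟨z, hz⟩ := conn_free hC S' (hp.map (Um ψ)) (by rw [Map.dim_f]; omega)
    (by rw [Map.dim_f]; omega)
  obtain ⟨e, he, -⟩ := PM.tf k le_rfl true K _ _ (hp.map (Um h)) (by rw [Map.dim_f]; omega)
    (Um i z) (by
      rw [← Um_comp, ← Um_comp, h1, Um_comp, Um_comp]; exact hz.map (Um i))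
  have := he.map (Um (PM.pr false K))
  rw [← Um_comp, ← Um_comp, h0, Um_id, Um_id] at this
  exact ⟨_, this⟩

/-- Relative fillers in the path object of a connected object. -/
theorem fill_at {μ : ℕ} {X : WG.{u}} (hT : X.Theta) {c c' : (P μ X).A} (hp : (P μ X).Par c c')
    (y : Bool → X.A) (hy : ∀ ε, X.Arr (y ε) (P.p μ X ε c) (P.p μ X ε c'))
    (hlo : (P μ X).dim c < μ → y false = y true)
    (hhi : μ ≤ (P μ X).dim c → ∀ a a', X.Par a a' → X.dim a = (P μ X).dim c + 1 → X.Step a a') :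
    ∃ e, (P μ X).Arr e c c' ∧ ∀ ε, P.p μ X ε e = y ε := by
  obtain ⟨e, he, h0⟩ := P.tf_p hT _ false c c' hp (Nat.lt_succ_self _) _ (hy false)
  have hd := he.1
  by_cases h : (P μ X).dim c < μ
  · refine ⟨e, he, fun ε => ?_⟩
    cases ε
    · exact h0
    · rw [← P.p_diag (by omega), h0, hlo h]
  · obtain ⟨b, hb⟩ := hhi (by omega) _ _ ((he.map (P.p μ X true)).par_arr (hy true))
      (by rw [Map.dim_f, hd])
    have hu := X.unit_arr (P.p μ X false e) (by rw [Map.dim_f]; omega)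
    obtain ⟨e₂, h1, h2, h3⟩ := P.fib_p hT _ e (by omega) le_rfl
      (fun ε => match ε with
        | false => X.unit (P.p μ X false e)
        | true => b)
      (fun ε => match ε with
        | false => ⟨by rw [hu.1, Map.dim_f], hu.2.1⟩
        | true => ⟨by rw [hb.1, Map.dim_f], hb.2.1⟩)
    have h4 : (P μ X).Arr e₂ e ((P μ X).d true e₂) := ⟨h1, h2, rfl⟩
    refine ⟨_, he.of_par h4.par, fun ε => ?_⟩
    rw [← Map.d_f, h3]
    cases ε
    · exact hu.2.2.trans h0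
    · exact hb.2.2

section

variable (hC : C.IsCoheratorTheory) (𝒪 : Ops C) (hT : ∀ Y, (𝒪.W Y).Theta) {μ : ℕ} {𝒢 : NG.{u}}
  (p : Bool → NG.Nat 𝒢 idN) (η : NG.Nat (PN μ) 𝒢)
  (hpη : ∀ ε X z, (p ε).app X (η.app X z) = P.p μ X ε z)

include hC hT hpη in
theorem fill_lt {d : ℕ} (hη : ∀ X, BijLe d (η.app X))
    (PM : ∀ k : ℕ, μ + 1 ≤ k → k ≤ d → Nonempty (PathM C (μ + 2) k))
    {S : Shape} {K : GlobModel C} {s : Dg S (𝒪.G 𝒢 K)} (hr : 𝒪.IsRep 𝒢 S K s)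
    {c c' : (𝒪.G 𝒢 K).A} (hp : (𝒪.G 𝒢 K).Par c c') (hS : S.dim ≤ (𝒪.G 𝒢 K).dim c)
    (hd : (𝒪.G 𝒢 K).dim c < d) (y : Bool → (U K).A)
    (hy : ∀ ε, (U K).Arr (y ε) (𝒪.pj 𝒢 p ε K c) (𝒪.pj 𝒢 p ε K c'))
    (hs : s.map (𝒪.pj 𝒢 p false K) = s.map (𝒪.pj 𝒢 p true K) → y false = y true) :
    ∃ e, (𝒪.G 𝒢 K).Arr e c c' ∧ ∀ ε, 𝒪.pj 𝒢 p ε K e = y ε := by
  obtain ⟨a, rfl⟩ := (hη _).2 c hd.le
  obtain ⟨a', rfl⟩ := (hη _).2 c' (hp.1 ▸ hd.le)
  rw [Map.dim_f] at hS hd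
  change S.dim ≤ (P μ (𝒪.W K)).dim a at hS
  change (P μ (𝒪.W K)).dim a < d at hd
  obtain ⟨e, h1, h2⟩ := fill_at (hT K) ((hη _).par (hd.le.trans (Nat.le_succ _)) hp) y
    (fun ε => by rw [← hpη, ← hpη]; exact hy ε)
    (fun h => hs (by
      obtain ⟨s₀, rfl⟩ := DP.exists_map_eq (hη (𝒪.W K)).tf S (by omega) s
      rw [DP.map_map, DP.map_map]
      exact s₀.map_congr fun x hx => (hpη _ _ _).trans
        ((P.p_diag (hx.trans (by omega))).trans (hpη _ _ _).symm)))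
    fun h b b' hb hb' => by
      obtain ⟨M⟩ := PM ((P μ (𝒪.W K)).dim a + 1) (Nat.succ_le_succ h) hd
      exact contr hC 𝒪 η (fun X => (hη X).mono hd) (Nat.succ_le_succ hS) (Nat.succ_le_succ h) hr M
        hb hb'
  exact ⟨η.app _ e, h1.map _, fun ε => (hpη _ _ _).trans (h2 ε)⟩

include hT hpη in
theorem tf_pj {n : ℕ} (hη : ∀ X, BijLe n (η.app X)) (ε : Bool) (Y : GlobModel C) :
    TF (n + 1) (𝒪.pj 𝒢 p ε Y) := by
  refine TF.of_bijLe (hη _) ?_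
  have : (𝒪.pj 𝒢 p ε Y).comp (η.app _) = P.p μ (𝒪.W Y) ε := Map.ext (funext (hpη ε _))
  exact this ▸ P.tf_p (hT Y) _ ε

include hT hpη in
theorem pathM_of {N : ℕ∞} (hη : ∀ n : ℕ, n ≤ N → ∀ X, BijLe n (η.app X))
    (M : 𝒪.PathModel 𝒢 p) : Nonempty (PathM C (μ + 1) N) := by
  have e1 : ∀ ε Y, (𝒪.pj 𝒢 p ε Y).comp (M.j Y) = Um (M.pr ε Y) := fun ε Y =>
    Map.ext (funext (M.j_pr ε Y))
  refine ⟨⟨M.obj, M.map, M.pr, M.nat, fun n hn ε Y => ?_, fun n hn Y => ?_⟩⟩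
  · rw [← e1]
    exact (tf_pj 𝒪 hT p η hpη (hη n hn) ε Y).comp (bijLe_of_bijective (M.j_bij Y) _).tf
  · have e2 : (fun ε => (𝒪.pj 𝒢 p ε Y).comp (η.app _)) = P.p μ (𝒪.W Y) :=
      funext fun ε => Map.ext (funext (hpη ε _))
    have h1 : Fib (μ + 1) n fun ε => 𝒪.pj 𝒢 p ε Y :=
      Fib.of_bijLe (hη n hn _) (e2 ▸ P.fib_p (hT Y) n)
    simpa only [e1] using h1.comp_bij (M.j_bij Y)

end

variable (C) in
/-- The terminal model. -/
def termModel : GlobModel C :=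
  mkModel (fun _ => PUnit) (fun _ _ => PUnit.unit) (fun _ _ => rfl) (fun _ _ _ => rfl)
    (fun _ _ _ _ _ _ _ _ _ => rfl) fun _ _ _ _ _ _ _ _ => ⟨PUnit.unit, rfl, rfl⟩

theorem term_ext {a a' : (U (termModel C)).A} (h : (U _).dim a = (U _).dim a') : a = a' := by
  rcases hn : (U _).dim a with _ | n
  · rw [(U _).eq_pt a hn, (U _).eq_pt a' (h ▸ hn)]
  · obtain ⟨x, rfl⟩ := exists_cl hn
    obtain ⟨y, rfl⟩ := exists_cl (h ▸ hn : (U _).dim a' = n + 1)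
    rfl

theorem exists_rep_of_tf (𝒪 : Ops C) (𝒢 : NG.{u}) (p : Bool → NG.Nat 𝒢 idN)
    (h : ∀ N, TF N (𝒪.pj 𝒢 p false (termModel C))) (S : Shape) :
    ∃ (K : GlobModel C) (s : Dg S (𝒪.G 𝒢 K)), 𝒪.IsRep 𝒢 S K s := by
  obtain ⟨s, -⟩ := DP.exists_map_eq (h _) S le_rfl (toD (Y := termModel C) PUnit.unit)
  exact 𝒪.exists_rep 𝒢 S ⟨_, ⟨s⟩⟩

/-- The truncated path models, by downward induction on `μ`. -/
theorem pathM_trunc (hC : C.IsCoheratorTheory) (𝒪 : Ops C) (hT : ∀ Y, (𝒪.W Y).Theta) :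
    ∀ n μ d : ℕ, d ≤ μ + n → Nonempty (PathM C (μ + 1) d) := by
  have key : ∀ μ d : ℕ, (∀ k : ℕ, μ + 1 ≤ k → k ≤ d → Nonempty (PathM C (μ + 2) k)) →
      Nonempty (PathM C (μ + 1) d) := by
    intro μ d PM
    have hη : ∀ X, BijLe d ((TrN.η (PN μ) (pP μ) d).app X) := fun X => Tr.bijLe_η _ _
    obtain ⟨M⟩ := 𝒪.pathModel hC (TrN (PN μ) (pP μ) d) (TrN.pr _ _ _)
      (exists_rep_of_tf 𝒪 _ (TrN.pr _ _ _) fun N c c' hp _ y hy => by
        by_cases hd : (𝒪.G _ _).dim c < d + 1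
        · exact tf_pj 𝒪 hT (TrN.pr _ _ _) (TrN.η _ _ _) (fun _ _ _ => rfl) hη false _ c c' hp hd
            y hy
        · obtain ⟨e, h1, h2⟩ := Tr.fill hp (Nat.le_of_succ_le (not_lt.1 hd)) (fun _ => y)
            fun ε => ⟨by rw [Map.dim_f]; exact hy.1.trans (by rw [Map.dim_f]; rfl),
              hy.2.1.trans (term_ext (by rw [Map.dim_f]; exact (Map.dim_f _ _).symm)),
              hy.2.2.trans (term_ext (by rw [Map.dim_f]; exact (Map.dim_f _ _).symm))⟩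
          exact ⟨e, h1, h2 false⟩)
      fun S K s hr c c' hp _ hS y hy hs => by
        by_cases hd : (𝒪.G _ K).dim c < d
        · exact fill_lt hC 𝒪 hT (TrN.pr _ _ _) (TrN.η _ _ _) (fun _ _ _ => rfl) hη PM hr hp hS hd
            y hy hs
        · exact Tr.fill hp (not_lt.1 hd) y hy
    exact pathM_of 𝒪 hT (TrN.pr _ _ _) (TrN.η _ _ _) (fun _ _ _ => rfl)
      (fun n hn X => (hη X).mono (by exact_mod_cast hn)) M
  intro n
  induction n with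
  | zero => exact fun μ d h => key μ d fun k h1 h2 => by omega
  | succ n ih => exact fun μ d h => key μ d fun k h1 h2 => ih (μ + 1) k (by omega)

/-- The path model. -/
theorem exists_pathM (hC : C.IsCoheratorTheory) (𝒪 : Ops C) (hT : ∀ Y, (𝒪.W Y).Theta) :
    Nonempty (PathM C 1 ⊤) := by
  obtain ⟨M⟩ := 𝒪.pathModel hC (PN 0) (pP 0)
    (exists_rep_of_tf 𝒪 _ (pP 0) fun N => P.tf_p (hT _) N false)
    fun S K s hr c c' hp _ hS y hy hs =>
      fill_lt hC 𝒪 hT (pP 0) (NG.Nat.id _) (fun _ _ _ => rfl) (fun _ => bijLe_id _)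
        (fun k _ _ => pathM_trunc hC 𝒪 hT k 1 k (by omega)) hr hp hS (Nat.lt_succ_self _) y hy hs
  exact pathM_of 𝒪 hT (pP 0) (NG.Nat.id _) (fun _ _ _ => rfl) (fun n _ _ => bijLe_id n) M

end Crest.Agent.R248
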