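import Crest.Prelude.Def_GlobularCoherator
import Crest.Agent.R248.AG

/-!
# R248: diagrams of a given shape in an augmented globular set
-/

set_option autoImplicit false
set_option backward.isDefEq.respectTransparency false

namespace Crest.Agent.R248

universe u

open CategoryTheory CategoryTheory.Limits Opposite Crest.GeometryTopology.Coherator AG

/-- Maps from a globular set `P` to the augmented globular set `X`. -/
@[ext] structure DP (P : GlobPsh.{0}) (X : AG.{u}) where
  app : ∀ n : ℕ, P.obj (op ⟨n⟩) → X.A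
  dim_app : ∀ n c, X.dim (app n c) = n + 1
  fc_app : ∀ (m n : ℕ) (h : m < n) (b : Bool) (c : P.obj (op ⟨n⟩)),
    app m (P.map (GlobeObj.faceArrow h b).op c) = X.fc b (m + 1) (app n c)

/-- Diagrams of shape `S`. -/
abbrev Dg (S : Shape) (X : AG.{u}) := DP S.psh X

namespace DP

variable {P Q R : GlobPsh.{0}} {X Y Z : AG.{u}}

/-- Push a diagram forward. -/
def map (s : DP P X) (f : Map X Y) : DP P Y where
  app n c := f (s.app n c)
  dim_app n c := by rw [f.dim_f, s.dim_app]
  fc_app m n h b c := by rw [s.fc_app, f.fc_f]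

/-- Restrict a diagram. -/
def res (φ : P ⟶ Q) (s : DP Q X) : DP P X where
  app n c := s.app n (φ.app _ c)
  dim_app n c := s.dim_app _ _
  fc_app m n h b c := by rw [NatTrans.naturality_apply, s.fc_app]

theorem ext' {s t : DP P X} (h : ∀ n c, s.app n c = t.app n c) : s = t :=
  DP.ext (funext fun n => funext (h n))

@[simp] theorem map_app (s : DP P X) (f : Map X Y) (n : ℕ) (c) :
    (s.map f).app n c = f (s.app n c) := rfl
@[simp] theorem res_app (φ : P ⟶ Q) (s : DP Q X) (n : ℕ) (c) :
    (s.res φ).app n c = s.app n (φ.app _ c) := rfl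
theorem map_map (s : DP P X) (f : Map X Y) (g : Map Y Z) : (s.map f).map g = s.map (g.comp f) :=
  rfl
@[simp] theorem map_id (s : DP P X) : s.map (Map.id X) = s := rfl
theorem res_map (φ : P ⟶ Q) (s : DP Q X) (f : Map X Y) : (s.map f).res φ = (s.res φ).map f := rfl
@[simp] theorem res_id (s : DP P X) : s.res (𝟙 P) = s := rfl
theorem res_comp (φ : P ⟶ Q) (ψ : Q ⟶ R) (s : DP R X) : s.res (φ ≫ ψ) = (s.res ψ).res φ := rfl
theorem map_congr' (s : DP P X) {f g : Map X Y} (h : ∀ n c, f (s.app n c) = g (s.app n c)) :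
    s.map f = s.map g := ext' h

/-- A diagram in a pullback. -/
def pb {f : Map X Z} {g : Map Y Z} (a : DP P X) (b : DP P Y) (h : a.map f = b.map g) :
    DP P (PB f g) where
  app n c := ⟨(a.app n c, b.app n c), congrFun (congrFun (congrArg DP.app h) n) c⟩
  dim_app n c := a.dim_app n c
  fc_app m n hmn e c := PB.ext (by rw [← Map.fc_f]; exact a.fc_app m n hmn e c)
    (by rw [← Map.fc_f]; exact b.fc_app m n hmn e c)

@[simp] theorem pb_fst {f : Map X Z} {g : Map Y Z} (a : DP P X) (b : DP P Y)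
    (h : a.map f = b.map g) : (pb a b h).map (PB.fst f g) = a := rfl
@[simp] theorem pb_snd {f : Map X Z} {g : Map Y Z} (a : DP P X) (b : DP P Y)
    (h : a.map f = b.map g) : (pb a b h).map (PB.snd f g) = b := rfl

/-! ### Globes -/

/-- The top cell of a globe. -/
def top {n : ℕ} (s : DP (GlobPsh.globeRep n) X) : X.A := s.app n (𝟙 (GlobeObj.mk n))

theorem dim_top {n : ℕ} (s : DP (GlobPsh.globeRep n) X) : X.dim s.top = n + 1 := s.dim_app _ _

@[simp] theorem top_map {n : ℕ} (s : DP (GlobPsh.globeRep n) X) (f : Map X Y) :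
    (s.map f).top = f s.top := rfl

theorem app_pole {n m : ℕ} (s : DP (GlobPsh.globeRep n) X) (h : m < n) (b : Bool) :
    s.app m (GlobeObj.faceArrow h b) = X.fc b (m + 1) s.top :=
  s.fc_app m n h b (𝟙 (GlobeObj.mk n))

theorem top_res_face {n m : ℕ} (s : DP (GlobPsh.globeRep n) X) (h : m < n) (b : Bool) :
    (s.res (GlobPsh.globeRepFace h b)).top = X.fc b (m + 1) s.top :=
  s.app_pole h b

theorem ext_top {n : ℕ} {s t : DP (GlobPsh.globeRep n) X} (h : s.top = t.top) : s = t := by
  refine ext' fun m c => ?_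
  change GlobeObj.Arrow m n at c
  cases c with
  | refl => exact h
  | pole lt b => exact (s.app_pole lt b).trans (h ▸ (t.app_pole lt b).symm)

/-- The face of `x` named by an arrow of globes. -/
def faceOf (x : X.A) : {m n : ℕ} → GlobeObj.Arrow m n → X.A
  | _, _, .refl _ => x
  | m, _, .pole _ b => X.fc b (m + 1) x

/-- The globe with a given top cell. -/
def ofCell {n : ℕ} (x : X.A) (hx : X.dim x = n + 1) : DP (GlobPsh.globeRep n) X where
  app m c := faceOf x (c : GlobeObj.Arrow m n)
  dim_app m c := by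
    change GlobeObj.Arrow m n at c
    cases c with
    | refl => exact hx
    | pole lt b => exact dim_fc_of_le (j := m + 1) b (by omega)
  fc_app m k h b c := by
    change GlobeObj.Arrow k n at c
    cases c with
    | refl => rfl
    | pole lt e => exact (fc_fc (j := m + 1) (j' := k + 1) b e (by omega) x).symm

@[simp] theorem top_ofCell {n : ℕ} (x : X.A) (hx : X.dim x = n + 1) : (ofCell x hx).top = x := rfl

/-- The map of presheaves classifying a cell. -/
def yo {n : ℕ} (c : P.obj (op ⟨n⟩)) : GlobPsh.globeRep n ⟶ P := yonedaEquiv.symm c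

theorem yo_app {n : ℕ} (c : P.obj (op ⟨n⟩)) : (yo c).app _ (𝟙 (GlobeObj.mk n)) = c :=
  (yonedaEquiv_apply (yo c)).symm.trans (yonedaEquiv.apply_symm_apply c)

theorem top_res_yo {n : ℕ} (s : DP P X) (c : P.obj (op ⟨n⟩)) : (s.res (yo c)).top = s.app n c := by
  rw [top, res_app, yo_app]

theorem yo_eq {n : ℕ} (φ : GlobPsh.globeRep n ⟶ P) : yo (φ.app _ (𝟙 (GlobeObj.mk n))) = φ :=
  yonedaEquiv.symm_apply_apply φ

theorem yo_comp {n : ℕ} (c : P.obj (op ⟨n⟩)) (φ : P ⟶ Q) : yo c ≫ φ = yo (φ.app _ c) := by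
  rw [← yo_eq (yo c ≫ φ), NatTrans.comp_app_apply, yo_app]

theorem face_yo {m n : ℕ} (h : m < n) (b : Bool) (c : P.obj (op ⟨n⟩)) :
    GlobPsh.globeRepFace h b ≫ yo c = yo (P.map (GlobeObj.faceArrow h b).op c) := by
  rw [← yo_eq (GlobPsh.globeRepFace h b ≫ yo c)]
  have := NatTrans.naturality_apply (yo c) (GlobeObj.faceArrow h b).op (𝟙 (GlobeObj.mk n))
  rw [yo_app] at this
  exact congrArg yo this

/-! ### Pushouts -/

theorem exists_desc {X₁ X₂ X₃ X₄ : Type} {t : X₁ ⟶ X₂} {l : X₁ ⟶ X₃} {r : X₂ ⟶ X₄} {b : X₃ ⟶ X₄}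
    (h : IsPushout t l r b) {V : Type u} (f : X₂ → V) (g : X₃ → V) (e : ∀ x, f (t x) = g (l x)) :
    ∃ k : X₄ → V, (∀ x, k (r x) = f x) ∧ ∀ x, k (b x) = g x := by
  have h' := h.map uliftFunctor.{u, 0}
  let k := h'.desc (W := V) (↾fun x => f x.down) (↾fun x => g x.down) (by ext x; exact e x.down)
  refine ⟨fun x => k (ULift.up x), fun x => ?_, fun x => ?_⟩
  · exact types_congr_hom (h'.inl_desc _ _ _) (ULift.up x)
  · exact types_congr_hom (h'.inr_desc _ _ _) (ULift.up x)

variable {P₀ P₁ P₂ P₃ : GlobPsh.{0}} {t : P₀ ⟶ P₁} {l : P₀ ⟶ P₂} {r : P₁ ⟶ P₃} {b : P₂ ⟶ P₃}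

theorem po_cases (h : IsPushout t l r b) (n : ℕ) (c : P₃.obj (op ⟨n⟩)) :
    (∃ x, r.app _ x = c) ∨ ∃ x, b.app _ x = c :=
  Types.eq_or_eq_of_isPushout (h.map ((evaluation _ _).obj (op (GlobeObj.mk n)))) c

theorem po_ext (h : IsPushout t l r b) {s s' : DP P₃ X} (h1 : s.res r = s'.res r)
    (h2 : s.res b = s'.res b) : s = s' := by
  refine ext' fun n c => ?_
  rcases po_cases h n c with ⟨x, rfl⟩ | ⟨x, rfl⟩
  · exact congrFun (congrFun (congrArg DP.app h1) n) x
  · exact congrFun (congrFun (congrArg DP.app h2) n) x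

theorem po_desc (h : IsPushout t l r b) (s₁ : DP P₁ X) (s₂ : DP P₂ X) (e : s₁.res t = s₂.res l) :
    ∃ s : DP P₃ X, s.res r = s₁ ∧ s.res b = s₂ := by
  have := fun n : ℕ => exists_desc (h.map ((evaluation _ _).obj (op (GlobeObj.mk n))))
    (s₁.app n) (s₂.app n) (fun x => congrFun (congrFun (congrArg DP.app e) n) x)
  choose k hk1 hk2 using this
  have hk1' : ∀ n x, k n (r.app (op ⟨n⟩) x) = s₁.app n x := hk1
  have hk2' : ∀ n x, k n (b.app (op ⟨n⟩) x) = s₂.app n x := hk2
  refine ⟨⟨k, fun n c => ?_, fun m n hmn e c => ?_⟩, ext' hk1', ext' hk2'⟩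
  · rcases po_cases h n c with ⟨x, rfl⟩ | ⟨x, rfl⟩
    · rw [hk1', s₁.dim_app]
    · rw [hk2', s₂.dim_app]
  · rcases po_cases h n c with ⟨x, rfl⟩ | ⟨x, rfl⟩
    · rw [← NatTrans.naturality_apply, hk1', hk1', s₁.fc_app]
    · rw [← NatTrans.naturality_apply, hk2', hk2', s₂.fc_app]

end DP

/-! ### Shapes -/

theorem shape_ind {motive : Shape → Prop} (globe : ∀ n, motive (Shape.globe n))
    (glue : ∀ (S : Shape) (b h : ℕ) (hb : b < S.last) (hh : b < h), motive S →
      motive (S.glue b h hb hh)) (S : Shape) : motive S := by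
  obtain ⟨n, P⟩ := S
  induction P with
  | single h => exact globe h
  | glue P b h hb hh ih => exact glue ⟨_, P⟩ b h hb hh ih

@[simp] theorem dim_globe (n : ℕ) : (Shape.globe n).dim = n := rfl
@[simp] theorem last_globe (n : ℕ) : (Shape.globe n).last = n := rfl
@[simp] theorem dim_glue (S : Shape) (b h : ℕ) (hb : b < S.last) (hh : b < h) :
    (S.glue b h hb hh).dim = max S.dim h := rfl
@[simp] theorem last_glue (S : Shape) (b h : ℕ) (hb : b < S.last) (hh : b < h) :
    (S.glue b h hb hh).last = h := rfl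

theorem last_le_dim (S : Shape) : S.last ≤ S.dim := by
  induction S using shape_ind with
  | globe n => exact le_rfl
  | glue S b h hb hh _ => exact le_max_right _ _

theorem glue_isPushout (S : Shape) (b h : ℕ) (hb : b < S.last) (hh : b < h) :
    IsPushout (C := GlobPsh.{0}) (S.hinge hb) (Shape.faceMap hh false) (S.inLeft b h hb hh)
      (S.inRight b h hb hh) :=
  IsPushout.of_hasPushout _ _

theorem glue_w (S : Shape) (b h : ℕ) (hb : b < S.last) (hh : b < h) :
    S.hinge hb ≫ S.inLeft b h hb hh = Shape.faceMap hh false ≫ S.inRight b h hb hh :=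
  (glue_isPushout S b h hb hh).w

theorem le_dim (S : Shape) : ∀ (n : ℕ) (_ : S.psh.obj (op ⟨n⟩)), n ≤ S.dim := by
  induction S using shape_ind with
  | globe k =>
    intro n c
    change GlobeObj.Arrow n k at c
    cases c with
    | refl => exact le_rfl
    | pole lt b => exact lt.le
  | glue S b h hb hh ih =>
    intro n c
    rcases DP.po_cases (glue_isPushout S b h hb hh) n c with ⟨x, -⟩ | ⟨x, -⟩
    · exact (ih n x).trans (le_max_left _ _)
    · change GlobeObj.Arrow n h at x
      cases x with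
      | refl => exact le_max_right _ _
      | pole lt b => exact lt.le.trans (le_max_right _ _)

namespace DP

variable {S : Shape} {X Y : AG.{u}}

theorem dim_app_le (s : Dg S X) (n : ℕ) (c) : X.dim (s.app n c) ≤ S.dim + 1 := by
  rw [s.dim_app]; exact Nat.succ_le_succ (le_dim S n c)

theorem map_congr (s : Dg S X) {f g : Map X Y} (h : ∀ x, X.dim x ≤ S.dim + 1 → f x = g x) :
    s.map f = s.map g := map_congr' s fun n c => h _ (s.dim_app_le n c)

theorem map_inj {N : ℕ} {f : Map X Y} (hf : BijLe N f) (hN : S.dim + 1 ≤ N) {s t : Dg S X}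
    (h : s.map f = t.map f) : s = t :=
  ext' fun n c => hf.1 _ _ ((s.dim_app_le n c).trans hN)
    (congrFun (congrFun (congrArg DP.app h) n) c)

/-- The cell of the last globe. -/
noncomputable def last (s : Dg S X) : X.A := (s.res S.apex).top

theorem dim_last (s : Dg S X) : X.dim s.last = S.last + 1 := dim_top _

@[simp] theorem last_map (s : Dg S X) (f : Map X Y) : last (s.map f) = f s.last := rfl

theorem last_globe {n : ℕ} (s : Dg (Shape.globe n) X) : s.last = top s := rfl

theorem top_res_hinge (s : Dg S X) {b : ℕ} (hb : b < S.last) :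
    top (s.res (S.hinge hb)) = X.fc true (b + 1) s.last :=
  top_res_face (s.res S.apex) hb true

variable {b h : ℕ} {hb : b < S.last} {hh : b < h}

/-- The left part of a diagram on a glued shape. -/
noncomputable def left (t : Dg (S.glue b h hb hh) X) : Dg S X := t.res (S.inLeft b h hb hh)

@[simp] theorem left_map (t : Dg (S.glue b h hb hh) X) (f : Map X Y) :
    left (t.map f) = t.left.map f := rfl

theorem last_glue (t : Dg (S.glue b h hb hh) X) : t.last = top (t.res (S.inRight b h hb hh)) := rfl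

theorem glue_cond (t : Dg (S.glue b h hb hh) X) :
    X.fc true (b + 1) t.left.last = X.fc false (b + 1) t.last := by
  rw [← top_res_hinge _ hb, last_glue, ← top_res_face _ hh false]
  exact congrArg (fun φ => top (t.res φ)) (glue_w S b h hb hh)

theorem glue_ext {t t' : Dg (S.glue b h hb hh) X} (h1 : t.left = t'.left) (h2 : t.last = t'.last) :
    t = t' :=
  po_ext (glue_isPushout S b h hb hh) h1 (ext_top h2)

variable (hb hh) in
theorem exists_glue (s : Dg S X) (x : X.A) (hx : X.dim x = h + 1)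
    (e : X.fc true (b + 1) s.last = X.fc false (b + 1) x) :
    ∃ t : Dg (S.glue b h hb hh) X, t.left = s ∧ t.last = x := by
  obtain ⟨t, h1, h2⟩ := po_desc (glue_isPushout S b h hb hh) s (ofCell x hx) (ext_top (by
    rw [top_res_hinge, e]; exact (top_res_face (ofCell x hx) hh false).symm))
  exact ⟨t, h1, by rw [last_glue, h2]; rfl⟩

/-- Diagrams lift along trivial fibrations. -/
theorem exists_map_eq {N : ℕ} {f : Map X Y} (hf : TF N f) (S : Shape) (hN : S.dim + 1 ≤ N)
    (t : Dg S Y) : ∃ s : Dg S X, s.map f = t := by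
  induction S using shape_ind with
  | globe n =>
    obtain ⟨a, ha, -⟩ := hf.lift_face X.pt (n + 1) (top (n := n) t)
      (by rw [dim_top, X.dim_pt]; omega) (by rw [dim_top]; exact hN) (by rw [X.dim_pt, fc_zero, f.pt])
    exact ⟨ofCell (n := n) a (by rw [← f.dim_f, ha, dim_top]), ext_top (n := n) ha⟩
  | glue S b h hb hh ih =>
    rw [dim_glue] at hN
    obtain ⟨s, hs⟩ := ih (by omega) t.left
    have h1 : X.dim (X.fc true (b + 1) s.last) = b + 1 :=
      dim_fc_of_le _ (by rw [dim_last]; omega)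
    have h2 : Y.dim t.last = h + 1 := dim_last t
    obtain ⟨a, ha, ha'⟩ := hf.lift_face (X.fc true (b + 1) s.last) (h - b) t.last
      (by omega) (by omega) (by rw [h1, ← glue_cond, ← hs, ← f.fc_f]; rfl)
    rw [h1] at ha'
    obtain ⟨t', h3, h4⟩ := exists_glue hb hh s a (by rw [← f.dim_f, ha, h2]) ha'.symm
    exact ⟨t', glue_ext (by rw [left_map, h3, hs]) (by rw [last_map, h4, ha])⟩

end DP

end Crest.Agent.R248
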