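import Crest.Agent.R248.Mod

/-!
# R248: cellular models are cofibrant
-/

set_option autoImplicit false
set_option backward.isDefEq.respectTransparency false

namespace Crest.Agent.R248

universe u

open CategoryTheory Opposite Crest.GeometryTopology.Coherator AG GlobTheory

variable {C : GlobTheory.{u}}

theorem lift_sphere_comp {X Y Z : GlobModel C} (f : X ⟶ Y) (g : Y ⟶ Z) (n : ℕ)
    (s : X.cells.Sphere n) : (GlobModel.cellsMap (f ≫ g)).sphere n s =
      (GlobModel.cellsMap g).sphere n ((GlobModel.cellsMap f).sphere n s) := by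
  cases n <;> rfl

theorem lift_bdry_map {X Y : GlobSet.{u}} (f : X.Map Y) (n : ℕ) (x : X.cell n) :
    Y.bdry n (f.app n x) = f.sphere n (X.bdry n x) := by
  cases n with
  | zero => rfl
  | succ n => exact Subtype.ext (Prod.ext (f.app_src n x).symm (f.app_tgt n x).symm)

theorem lift_cell {Z B : GlobModel C} (q : Z ⟶ B) (hq : ∀ n, TF n (Um q)) (n : ℕ)
    (s : Z.cells.Sphere n) (y : B.cells.cell n)
    (hy : B.cells.bdry n y = (GlobModel.cellsMap q).sphere n s) :
    ∃ z : Z.cells.cell n, Z.cells.bdry n z = s ∧ (GlobModel.cellsMap q).app n z = y := by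
  cases n with
  | zero =>
    obtain ⟨e, he, hqe⟩ := hq 1 (U Z).pt (U Z).pt (Par.refl _) Nat.zero_lt_one (cl 0 y)
      ⟨rfl, rfl, rfl⟩
    obtain ⟨z, rfl⟩ := exists_cl (n := 0) he.1
    exact ⟨z, rfl, cl_inj hqe⟩
  | succ n =>
    obtain ⟨⟨a, b⟩, hab⟩ := s
    have h1 : B.cells.src n y = el q a := congrArg (fun t => t.1.1) hy
    have h2 : B.cells.tgt n y = el q b := congrArg (fun t => t.1.2) hy
    have hp : (U Z).Par (cl n a) (cl n b) := by
      refine ⟨rfl, fun c => ?_⟩
      cases n with
      | zero => rfl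
      | succ n =>
        cases c
        · exact congrArg (cl n) hab.1
        · exact congrArg (cl n) hab.2
    obtain ⟨e, he, hqe⟩ := hq (n + 2) (cl n a) (cl n b) hp (Nat.lt_succ_self _) (cl (n + 1) y)
      ⟨rfl, congrArg (cl n) h1, congrArg (cl n) h2⟩
    obtain ⟨z, rfl⟩ := exists_cl (n := n + 1) he.1
    exact ⟨z, Subtype.ext (Prod.ext (cl_inj he.2.1) (cl_inj he.2.2)), cl_inj hqe⟩

theorem attaching_hasLift {X Y Z B : GlobModel C} {f : X ⟶ Y} (hf : GlobModel.IsAttaching f)
    (q : Z ⟶ B) (hq : ∀ n, TF n (Um q)) : HasLiftingProperty f q where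
  sq_hasLift {g v} sq := by
    have hb : ∀ k, B.cells.bdry _ ((GlobModel.cellsMap v).app _ (hf.newCell k)) =
        (GlobModel.cellsMap (g ≫ q)).sphere _ (hf.sphere k) := fun k => by
      rw [lift_bdry_map, hf.newCell_bdry, ← lift_sphere_comp, sq.w]
    have := fun k => lift_cell q hq (hf.dimOf k) ((GlobModel.cellsMap g).sphere _ (hf.sphere k))
      ((GlobModel.cellsMap v).app _ (hf.newCell k)) (by rw [hb, lift_sphere_comp])
    choose z hz1 hz2 using this
    obtain ⟨l, ⟨hl1, hl2⟩, -⟩ := hf.universal Z g z hz1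
    obtain ⟨w, -, hw⟩ := hf.universal B (g ≫ q) _ hb
    refine ⟨⟨{ l := l, fac_left := hl1, fac_right := ?_ }⟩⟩
    rw [hw (l ≫ q) ⟨by rw [← Category.assoc, hl1], fun k => ?_⟩, hw v ⟨sq.w.symm, fun k => rfl⟩]
    rw [← hz2 k, ← hl2 k]
    rfl

/-- Maps out of a cellular model lift along trivial fibrations.

Proof.  (1) If `f : X ⟶ Y` is `IsAttaching` then `HasLiftingProperty f q`: given a square
`f ≫ v = g ≫ q`, for each new cell `k` of dimension `n` lift `cl n (el v (newCell k))` with `hq`
(`n = 0`: the sphere `(pt, pt)`; `n + 1`: the sphere `(cl n _, cl n _)` given by the image under `g` of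
`sphere k`; note `(cellsMap g).app n x = el g x`, `d_false_cl`, `d_true_cl`, `exists_cl`, `cl_inj` are
definitional bridges), then `universal` gives the lift and its uniqueness part gives the second
triangle.  (2) `MorphismProperty.llp` is stable under transfinite composition
(`Mathlib/CategoryTheory/SmallObject/TransfiniteCompositionLifting.lean`,
`HasLiftingProperty.transfiniteComposition.hasLiftingProperty_ι_app_bot` or the instance
`IsStableUnderTransfiniteCompositionOfShape`), so `fromStart` has the lifting property; apply it to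
the square from the initial model. -/
theorem cellular_lift {X : GlobModel C} (hX : X.IsCellularModel) {Z B : GlobModel C} (q : Z ⟶ B)
    (hq : ∀ n, TF n (Um q)) (f : X ⟶ B) : ∃ g : X ⟶ Z, g ≫ q = f := by
  obtain ⟨P⟩ := hX
  let _ := P.linOrd
  let _ := P.bot
  let _ := P.succ
  have _ := P.wf
  have h1 : HasLiftingProperty (P.chain.incl.app ⊥) q :=
    HasLiftingProperty.transfiniteComposition.hasLiftingProperty_ι_app_bot P.chain.isColimit
      fun j hj => attaching_hasLift (P.attach j hj) q hq
  have h2 : HasLiftingProperty P.fromStart q := by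
    rw [← P.chain.fac]
    infer_instance
  have sq : CommSq (P.startIsInitial.to Z) P.fromStart q f := ⟨P.startIsInitial.hom_ext _ _⟩
  exact ⟨sq.lift, sq.fac_right⟩

end Crest.Agent.R248
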