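import Crest.Agent.R248.OpsDef
import Crest.Agent.R248.Lift

/-!
# R248: the pushout theorem from a path model
-/

set_option autoImplicit false
set_option backward.isDefEq.respectTransparency false

namespace Crest.Agent.R248

universe u

open CategoryTheory CategoryTheory.Limits Opposite Crest.GeometryTopology.Coherator AG GlobTheory

variable {C : GlobTheory.{u}}

theorem main_unit_arr (e : C.UnitChoice) (Z : GlobModel C) (n : ℕ) (x : El Z (Shape.globe n)) :
    (U Z).Arr (cl (n + 1) (Z.act (e.unit n) x)) (cl n x) (cl n x) := by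
  refine ⟨rfl, ?_, ?_⟩
  · rw [d_cl, rs, ← act_seq]
    exact congrArg (cl n) ((congrArg (fun o => Z.act o x) (e.src_unit n)).trans (act_one Z x))
  · rw [d_cl, rs, ← act_seq]
    exact congrArg (cl n) ((congrArg (fun o => Z.act o x) (e.tgt_unit n)).trans (act_one Z x))

theorem main_step_refl (e : C.UnitChoice) {Z : GlobModel C} {v : (U Z).A} (h : 1 ≤ (U Z).dim v) :
    (U Z).Step v v := by
  obtain ⟨n, hn⟩ : ∃ n, (U Z).dim v = n + 1 := ⟨_, (Nat.sub_add_cancel h).symm⟩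
  obtain ⟨x, rfl⟩ := exists_cl hn
  exact ⟨_, main_unit_arr e Z _ x⟩

theorem main_step_cl {Y : GlobModel C} {n : ℕ} {x y : El Y (Shape.globe n)}
    (h : (U Y).Step (cl n x) (cl n y)) : Y.cells.Step n x y := by
  obtain ⟨z, h1, h2, h3⟩ := h
  obtain ⟨z, rfl⟩ := exists_cl (n := n + 1) h1
  exact ⟨z, cl_inj h2, cl_inj h3⟩

theorem main_el_base (e : C.UnitChoice) {X Y : GlobModel C} (f : X ⟶ Y) (x : X.cells.cell 0)
    (k : ℕ) : (GlobModel.cellsMap f).app k (X.basePoint e x k) =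
      Y.basePoint e ((GlobModel.cellsMap f).app 0 x) k := by
  induction k with
  | zero => rfl
  | succ k ih =>
    exact (el_act f (e.unit k) (X.basePoint e x k)).trans (congrArg (Y.unitCell e k) ih)


/-- A split mono that is essentially surjective on all hom-sets is a weak equivalence.

Proof.  Injectivity: `componentsMap r ∘ componentsMap i = id`; for loops define the map
`Quot.map` induced by `r` back to loops at `x` directly (using `el r (el i x) = x` and naturality of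
`basePoint`), or lift `z ↦ Quot.mk _ ⟨el r z.1, _⟩` through the quotient.  Surjectivity: apply `hs`
to `x = x' = pt` (`0`-cells, `exists_cl`, `d_cl_zero`, `Map.pt`), and to
`x = x' = cl n (basePoint e x n)`; `Quot.sound`. -/
theorem isWeakEquiv_of (e : C.UnitChoice) {X Y : GlobModel C} (i : X ⟶ Y) (r : Y ⟶ X)
    (hr : i ≫ r = 𝟙 X)
    (hs : ∀ x x', (U X).Par x x' → ∀ y, (U Y).Arr y (Um i x) (Um i x') →
      ∃ x'', (U X).Arr x'' x x' ∧ (U Y).Step (Um i x'') y) :
    GlobModel.IsWeakEquiv e i := by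
  have hri : ∀ (k : ℕ) (x : X.cells.cell k),
      (GlobModel.cellsMap r).app k ((GlobModel.cellsMap i).app k x) = x := fun k x =>
    congrArg (fun g : X ⟶ X => el g (S := Shape.globe k) x) hr
  refine ⟨⟨Function.LeftInverse.injective (g := GlobModel.componentsMap r) ?_, ?_⟩,
    fun x n => ⟨?_, ?_⟩⟩
  · rintro ⟨x⟩
    exact congrArg (Quot.mk _) (hri 0 x)
  · rintro ⟨y⟩
    obtain ⟨x, hx, h⟩ := hs (U X).pt (U X).pt (Par.refl _) (cl 0 y) ⟨rfl, rfl, rfl⟩
    obtain ⟨x, rfl⟩ := exists_cl (n := 0) hx.1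
    exact ⟨Quot.mk _ x, Quot.sound (main_step_cl h)⟩
  · let g : Y.LoopsAt e ((GlobModel.cellsMap i).app 0 x) n → X.LoopsAt e x n := fun z =>
      ⟨(GlobModel.cellsMap r).app (n + 1) z.1,
        by rw [← (GlobModel.cellsMap r).app_src, z.2.1, main_el_base, hri],
        by rw [← (GlobModel.cellsMap r).app_tgt, z.2.2, main_el_base, hri]⟩
    refine Function.LeftInverse.injective (g := Quot.map g ?_) ?_
    · rintro _ _ ⟨c, hs, ht⟩
      exact ⟨(GlobModel.cellsMap r).app (n + 2) c, by rw [← (GlobModel.cellsMap r).app_src, hs],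
        by rw [← (GlobModel.cellsMap r).app_tgt, ht]⟩
    · rintro ⟨z⟩
      exact congrArg (Quot.mk _) (Subtype.ext (hri (n + 1) z.1))
  · rintro ⟨y, hy1, hy2⟩
    obtain ⟨z, hz, h⟩ := hs (cl n (X.basePoint e x n)) (cl n (X.basePoint e x n)) (Par.refl _)
      (cl (n + 1) y) ⟨rfl, congrArg (cl n) (hy1.trans (main_el_base e i x n).symm),
        congrArg (cl n) (hy2.trans (main_el_base e i x n).symm)⟩
    obtain ⟨z, rfl⟩ := exists_cl (n := n + 1) hz.1
    exact ⟨Quot.mk _ ⟨z, cl_inj hz.2.1, cl_inj hz.2.2⟩, Quot.sound (main_step_cl h)⟩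

/-- The main theorem, given a path model.

Proof.  Let `a₀ : El X (globe n) := el a (C.one _)`, `b₀ : El Y (globe (n+1)) := el b (C.one _)`.
From `sq` (with `fr`, `free_ext`, `el_free`): `rs Y (σ n) b₀ = el i a₀`; for `g : X ⟶ Z` and
`z : El Z (globe (n+1))` with source `el g a₀` there is `h : Y ⟶ Z` with `i ≫ h = g`, `el h b₀ = z`;
maps out of `Y` agreeing on `i` and `b₀` agree.  Unit cells `Z.act (e.unit n) x` have source and
target `x` (`act_seq`, `act_one`).  Retraction `r`: `g = 𝟙`, `z` the unit of `a₀`.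
`P.tf n le_top`, `TF.mono` give `TF n` for all `n`.  `ρ : X ⟶ P.obj X` with `ρ ≫ pr false = 𝟙`
(`cellular_lift`), `φ := ρ ≫ pr true`, `ψ : Y ⟶ X` with `i ≫ ψ = φ` and `b₀ ↦` unit of `el φ a₀`.
`Fib 1 _` in `P.obj Y` at `c := Um (ρ ≫ P.map i) (cl n a₀)` with `y false := cl _ b₀`,
`y true := Um (ψ ≫ i) (cl _ b₀)` (use `P.nat`) gives a cell, hence `H : Y ⟶ P.obj Y` with
`i ≫ H = ρ ≫ P.map i`, `H ≫ pr false = 𝟙`, `H ≫ pr true = ψ ≫ i`.
Essential surjectivity: for `y : i x → i x'`, `Um ψ y : φ x → φ x'` lifts along `pr true X` to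
`ε : ρ x → ρ x'`; `x'' := pr false ε`.  In `P.obj Y` the cells `Um (P.map i) ε` and `Um H y` are
parallel (`Arr.par_arr`) with the same image `v` under `pr true`, of dimension `≥ 1`; lift a unit
cell of `v` (`exists_cl`, `e.unit`) along `pr true Y`, and project by `pr false Y` to get
`Step (Um i x'') y`.  Conclude with `isWeakEquiv_of`. -/
theorem main_of_pathM (P : PathM C 1 ⊤) (e : C.UnitChoice) (X : C.GlobModel)
    (hX : X.IsCellularModel) (n : ℕ) (a : GlobModel.diskModel C n ⟶ X) (Y : C.GlobModel)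
    (i : X ⟶ Y) (b : GlobModel.diskModel C (n + 1) ⟶ Y)
    (sq : IsPushout a (GlobModel.sourceIncl C n) i b) : GlobModel.IsWeakEquiv e i := by
  have hσ : ∀ {Z : GlobModel C} (g : GlobModel.freeOn C (Shape.globe (n + 1)) ⟶ Z),
      cl n (el (GlobModel.sourceIncl C n ≫ g) (S := Shape.globe n) (C.one _)) =
        (U Z).d false (cl (n + 1) (el g (S := Shape.globe (n + 1)) (C.one _))) := by
    intro Z g
    rw [d_cl, el_comp, rs, ← el_free]
    exact congrArg (fun o => cl n (el g (S := Shape.globe n) o)) (C.one_seq _)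
  obtain ⟨A, hA⟩ : ∃ A : (U X).A, A = cl n (el a (S := Shape.globe n) (C.one _)) := ⟨_, rfl⟩
  obtain ⟨B, hB⟩ : ∃ B : (U Y).A, B = cl (n + 1) (el b (S := Shape.globe (n + 1)) (C.one _)) :=
    ⟨_, rfl⟩
  have dA : (U X).dim A = n + 1 := by rw [hA]; rfl
  have dB : (U Y).dim B = n + 2 := by rw [hB]; rfl
  have hAB : (U Y).d false B = Um i A := by
    rw [hA, hB, ← hσ b, ← sq.w]; rfl
  have ex : ∀ {Z : GlobModel C} (g : X ⟶ Z) (z : (U Z).A), (U Z).dim z = n + 2 →
      (U Z).d false z = Um g A → ∃ h : Y ⟶ Z, i ≫ h = g ∧ Um h B = z := by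
    intro Z g z hz hd
    obtain ⟨z, rfl⟩ := exists_cl hz
    have w : a ≫ g = GlobModel.sourceIncl C n ≫ fr z := by
      refine free_ext (cl_inj ?_)
      rw [hσ (fr z), el_fr, act_one, hd, hA]
      rfl
    refine ⟨sq.desc g (fr z) w, sq.inl_desc _ _ _, ?_⟩
    rw [hB, Um_cl, ← el_comp, sq.inr_desc, el_fr, act_one]
  have ext : ∀ {Z : GlobModel C} (h h' : Y ⟶ Z), i ≫ h = i ≫ h' → Um h B = Um h' B → h = h' := by
    intro Z h h' h1 h2
    rw [hB] at h2
    exact sq.hom_ext h1 (free_ext (cl_inj h2))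
  have exu : ∀ (g : X ⟶ X), ∃ h : Y ⟶ X, i ≫ h = g := fun g => by
    obtain ⟨z, hz⟩ := main_step_refl e (v := Um g A) (by rw [(Um g).dim_f]; omega)
    obtain ⟨h, h1, -⟩ := ex g z (by rw [hz.1, (Um g).dim_f, dA]) hz.2.1
    exact ⟨h, h1⟩
  have tf : ∀ (ε : Bool) (Z : GlobModel C) (N : ℕ), TF N (Um (P.pr ε Z)) := fun ε Z N =>
    (P.tf N le_top ε Z).mono (Nat.le_succ N)
  obtain ⟨r, hr⟩ := exu (𝟙 X)
  obtain ⟨ρ, hρ⟩ := cellular_lift hX (P.pr false X) (tf false X) (𝟙 X)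
  obtain ⟨ψ, hψ⟩ := exu (ρ ≫ P.pr true X)
  have e0 : (ρ ≫ P.map i) ≫ P.pr false Y = i := by
    rw [Category.assoc, P.nat, ← Category.assoc, hρ, Category.id_comp]
  have e1 : (ρ ≫ P.map i) ≫ P.pr true Y = i ≫ ψ ≫ i := by
    rw [Category.assoc, P.nat, ← Category.assoc, ← hψ, Category.assoc]
  obtain ⟨z, hz1, hz2, hz3⟩ := P.fib (n + 1) le_top Y (Um (ρ ≫ P.map i) A)
    (by rw [Map.dim_f]; omega) (by rw [Map.dim_f]; omega)
    (fun ε => if ε then Um (ψ ≫ i) B else B) (by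
      intro ε
      cases ε
      · refine ⟨by rw [Map.dim_f, dA]; exact dB, ?_⟩
        rw [← Um_comp, e0]
        exact hAB
      · refine ⟨by rw [Map.dim_f, dA]; exact ((Um _).dim_f _).trans dB, ?_⟩
        rw [← Um_comp, e1, Um_comp i, ← hAB]
        exact (Um _).d_f _ _)
  obtain ⟨H, hH, hHB⟩ := ex (ρ ≫ P.map i) z (by rw [hz1, Map.dim_f, dA]) hz2
  have H0 : H ≫ P.pr false Y = 𝟙 Y := ext _ _
    (by rw [← Category.assoc, hH, e0, Category.comp_id])
    (by rw [Um_comp, hHB, Um_id]; exact hz3 false)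
  have H1 : H ≫ P.pr true Y = ψ ≫ i := ext _ _ (by rw [← Category.assoc, hH, e1])
    (by rw [Um_comp, hHB]; exact hz3 true)
  refine isWeakEquiv_of e i r hr fun x x' hp y hy => ?_
  obtain ⟨ε, hε, hεy⟩ := tf true X _ (Um ρ x) (Um ρ x') (hp.map _) (Nat.lt_succ_self _) (Um ψ y)
    (by
      have := hy.map (Um ψ)
      rwa [← Um_comp, ← Um_comp, hψ, Um_comp, Um_comp] at this)
  refine ⟨Um (P.pr false X) ε, ?_, ?_⟩
  · have := hε.map (Um (P.pr false X))
    rwa [← Um_comp, ← Um_comp, hρ, Um_id, Um_id] at this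
  have a1 := hε.map (Um (P.map i))
  have a2 := hy.map (Um H)
  rw [← Um_comp, ← Um_comp] at a1 a2
  rw [hH] at a2
  have e2 : Um (P.pr true Y) (Um (P.map i) ε) = Um (P.pr true Y) (Um H y) := by
    rw [← Um_comp, ← Um_comp, P.nat, H1, Um_comp, Um_comp, hεy]
  obtain ⟨w, hw⟩ := main_step_refl e (v := Um (P.pr true Y) (Um H y))
    (by rw [Map.dim_f, a2.1]; omega)
  obtain ⟨w', hw', -⟩ := tf true Y _ _ _ (a1.par_arr a2) (Nat.lt_succ_self _) w (by rwa [e2])
  have := hw'.map (Um (P.pr false Y))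
  rw [← Um_comp (P.map i), ← Um_comp H, P.nat, H0, Um_id, Um_comp] at this
  exact ⟨_, this⟩

end Crest.Agent.R248
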