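import Crest.Agent.R248.Dg

/-!
# R248: the augmented globular set of a model
-/

set_option autoImplicit false
set_option backward.isDefEq.respectTransparency false

namespace Crest.Agent.R248

universe u

open CategoryTheory CategoryTheory.Limits Opposite Crest.GeometryTopology.Coherator AG
open GlobTheory

variable {C : GlobTheory.{u}}

/-- The `S`-shaped elements of a model. -/
abbrev El (Y : GlobModel C) (S : Shape) : Type u := Y.functor.obj (op (⟨S⟩ : C.Ob))

theorem act_seq (Y : GlobModel C) {R S T : Shape} (o : C.arr R S) (o' : C.arr S T) (y : El Y T) :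
    Y.act (C.seq o o') y = Y.act o (Y.act o' y) :=
  Y.functor.map_comp_apply (Quiver.Hom.op (X := (⟨S⟩ : C.Ob)) (Y := (⟨T⟩ : C.Ob)) o')
    (Quiver.Hom.op (X := (⟨R⟩ : C.Ob)) (Y := (⟨S⟩ : C.Ob)) o) y

theorem act_one (Y : GlobModel C) {S : Shape} (y : El Y S) : Y.act (C.one S) y = y :=
  Y.functor.map_id_apply (op (⟨S⟩ : C.Ob)) y

/-- Restriction along a map of shapes. -/
noncomputable def rs (Y : GlobModel C) {S T : Shape} (φ : S ⟶ T) (y : El Y T) : El Y S :=
  Y.act (C.ofShape φ) y

theorem rs_comp (Y : GlobModel C) {R S T : Shape} (φ : R ⟶ S) (ψ : S ⟶ T) (y : El Y T) :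
    rs Y (φ ≫ ψ) y = rs Y φ (rs Y ψ y) := by
  rw [rs, C.ofShape_comp, act_seq]; rfl

theorem rs_id (Y : GlobModel C) {S : Shape} (y : El Y S) : rs Y (𝟙 S) y = y := by
  rw [rs, C.ofShape_id, act_one]

theorem glue_el_ext (Y : GlobModel C) {S : Shape} {b h : ℕ} {hb : b < S.last} {hh : b < h}
    {z z' : El Y (S.glue b h hb hh)}
    (h1 : rs Y (S.inLeft b h hb hh) z = rs Y (S.inLeft b h hb hh) z')
    (h2 : rs Y (S.inRight b h hb hh) z = rs Y (S.inRight b h hb hh) z') : z = z' :=
  Types.ext_of_isPullback (Y.sums S b h hb hh) h1 h2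

theorem exists_glue_el (Y : GlobModel C) {S : Shape} {b h : ℕ} (hb : b < S.last) (hh : b < h)
    (x : El Y S) (y : El Y (Shape.globe h))
    (e : rs Y (S.hinge hb) x = rs Y (Shape.faceMap hh false) y) :
    ∃ z : El Y (S.glue b h hb hh),
      rs Y (S.inLeft b h hb hh) z = x ∧ rs Y (S.inRight b h hb hh) z = y :=
  Types.exists_of_isPullback (Y.sums S b h hb hh) x y e

/-- The action of a map of models on elements. -/
def el {X Y : GlobModel C} (f : X ⟶ Y) {S : Shape} (x : El X S) : El Y S :=
  (f : X.functor ⟶ Y.functor).app _ x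

theorem el_act {X Y : GlobModel C} (f : X ⟶ Y) {S T : Shape} (o : C.arr S T) (x : El X T) :
    el f (X.act o x) = Y.act o (el f x) :=
  NatTrans.naturality_apply (f : X.functor ⟶ Y.functor)
    (Quiver.Hom.op (X := (⟨S⟩ : C.Ob)) (Y := (⟨T⟩ : C.Ob)) o) x

theorem el_rs {X Y : GlobModel C} (f : X ⟶ Y) {S T : Shape} (φ : S ⟶ T) (x : El X T) :
    el f (rs X φ x) = rs Y φ (el f x) := el_act f _ x

@[simp] theorem el_id {X : GlobModel C} {S : Shape} (x : El X S) : el (𝟙 X) x = x := rfl
@[simp] theorem el_comp {X Y Z : GlobModel C} (f : X ⟶ Y) (g : Y ⟶ Z) {S : Shape} (x : El X S) :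
    el (f ≫ g) x = el g (el f x) := rfl

theorem hom_ext_el {X Y : GlobModel C} {f g : X ⟶ Y}
    (h : ∀ (S : Shape) (x : El X S), el f x = el g x) : f = g := by
  refine NatTrans.ext (funext fun S => ?_)
  ext x
  exact h S.unop.shape x

/-- A map of models from its action on elements. -/
def mkHom {X Y : GlobModel C} (f : ∀ S : Shape, El X S → El Y S)
    (h : ∀ (S T : Shape) (o : C.arr S T) (x : El X T), f S (X.act o x) = Y.act o (f T x)) :
    X ⟶ Y :=
  ({ app := fun S => ↾(f S.unop.shape)
     naturality := fun S T o => by ext x; exact h _ _ o.unop x } : X.functor ⟶ Y.functor)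

@[simp] theorem el_mkHom {X Y : GlobModel C} (f : ∀ S : Shape, El X S → El Y S) (h) {S : Shape}
    (x : El X S) : el (mkHom f h) x = f S x := rfl

/-- A model from elementwise data. -/
def mkModel (E : Shape → Type u) (act : ∀ {S T : Shape}, C.arr S T → E T → E S)
    (act_one : ∀ (S : Shape) (y : E S), act (C.one S) y = y)
    (act_seq : ∀ {R S T : Shape} (o : C.arr R S) (o' : C.arr S T) (y : E T),
      act (C.seq o o') y = act o (act o' y))
    (ext : ∀ (S : Shape) (b h : ℕ) (hb : b < S.last) (hh : b < h) (z z' : E (S.glue b h hb hh)),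
      act (C.ofShape (S.inLeft b h hb hh)) z = act (C.ofShape (S.inLeft b h hb hh)) z' →
      act (C.ofShape (S.inRight b h hb hh)) z = act (C.ofShape (S.inRight b h hb hh)) z' → z = z')
    (ex : ∀ (S : Shape) (b h : ℕ) (hb : b < S.last) (hh : b < h) (x : E S) (y : E (Shape.globe h)),
      act (C.ofShape (S.hinge hb)) x = act (C.ofShape (Shape.faceMap hh false)) y →
      ∃ z : E (S.glue b h hb hh), act (C.ofShape (S.inLeft b h hb hh)) z = x ∧
        act (C.ofShape (S.inRight b h hb hh)) z = y) : GlobModel C where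
  functor :=
    { obj := fun S => E S.unop.shape
      map := fun o => ↾(act o.unop)
      map_id := fun S => by ext y; exact act_one _ y
      map_comp := fun o o' => by ext y; exact act_seq o'.unop o.unop y }
  sums S b h hb hh := by
    rw [Types.isPullback_iff]
    refine ⟨?_, fun z z' e => ext S b h hb hh z z' e.1 e.2, ex S b h hb hh⟩
    ext z
    change act (C.ofShape (S.hinge hb)) (act (C.ofShape (S.inLeft b h hb hh)) z) =
      act (C.ofShape (Shape.faceMap hh false)) (act (C.ofShape (S.inRight b h hb hh)) z)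
    rw [← act_seq, ← act_seq, ← C.ofShape_comp, ← C.ofShape_comp, glue_w]

theorem face_face {k m n : ℕ} (h : k < m) (h' : m < n) (b c : Bool) :
    Shape.faceMap h b ≫ Shape.faceMap h' c = Shape.faceMap (h.trans h') b :=
  (yoneda.map_comp (GlobeObj.faceArrow h b) (GlobeObj.faceArrow h' c)).symm

/-- The face maps on the total type of cells. -/
noncomputable def ud (Y : GlobModel C) (b : Bool) :
    Option (Σ n, El Y (Shape.globe n)) → Option (Σ n, El Y (Shape.globe n))
  | none => none
  | some ⟨0, _⟩ => none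
  | some ⟨n + 1, x⟩ => some ⟨n, rs Y (Shape.faceMap (Nat.lt_succ_self n) b) x⟩

/-- The augmented globular set of a model. -/
noncomputable def U (Y : GlobModel C) : AG.{u} where
  A := Option (Σ n, El Y (Shape.globe n))
  dim z := z.elim 0 fun x => x.1 + 1
  d := ud Y
  pt := none
  dim_pt := rfl
  eq_pt z h := by
    cases z with
    | none => rfl
    | some x => exact absurd h (Nat.succ_ne_zero _)
  dim_d b z := by
    rcases z with _ | ⟨_ | n, x⟩ <;> rfl
  dd b c c' z := by
    rcases z with _ | ⟨_ | _ | n, x⟩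
    · rfl
    · rfl
    · rfl
    · change some _ = some _
      rw [← rs_comp, ← rs_comp, face_face, face_face]

/-- A cell of the model as a cell of `U Y`. -/
def cl {Y : GlobModel C} (n : ℕ) (x : El Y (Shape.globe n)) : (U Y).A := some ⟨n, x⟩

@[simp] theorem dim_cl {Y : GlobModel C} (n : ℕ) (x : El Y (Shape.globe n)) :
    (U Y).dim (cl n x) = n + 1 := rfl

theorem cl_inj {Y : GlobModel C} {n : ℕ} {x y : El Y (Shape.globe n)} (h : cl n x = cl n y) :
    x = y := by
  injection h with h
  exact eq_of_heq (Sigma.mk.inj h).2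

theorem exists_cl {Y : GlobModel C} {n : ℕ} {z : (U Y).A} (h : (U Y).dim z = n + 1) :
    ∃ x, cl n x = z := by
  rcases z with _ | ⟨m, x⟩
  · exact absurd h.symm (Nat.succ_ne_zero _)
  · obtain rfl : m = n := Nat.succ_injective h
    exact ⟨x, rfl⟩

theorem d_cl_zero {Y : GlobModel C} (b : Bool) (x : El Y (Shape.globe 0)) :
    (U Y).d b (cl 0 x) = (U Y).pt := rfl

theorem d_cl {Y : GlobModel C} (b : Bool) (n : ℕ) (x : El Y (Shape.globe (n + 1))) :
    (U Y).d b (cl (n + 1) x) = cl n (rs Y (Shape.faceMap (Nat.lt_succ_self n) b) x) := rfl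

theorem d_false_cl {Y : GlobModel C} (n : ℕ) (x : Y.cells.cell (n + 1)) :
    (U Y).d false (cl (n + 1) x) = cl n (Y.cells.src n x) := rfl

theorem d_true_cl {Y : GlobModel C} (n : ℕ) (x : Y.cells.cell (n + 1)) :
    (U Y).d true (cl (n + 1) x) = cl n (Y.cells.tgt n x) := rfl

theorem fc_cl {Y : GlobModel C} (b : Bool) {m n : ℕ} (h : m < n) (x : El Y (Shape.globe n)) :
    (U Y).fc b (m + 1) (cl n x) = cl m (rs Y (Shape.faceMap h b) x) := by
  induction n with
  | zero => omega
  | succ n ih =>
    rw [← fc_d_same b (by rw [dim_cl]; omega), d_cl]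
    by_cases hm : m = n
    · subst hm; exact fc_of_le b le_rfl
    · rw [ih (by omega), ← rs_comp, face_face]

/-- The map of augmented globular sets of a map of models. -/
noncomputable def Um {X Y : GlobModel C} (f : X ⟶ Y) : Map (U X) (U Y) where
  f z := z.map fun x => ⟨x.1, el f x.2⟩
  dim_f z := by cases z <;> rfl
  d_f b z := by
    rcases z with _ | ⟨_ | n, x⟩
    · rfl
    · rfl
    · change some _ = some _
      rw [← el_rs]

@[simp] theorem Um_cl {X Y : GlobModel C} (f : X ⟶ Y) (n : ℕ) (x : El X (Shape.globe n)) :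
    Um f (cl n x) = cl n (el f x) := rfl

@[simp] theorem Um_id {X : GlobModel C} (z : (U X).A) : Um (𝟙 X) z = z := by cases z <;> rfl

@[simp] theorem Um_comp {X Y Z : GlobModel C} (f : X ⟶ Y) (g : Y ⟶ Z) (z : (U X).A) :
    Um (f ≫ g) z = Um g (Um f z) := by cases z <;> rfl

/-- The diagram of an element. -/
noncomputable def toD {Y : GlobModel C} {S : Shape} (y : El Y S) : Dg S (U Y) where
  app n c := cl n (rs Y (S := Shape.globe n) (T := S) (DP.yo c) y)
  dim_app n c := rfl
  fc_app m n h b c := by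
    rw [fc_cl b h, ← rs_comp]
    exact congrArg (fun φ => cl m (rs Y (S := Shape.globe m) (T := S) φ y)) (DP.face_yo h b c).symm

theorem toD_res {Y : GlobModel C} {S T : Shape} (φ : S ⟶ T) (y : El Y T) :
    (toD y).res φ = toD (rs Y φ y) := by
  refine DP.ext' fun n c => ?_
  change cl n _ = cl n _
  rw [← rs_comp]
  exact congrArg (fun ψ => cl n (rs Y (S := Shape.globe n) (T := T) ψ y)) (DP.yo_comp c φ).symm

theorem toD_map {X Y : GlobModel C} (f : X ⟶ Y) {S : Shape} (x : El X S) :
    (toD x).map (Um f) = toD (el f x) := by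
  refine DP.ext' fun n c => ?_
  change cl n _ = cl n _
  rw [el_rs]

theorem top_toD {Y : GlobModel C} {n : ℕ} (y : El Y (Shape.globe n)) :
    DP.top (n := n) (toD y) = cl n y := by
  change cl n _ = cl n _
  exact congrArg (cl n) ((congrArg (fun ψ => rs Y (S := Shape.globe n) (T := Shape.globe n) ψ y)
    (DP.yo_eq (𝟙 (GlobPsh.globeRep n)))).trans (rs_id Y y))

theorem last_toD {Y : GlobModel C} {S : Shape} (y : El Y S) :
    DP.last (toD y) = cl S.last (rs Y (S := Shape.globe S.last) S.apex y) :=
  (congrArg DP.top (toD_res (S := Shape.globe S.last) S.apex y)).trans (top_toD _)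

theorem toD_injective (Y : GlobModel C) (S : Shape) : Function.Injective (toD : El Y S → _) := by
  induction S using shape_ind with
  | globe n =>
    intro x y h
    exact cl_inj (by rw [← top_toD, h, top_toD])
  | glue S b h hb hh ih =>
    intro x y e
    refine glue_el_ext Y (ih ?_) (cl_inj ?_)
    · rw [← toD_res, e, toD_res]
    · have := congrArg DP.last e
      rwa [last_toD, last_toD] at this

theorem toD_surjective (Y : GlobModel C) (S : Shape) : Function.Surjective (toD : El Y S → _) := by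
  induction S using shape_ind with
  | globe n =>
    intro s
    obtain ⟨x, hx⟩ := exists_cl (DP.dim_top (n := n) s)
    exact ⟨x, DP.ext_top (n := n) (by rw [top_toD, hx])⟩
  | glue S b h hb hh ih =>
    intro s
    obtain ⟨x, hx⟩ := ih s.left
    obtain ⟨y, hy⟩ := exists_cl (n := h) s.dim_last
    obtain ⟨z, h1, h2⟩ := exists_glue_el Y hb hh x y (cl_inj (by
      rw [← fc_cl false hh, hy, ← DP.glue_cond, ← hx, ← DP.top_res_hinge _ hb, toD_res]
      exact (top_toD _).symm))
    refine ⟨z, DP.glue_ext ?_ ?_⟩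
    · rw [← hx, ← h1, ← toD_res]; rfl
    · rw [← hy, ← h2, last_toD]; rfl

/-- `U` is faithful. -/
theorem hom_ext {X Y : GlobModel C} {f g : X ⟶ Y} (h : ∀ z, Um f z = Um g z) : f = g :=
  hom_ext_el fun S x => toD_injective Y S (by
    rw [← toD_map, ← toD_map]; exact DP.map_congr' _ fun _ _ => h _)

/-! ### Representable models -/

/-- The map out of a representable model classifying an element. -/
noncomputable def fr {Y : GlobModel C} {S : Shape} (y : El Y S) : GlobModel.freeOn C S ⟶ Y :=
  mkHom (fun T (o : C.arr T S) => Y.act o y) fun _ _ o o' => act_seq Y o o' y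

theorem el_fr {Y : GlobModel C} {S T : Shape} (y : El Y S) (o : C.arr T S) :
    el (fr y) (S := T) o = Y.act o y := rfl

theorem free_act {R S T : Shape} (o : C.arr R S) (o' : C.arr S T) :
    (GlobModel.freeOn C T).act o o' = C.seq o o' := rfl

theorem el_free {Y : GlobModel C} {S T : Shape} (f : GlobModel.freeOn C S ⟶ Y) (o : C.arr T S) :
    el f (S := T) o = Y.act o (el f (S := S) (C.one S)) := by
  rw [← el_act, free_act, C.seq_one]

theorem free_ext {Y : GlobModel C} {S : Shape} {f g : GlobModel.freeOn C S ⟶ Y}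
    (h : el f (S := S) (C.one S) = el g (S := S) (C.one S)) : f = g :=
  hom_ext_el fun T o => by rw [el_free f, el_free g, h]

variable (C) in
/-- The universal diagram. -/
noncomputable def uD (S : Shape) : Dg S (U (GlobModel.freeOn C S)) :=
  toD (Y := GlobModel.freeOn C S) (C.one S)

theorem free_rep {Y : GlobModel C} {S : Shape} (s : Dg S (U Y)) :
    ∃! f : GlobModel.freeOn C S ⟶ Y, (uD C S).map (Um f) = s := by
  obtain ⟨y, rfl⟩ := toD_surjective Y S s
  refine ⟨fr y, ?_, fun g hg => free_ext ?_⟩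
  · change (toD _).map _ = _
    rw [toD_map, el_fr, act_one]
  · rw [uD, toD_map] at hg
    rw [toD_injective Y S hg, el_fr, act_one]

/-- Representable models of a coherator are highly connected. -/
theorem conn_free (hC : C.IsCoheratorTheory) (S : Shape) {c c' : (U (GlobModel.freeOn C S)).A}
    (hp : (U _).Par c c') (h1 : 1 ≤ (U _).dim c) (h2 : S.dim ≤ (U _).dim c) : (U _).Step c c' := by
  obtain ⟨n, hn⟩ : ∃ n, (U _).dim c = n + 1 := ⟨_, (Nat.sub_add_cancel h1).symm⟩
  obtain ⟨x, rfl⟩ := exists_cl hn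
  obtain ⟨y, rfl⟩ := exists_cl (hp.1.symm.trans hn)
  have hxy : C.OpsParallel n x y := by
    cases n with
    | zero => trivial
    | succ n => exact ⟨cl_inj (hp.2 false), cl_inj (hp.2 true)⟩
  obtain ⟨z, hz1, hz2⟩ := hC.2 ⟨n, S, h2, x, y, hxy⟩
  exact ⟨cl (n + 1) z, rfl, congrArg (cl n) hz1, congrArg (cl n) hz2⟩

end Crest.Agent.R248
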