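import Crest.Agent.R248.WG

/-!
# R248: natural constructions `WG → AG` whose cells are finite systems of cells
-/

set_option autoImplicit false

namespace Crest.Agent.R248

universe u

open AG WG

/-- Jointly injective families of maps. -/
def JI {X : AG.{u}} {κ : Type u} {Y : κ → AG.{u}} (f : ∀ k, Map X (Y k)) : Prop :=
  ∀ x x', (∀ k, f k x = f k x') → x = x'

namespace JI

variable {X : AG.{u}} {κ : Type u} [Nonempty κ] {Y : κ → AG.{u}} {f : ∀ k, Map X (Y k)}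

theorem par (h : JI f) {x y : X.A} (e : ∀ k, (Y k).Par (f k x) (f k y)) : X.Par x y := by
  obtain ⟨k⟩ := ‹Nonempty κ›
  refine ⟨by rw [← (f k).dim_f, (e k).1, (f k).dim_f], fun b => h _ _ fun k => ?_⟩
  rw [← (f k).d_f, ← (f k).d_f, (e k).2]

theorem arr (h : JI f) {a x y : X.A} (e : ∀ k, (Y k).Arr (f k a) (f k x) (f k y)) :
    X.Arr a x y := by
  obtain ⟨k⟩ := ‹Nonempty κ›
  refine ⟨by rw [← (f k).dim_f, (e k).1, (f k).dim_f], h _ _ fun k => ?_, h _ _ fun k => ?_⟩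
  · rw [← (f k).d_f, (e k).2.1]
  · rw [← (f k).d_f, (e k).2.2]

theorem isIn (h : JI f) {a x y : X.A} (e : ∀ k, (Y k).In (f k x) (f k y) (f k a)) :
    X.In x y a := by
  obtain ⟨k⟩ := ‹Nonempty κ›
  refine ⟨by rw [← (f k).dim_f, ← (f k).dim_f]; exact (e k).1, h _ _ fun k => ?_,
    h _ _ fun k => ?_⟩
  · rw [← (f k).fc_f, ← (f k).dim_f, (e k).2.1]
  · rw [← (f k).fc_f, ← (f k).dim_f, (e k).2.2]

theorem cmp (h : JI f) {p g q : X.A} (e : ∀ k, (Y k).Cmp (f k p) (f k g) (f k q)) :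
    X.Cmp p g q := by
  obtain ⟨k⟩ := ‹Nonempty κ›
  refine ⟨by rw [← (f k).dim_f]; exact (e k).1,
    by rw [← (f k).dim_f, ← (f k).dim_f]; exact (e k).2.1, h.isIn fun k => ?_⟩
  rw [← (f k).d_f, ← (f k).d_f]; exact (e k).2.2

end JI

/-- A natural construction: every cell of `obj X` is a system `sp z` of cells of `X`, of
dimensions depending only on `dim z`, subject to conditions that are reflected by jointly
injective families of maps. -/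
structure NG where
  obj : WG.{u} → AG.{u}
  map : ∀ {X Y : WG.{u}}, Hom X Y → Map (obj X) (obj Y)
  ι : Type
  δ : ℕ → ι → ℕ
  sp : ∀ {X : WG.{u}}, (obj X).A → ι → X.A
  sp_map : ∀ {X Y : WG.{u}} (f : Hom X Y) z i, sp (map f z) i = f (sp z i)
  dim_sp : ∀ {X : WG.{u}} (z : (obj X).A) i, X.dim (sp z i) = δ ((obj X).dim z) i
  inj : ∀ {X : WG.{u}} (z z' : (obj X).A), (obj X).dim z = (obj X).dim z' →
    (∀ i, sp z i = sp z' i) → z = z'
  refl : ∀ {X : WG.{u}} {κ : Type u} [Nonempty κ] {Y : κ → WG.{u}} (f : ∀ k, Hom X (Y k)),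
    (JI fun k => (f k).toMap) → ∀ (z : ∀ k, (obj (Y k)).A) (n : ℕ),
    (∀ k, (obj (Y k)).dim (z k) = n) → ∀ x : ι → X.A, (∀ k i, f k (x i) = sp (z k) i) →
    ∃ z₀, ∀ k, map (f k) z₀ = z k

namespace NG

variable (𝒢 : NG.{u})

theorem map_comp {X Y Z : WG.{u}} (f : Hom X Y) (g : Hom Y Z) (h : Hom X Z)
    (e : ∀ x, h x = g (f x)) (z : (𝒢.obj X).A) : 𝒢.map h z = 𝒢.map g (𝒢.map f z) :=
  𝒢.inj _ _ (by simp only [Map.dim_f]) fun i => by simp only [𝒢.sp_map, e]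

theorem map_id {X : WG.{u}} (h : Hom X X) (e : ∀ x, h x = x) (z : (𝒢.obj X).A) :
    𝒢.map h z = z :=
  𝒢.inj _ _ (by simp only [Map.dim_f]) fun i => by simp only [𝒢.sp_map, e]

theorem ji {X : WG.{u}} {κ : Type u} [Nonempty κ] {Y : κ → WG.{u}} {f : ∀ k, Hom X (Y k)}
    (h : JI fun k => (f k).toMap) : JI fun k => 𝒢.map (f k) := by
  intro z z' e
  obtain ⟨k⟩ := ‹Nonempty κ›
  refine 𝒢.inj _ _ (by rw [← (𝒢.map (f k)).dim_f, e k, (𝒢.map (f k)).dim_f]) fun i =>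
    h _ _ fun k => ?_
  change f k _ = f k _
  rw [← 𝒢.sp_map, ← 𝒢.sp_map, e k]

/-- Natural maps between constructions. -/
structure Nat (𝒜 ℬ : NG.{u}) where
  app : ∀ X : WG.{u}, Map (𝒜.obj X) (ℬ.obj X)
  nat : ∀ {X Y : WG.{u}} (f : Hom X Y) z, app Y (𝒜.map f z) = ℬ.map f (app X z)

/-- Composition of natural maps. -/
def Nat.comp {𝒜 ℬ 𝒞 : NG.{u}} (b : Nat ℬ 𝒞) (a : Nat 𝒜 ℬ) : Nat 𝒜 𝒞 where
  app X := (b.app X).comp (a.app X)
  nat f z := by simp only [Map.comp_apply, a.nat, b.nat]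

/-- The identity natural map. -/
def Nat.id (𝒜 : NG.{u}) : Nat 𝒜 𝒜 where
  app X := Map.id _
  nat _ _ := rfl

/-- The underlying globular set. -/
def idN : NG.{u} where
  obj X := X.toAG
  map f := f.toMap
  ι := Unit
  δ n _ := n
  sp z _ := z
  sp_map _ _ _ := rfl
  dim_sp _ _ := rfl
  inj _ _ _ h := h ()
  refl _ _ _ _ _ x h := ⟨x (), fun k => h k ()⟩

/-- Pullbacks of constructions. -/
def PBN {𝒜 ℬ 𝒞 : NG.{u}} (a : Nat 𝒜 𝒞) (b : Nat ℬ 𝒞) : NG.{u} where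
  obj X := PB (a.app X) (b.app X)
  map f := PB.lift ((𝒜.map f).comp (PB.fst _ _)) ((ℬ.map f).comp (PB.snd _ _)) fun v => by
    simp only [Map.comp_apply, a.nat, b.nat, PB.cond]
  ι := 𝒜.ι ⊕ ℬ.ι
  δ n := Sum.elim (𝒜.δ n) (ℬ.δ n)
  sp z := Sum.elim (𝒜.sp (PB.fst _ _ z)) (ℬ.sp (PB.snd _ _ z))
  sp_map f z i := by
    cases i with
    | inl i => exact 𝒜.sp_map f _ i
    | inr i => exact ℬ.sp_map f _ i
  dim_sp z i := by
    cases i with
    | inl i => exact 𝒜.dim_sp _ i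
    | inr i => exact (ℬ.dim_sp _ i).trans (by rw [Map.dim_f]; rfl)
  inj z z' h e :=
    PB.ext (𝒜.inj _ _ (by rw [Map.dim_f, Map.dim_f, h]) fun i => e (.inl i))
      (ℬ.inj _ _ (by rw [Map.dim_f, Map.dim_f, h]) fun i => e (.inr i))
  refl f hf z n hn x h := by
    obtain ⟨u, hu⟩ := 𝒜.refl f hf (fun k => PB.fst _ _ (z k)) n
      (fun k => by rw [Map.dim_f, hn]) (fun i => x (.inl i)) fun k i => h k (.inl i)
    obtain ⟨v, hv⟩ := ℬ.refl f hf (fun k => PB.snd _ _ (z k)) n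
      (fun k => by rw [Map.dim_f, hn]) (fun i => x (.inr i)) fun k i => h k (.inr i)
    exact ⟨⟨(u, v), 𝒞.ji hf _ _ fun k => by
      change 𝒞.map (f k) (a.app _ u) = 𝒞.map (f k) (b.app _ v)
      rw [← a.nat, ← b.nat, hu, hv, PB.cond]⟩, fun k => PB.ext (hu k) (hv k)⟩

/-- First projection. -/
def PBN.fst {𝒜 ℬ 𝒞 : NG.{u}} (a : Nat 𝒜 𝒞) (b : Nat ℬ 𝒞) : Nat (PBN a b) 𝒜 :=
  ⟨fun _ => PB.fst _ _, fun _ _ => rfl⟩

/-- Second projection. -/
def PBN.snd {𝒜 ℬ 𝒞 : NG.{u}} (a : Nat 𝒜 𝒞) (b : Nat ℬ 𝒞) : Nat (PBN a b) ℬ :=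
  ⟨fun _ => PB.snd _ _, fun _ _ => rfl⟩

end NG

end Crest.Agent.R248
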