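import Crest.Agent.R248.OpsDef

/-!
# R248: existence of the operations and of the universal cylinders
-/

set_option autoImplicit false
set_option backward.isDefEq.respectTransparency false

namespace Crest.Agent.R248

universe u

open CategoryTheory Opposite Crest.GeometryTopology.Coherator AG GlobTheory

variable {C : GlobTheory.{u}}

namespace OpsAux

/-- natural fillers, abstract form -/
theorem natfill (hC : C.IsCoheratorTheory) {T : GlobModel C → Type u}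
    (act : ∀ {X Y : GlobModel C}, (X ⟶ Y) → T X → T Y)
    (act_comp : ∀ {X Y Z : GlobModel C} (f : X ⟶ Y) (g : Y ⟶ Z) t, act (f ≫ g) t = act g (act f t))
    (P : ∀ Y, T Y → Prop) (hP : ∀ {X Y : GlobModel C} (f : X ⟶ Y) t, P X t → P Y (act f t))
    (S : Shape) (t₀ : T (GlobModel.freeOn C S)) (h₀ : P _ t₀)
    (rep : ∀ Y t, P Y t → ∃! f : GlobModel.freeOn C S ⟶ Y, act f t₀ = t)
    (c c' : ∀ Y, T Y → (U Y).A)
    (hc : ∀ {X Y : GlobModel C} (f : X ⟶ Y) t, P X t → Um f (c X t) = c Y (act f t))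
    (hc' : ∀ {X Y : GlobModel C} (f : X ⟶ Y) t, P X t → Um f (c' X t) = c' Y (act f t))
    (hpar : ∀ Y t, P Y t → (U Y).Par (c Y t) (c' Y t) ∧ 1 ≤ (U Y).dim (c Y t) ∧
      S.dim ≤ (U Y).dim (c Y t)) :
    ∃ e : ∀ Y, T Y → (U Y).A, (∀ Y t, P Y t → (U Y).Arr (e Y t) (c Y t) (c' Y t)) ∧
      ∀ {X Y : GlobModel C} (f : X ⟶ Y) t, P X t → Um f (e X t) = e Y (act f t) := by
  classical
  obtain ⟨h1, h2, h3⟩ := hpar _ t₀ h₀
  obtain ⟨e₀, he₀⟩ := conn_free hC S h1 h2 h3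
  choose φ hφ hφ' using rep
  refine ⟨fun Y t => if h : P Y t then Um (φ Y t h) e₀ else (U Y).pt, fun Y t h => ?_,
    fun {X Y} f t h => ?_⟩
  · have := he₀.map (Um (φ Y t h))
    rw [hc _ _ h₀, hc' _ _ h₀, hφ] at this
    simpa only [dif_pos h] using this
  · simp only [dif_pos h, dif_pos (hP f t h)]
    rw [← Um_comp, hφ' Y _ (hP f t h) (φ X t h ≫ f) (by simp only [act_comp, hφ])]

theorem natfill1 (hC : C.IsCoheratorTheory) (k : ℕ) (c c' : ∀ Y : GlobModel C, (U Y).A → (U Y).A)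
    (hc : ∀ {X Y : GlobModel C} (f : X ⟶ Y) x, Um f (c X x) = c Y (Um f x))
    (hc' : ∀ {X Y : GlobModel C} (f : X ⟶ Y) x, Um f (c' X x) = c' Y (Um f x))
    (hpar : ∀ Y x, (U Y).dim x = k + 1 → (U Y).Par (c Y x) (c' Y x) ∧ 1 ≤ (U Y).dim (c Y x) ∧
      k ≤ (U Y).dim (c Y x)) :
    ∃ e : ∀ Y : GlobModel C, (U Y).A → (U Y).A,
      (∀ Y x, (U Y).dim x = k + 1 → (U Y).Arr (e Y x) (c Y x) (c' Y x)) ∧
      ∀ {X Y : GlobModel C} (f : X ⟶ Y) x, (U X).dim x = k + 1 → Um f (e X x) = e Y (Um f x) := by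
  refine natfill hC (T := fun Y => (U Y).A) (fun f x => Um f x) (fun f g x => Um_comp f g x)
    (fun Y x => (U Y).dim x = k + 1) (fun f x h => by rw [(Um f).dim_f, h]) (Shape.globe k)
    (DP.top (n := k) (uD C (Shape.globe k))) (DP.dim_top (n := k) (uD C (Shape.globe k))) ?_ c c' (fun f x _ => hc f x) (fun f x _ => hc' f x)
    hpar
  intro Y x hx
  obtain ⟨f, hf, hf'⟩ := free_rep (S := Shape.globe k) (DP.ofCell (n := k) x hx)
  exact ⟨f, congrArg (DP.top (n := k)) hf, fun g hg => hf' g (DP.ext_top (n := k) hg)⟩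

/-- the triples of level `j, n` -/
def Tr (X : AG.{u}) (j n : ℕ) (p γ q : X.A) : Prop :=
  X.Cmp p γ q ∧ X.dim p = j + 2 ∧ X.dim γ = j + 2 + n

theorem Tr.map {X Y : AG.{u}} (f : Map X Y) {j n : ℕ} {p γ q : X.A} (h : Tr X j n p γ q) :
    Tr Y j n (f p) (f γ) (f q) :=
  ⟨h.1.map f, by rw [f.dim_f, h.2.1], by rw [f.dim_f, h.2.2]⟩

theorem Tr.d {X : AG.{u}} {j n : ℕ} {p γ q : X.A} (h : Tr X j (n + 1) p γ q) (b : Bool) :
    Tr X j n p (X.d b γ) q :=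
  ⟨h.1.d (by rw [h.2.1, h.2.2]; omega) b, h.2.1, by rw [X.dim_d, h.2.2]; omega⟩

theorem Tr.of_par {X : AG.{u}} {j n : ℕ} {p γ γ' q : X.A} (h : Tr X j n p γ q) (h' : X.Par γ γ') :
    Tr X j n p γ' q := ⟨h.1.of_par h', h.2.1, h'.1 ▸ h.2.2⟩

theorem Tr.arr {X : AG.{u}} {j : ℕ} {p γ q : X.A} (h : Tr X j 0 p γ q) :
    X.Arr γ (X.d true p) (X.d false q) :=
  h.1.2.2.arr (by rw [X.dim_d, h.2.1, h.2.2]; omega)

theorem tr_of_cmp {X : AG.{u}} {p γ q : X.A} (h : X.Cmp p γ q) :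
    Tr X (X.dim p - 2) (X.dim γ - X.dim p) p γ q :=
  ⟨h, by have := h.1; omega, by have := h.1; have := h.dim_le; omega⟩

/-- ternary operations -/
abbrev Op3 (C : GlobTheory.{u}) := ∀ Y : GlobModel C, (U Y).A → (U Y).A → (U Y).A → (U Y).A

/-- naturality on triples -/
def Nat3 (j n : ℕ) (c : Op3 C) : Prop :=
  ∀ (X Y : GlobModel C) (f : X ⟶ Y) p γ q, Tr (U X) j n p γ q →
    Um f (c X p γ q) = c Y (Um f p) (Um f γ) (Um f q)

theorem natfill3 (hC : C.IsCoheratorTheory) (j n : ℕ) (c c' : Op3 C) (hc : Nat3 j n c)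
    (hc' : Nat3 j n c') (hpar : ∀ Y p γ q, Tr (U Y) j n p γ q →
      (U Y).Par (c Y p γ q) (c' Y p γ q) ∧ j + 1 + n ≤ (U Y).dim (c Y p γ q)) :
    ∃ e : Op3 C, Nat3 j n e ∧
      ∀ Y p γ q, Tr (U Y) j n p γ q → (U Y).Arr (e Y p γ q) (c Y p γ q) (c' Y p γ q) := by
  have a1 : j < (Shape.globe (j + 1)).last := Nat.lt_succ_self j
  have a2 : j < j + 1 + n := by omega
  have a3 : j < ((Shape.globe (j + 1)).glue j (j + 1 + n) a1 a2).last := a2
  have a4 : j < j + 1 := Nat.lt_succ_self j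
  let S := ((Shape.globe (j + 1)).glue j (j + 1 + n) a1 a2).glue j (j + 1) a3 a4
  have hS : S.dim = j + 1 + n := by
    simp only [S, dim_glue, dim_globe]; omega
  have key : ∀ {X : AG.{u}} (s : Dg S X), Tr X j n s.left.left.last s.left.last s.last := by
    intro X s
    have d1 : X.dim s.left.left.last = j + 1 + 1 := s.left.left.dim_last
    have d2 : X.dim s.left.last = j + 1 + n + 1 := s.left.dim_last
    have d3 : X.dim s.last = j + 1 + 1 := s.dim_last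
    have d4 : X.dim (X.d true s.left.left.last) = j + 1 := by rw [X.dim_d, d1]; rfl
    refine ⟨⟨by omega, by omega, by omega, ?_, ?_⟩, d1, by omega⟩
    · rw [d4, ← DP.glue_cond s.left, fc_succ _ d1]
    · rw [d4, DP.glue_cond s, fc_succ _ d3]
  have rep : ∀ (Y : GlobModel C) (t : (U Y).A × (U Y).A × (U Y).A), Tr (U Y) j n t.1 t.2.1 t.2.2 →
      ∃! f : GlobModel.freeOn C S ⟶ Y,
        (Um f (uD C S).left.left.last, Um f (uD C S).left.last, Um f (uD C S).last) = t := by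
    rintro Y ⟨p, γ, q⟩ ⟨⟨h1, h2, h3, h4, h5⟩, h6, h7⟩
    dsimp only at h1 h2 h3 h4 h5 h6 h7
    have d4 : (U Y).dim ((U Y).d true p) = j + 1 := by rw [(U Y).dim_d, h6]; rfl
    rw [d4] at h4 h5
    obtain ⟨s₁, k1, k2⟩ := DP.exists_glue a1 a2 (DP.ofCell (n := j + 1) p h6) γ (by omega)
      (by rw [h4]; exact fc_succ _ h6)
    obtain ⟨s, k3, k4⟩ := DP.exists_glue a3 a4 s₁ q (by omega)
      (by rw [k2, h5, fc_succ _ (h2.trans h6)])
    obtain ⟨f, hf, hf'⟩ := free_rep (S := S) s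
    refine ⟨f, ?_, fun g hg => hf' g ?_⟩
    · have e1 := congrArg (fun s : Dg S (U Y) => s.left.left.last) hf
      have e2 := congrArg (fun s : Dg S (U Y) => s.left.last) hf
      have e3 := congrArg (fun s : Dg S (U Y) => s.last) hf
      simp only [k3, k1, k2, k4] at e1 e2 e3
      exact Prod.ext e1 (Prod.ext e2 e3)
    · simp only [Prod.mk.injEq] at hg
      refine DP.glue_ext (DP.glue_ext (DP.ext_top (n := j + 1) ?_) ?_) ?_
      · rw [k3, k1]; exact hg.1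
      · rw [k3, k2]; exact hg.2.1
      · rw [k4]; exact hg.2.2
  obtain ⟨e, he, he'⟩ := natfill hC (T := fun Y => (U Y).A × (U Y).A × (U Y).A)
    (fun f t => (Um f t.1, Um f t.2.1, Um f t.2.2)) (fun f g t => by simp only [Um_comp])
    (fun Y t => Tr (U Y) j n t.1 t.2.1 t.2.2) (fun f t h => h.map (Um f)) S
    ((uD C S).left.left.last, (uD C S).left.last, (uD C S).last) (key (uD C S)) rep
    (fun Y t => c Y t.1 t.2.1 t.2.2) (fun Y t => c' Y t.1 t.2.1 t.2.2)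
    (fun f t h => hc _ _ f _ _ _ h) (fun f t h => hc' _ _ f _ _ _ h) (fun Y t h => by
      obtain ⟨h1, h2⟩ := hpar Y _ _ _ h
      exact ⟨h1, by omega, hS ▸ h2⟩)
  exact ⟨fun Y p γ q => e Y (p, γ, q), fun X Y f p γ q h => he' f (p, γ, q) h,
      fun Y p γ q h => he Y (p, γ, q) h⟩

theorem exists_unit (hC : C.IsCoheratorTheory) : ∃ u : ∀ Y : GlobModel C, (U Y).A → (U Y).A,
    (∀ Y x, 1 ≤ (U Y).dim x → (U Y).Arr (u Y x) x x) ∧
    ∀ {X Y : GlobModel C} (f : X ⟶ Y) x, 1 ≤ (U X).dim x → Um f (u X x) = u Y (Um f x) := by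
  choose e h1 h2 using fun k => natfill1 hC k (fun _ x => x) (fun _ x => x) (fun _ _ => rfl)
    (fun _ _ => rfl) (fun Y x h => ⟨Par.refl x, by omega, by omega⟩)
  refine ⟨fun Y x => e ((U Y).dim x - 1) Y x, fun Y x h => h1 _ Y x (by omega), fun f x h => ?_⟩
  beta_reduce
  rw [h2 _ f x (by omega), (Um f).dim_f]

theorem exists_inv (hC : C.IsCoheratorTheory) : ∃ u : ∀ Y : GlobModel C, (U Y).A → (U Y).A,
    (∀ Y x, 2 ≤ (U Y).dim x → (U Y).Arr (u Y x) ((U Y).d true x) ((U Y).d false x)) ∧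
    ∀ {X Y : GlobModel C} (f : X ⟶ Y) x, 2 ≤ (U X).dim x → Um f (u X x) = u Y (Um f x) := by
  choose e h1 h2 using fun k => natfill1 hC (k + 1) (fun Y x => (U Y).d true x)
    (fun Y x => (U Y).d false x) (fun f x => ((Um f).d_f _ _).symm)
    (fun f x => ((Um f).d_f _ _).symm)
    (fun Y x h => ⟨par_d _ _ x, by rw [(U Y).dim_d]; omega, by rw [(U Y).dim_d]; omega⟩)
  refine ⟨fun Y x => e ((U Y).dim x - 2) Y x, fun Y x h => h1 _ Y x (by omega), fun f x h => ?_⟩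
  beta_reduce
  rw [h2 _ f x (by omega), (Um f).dim_f]

theorem exists_seq {α : Type*} (I : ℕ → α → Prop) (R : ℕ → α → α → Prop) (a₀ : α) (h₀ : I 0 a₀)
    (hs : ∀ n a, I n a → ∃ b, I (n + 1) b ∧ R n a b) :
    ∃ s : ℕ → α, s 0 = a₀ ∧ ∀ n, I n (s n) ∧ R n (s n) (s (n + 1)) := by
  choose F hF hF' using hs
  let s : ∀ n, {a // I n a} := fun n => Nat.rec ⟨a₀, h₀⟩ (fun n a => ⟨F n a.1 a.2, hF n a.1 a.2⟩) n
  exact ⟨fun n => (s n).1, rfl, fun n => ⟨(s n).2, hF' n _ (s n).2⟩⟩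

theorem exists_m (hC : C.IsCoheratorTheory) (j : ℕ) : ∃ m : ℕ → Op3 C,
    (∀ Y p γ q, Tr (U Y) j 0 p γ q → (U Y).Arr (m 0 Y p γ q) ((U Y).d false p) ((U Y).d true q)) ∧
    ∀ n, Nat3 j n (m n) ∧ (∀ Y p γ q, Tr (U Y) j n p γ q → (U Y).dim (m n Y p γ q) = (U Y).dim γ) ∧
      ∀ Y p γ q, Tr (U Y) j (n + 1) p γ q → (U Y).Arr (m (n + 1) Y p γ q)
        (m n Y p ((U Y).d false γ) q) (m n Y p ((U Y).d true γ) q) := by
  obtain ⟨m₀, h1, h2⟩ := natfill3 hC j 0 (fun Y p _ _ => (U Y).d false p)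
    (fun Y _ _ q => (U Y).d true q) (fun _ _ f _ _ _ _ => ((Um f).d_f _ _).symm)
    (fun _ _ f _ _ _ _ => ((Um f).d_f _ _).symm) (fun Y p γ q h =>
      ⟨(par_d false true p).trans (h.1.2.2.par.trans (par_d false true q)),
        by rw [(U Y).dim_d, h.2.1]; omega⟩)
  obtain ⟨m, hm0, hm⟩ := exists_seq
    (fun n (m : Op3 C) => Nat3 j n m ∧ ∀ Y p γ q, Tr (U Y) j n p γ q →
      (U Y).dim (m Y p γ q) = (U Y).dim γ ∧
        ∀ γ', (U Y).Par γ γ' → (U Y).Par (m Y p γ q) (m Y p γ' q))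
    (fun n m m' => ∀ Y p γ q, Tr (U Y) j (n + 1) p γ q → (U Y).Arr (m' Y p γ q)
      (m Y p ((U Y).d false γ) q) (m Y p ((U Y).d true γ) q)) m₀
    ⟨h1, fun Y p γ q h => ⟨by rw [(h2 Y p γ q h).1, (U Y).dim_d, h.2.1, h.2.2]; omega,
      fun γ' h' => (h2 Y p γ q h).par_arr (h2 Y p γ' q (h.of_par h'))⟩⟩ (by
      rintro n m ⟨k1, k2⟩
      obtain ⟨m', k3, k4⟩ := natfill3 hC j (n + 1) (fun Y p γ q => m Y p ((U Y).d false γ) q)
        (fun Y p γ q => m Y p ((U Y).d true γ) q)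
        (fun X Y f p γ q h => by beta_reduce; rw [k1 X Y f _ _ _ (h.d _), (Um f).d_f])
        (fun X Y f p γ q h => by beta_reduce; rw [k1 X Y f _ _ _ (h.d _), (Um f).d_f])
        (fun Y p γ q h => ⟨(k2 Y _ _ _ (h.d false)).2 _ (par_d _ _ _),
          by rw [(k2 Y _ _ _ (h.d false)).1, (h.d false).2.2]; omega⟩)
      refine ⟨m', ⟨k3, fun Y p γ q h => ⟨?_, fun γ' h' => ?_⟩⟩, k4⟩
      · rw [(k4 Y p γ q h).1, (k2 Y _ _ _ (h.d false)).1, (h.d false).2.2, h.2.2]; omega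
      · have := k4 Y p γ' q (h.of_par h')
        rw [← h'.2, ← h'.2] at this
        exact (k4 Y p γ q h).par_arr this)
  exact ⟨m, hm0 ▸ h2, fun n => ⟨(hm n).1.1, fun Y p γ q h => ((hm n).1.2 Y p γ q h).1, (hm n).2⟩⟩

theorem exists_M (hC : C.IsCoheratorTheory) : ∃ M : Op3 C,
    (∀ Y p γ q, (U Y).Cmp p γ q → (U Y).dim (M Y p γ q) = (U Y).dim γ) ∧
    (∀ Y p γ q, (U Y).Cmp p γ q → (U Y).dim γ = (U Y).dim p →
      (U Y).d false (M Y p γ q) = (U Y).d false p ∧ (U Y).d true (M Y p γ q) = (U Y).d true q) ∧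
    (∀ Y p γ q, (U Y).Cmp p γ q → (U Y).dim p < (U Y).dim γ →
      ∀ b, (U Y).d b (M Y p γ q) = M Y p ((U Y).d b γ) q) ∧
    ∀ {X Y : GlobModel C} (f : X ⟶ Y) p γ q, (U X).Cmp p γ q →
      Um f (M X p γ q) = M Y (Um f p) (Um f γ) (Um f q) := by
  choose m h1 h2 h3 h4 using exists_m hC
  refine ⟨fun Y p γ q => m ((U Y).dim p - 2) ((U Y).dim γ - (U Y).dim p) Y p γ q,
    fun Y p γ q h => h3 _ _ Y p γ q (tr_of_cmp h), fun Y p γ q h hd => ?_,
    fun Y p γ q h hd b => ?_, fun f p γ q h => ?_⟩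
  · have k := tr_of_cmp h
    have e : (U Y).dim γ - (U Y).dim p = 0 := by omega
    simp only [e] at k ⊢
    exact (h1 _ Y p γ q k).2
  · have k := tr_of_cmp h
    have e : (U Y).dim γ - (U Y).dim p = (U Y).dim ((U Y).d b γ) - (U Y).dim p + 1 := by
      rw [(U Y).dim_d]; omega
    simp only [e] at k ⊢
    rw [(h4 _ _ Y p γ q k).d_eq]
    cases b <;> rfl
  · rw [h2 _ _ _ _ f p γ q (tr_of_cmp h)]
    simp only [(Um f).dim_f]

theorem cmp_of_arr' {X : AG.{u}} {p g q x y z v : X.A} (hp : X.Arr p x y) (hg : X.In y z g)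
    (hq : X.Arr q z v) (hx : 1 ≤ X.dim x) : X.Cmp p g q :=
  ⟨by rw [hp.1]; omega, by rw [hq.1, hp.dim_tgt, hg.par.1], by rw [hp.2.2, hq.2.1]; exact hg⟩

theorem nonempty_ops (hC : C.IsCoheratorTheory) : Nonempty (Ops C) := by
  obtain ⟨u, u1, u2⟩ := exists_unit hC
  obtain ⟨v, v1, v2⟩ := exists_inv hC
  obtain ⟨M, m1, m2, m3, m4⟩ := exists_M hC
  refine ⟨⟨u, v, M, u1, v1, m1, m2, m3, fun Y p g q h hd => ?_, u2, v2, m4⟩⟩
  have M_arr : ∀ {Y : GlobModel C} {p g q x y z w : (U Y).A}, (U Y).Arr p x y → (U Y).Arr g y z →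
      (U Y).Arr q z w → 1 ≤ (U Y).dim x → (U Y).Arr (M Y p g q) x w := by
    intro Y p g q x y z w hp hg hq hx
    have hc := cmp_of_arr' hp hg.isIn hq hx
    have hd : (U Y).dim g = (U Y).dim p := by rw [hg.1, hp.dim_tgt]
    have := m2 Y p g q hc hd
    exact ⟨by rw [m1 _ _ _ _ hc, hd, hp.1], by rw [this.1, hp.2.1], by rw [this.2, hq.2.2]⟩
  have key : ∀ {j : ℕ} {Y : GlobModel C} {p g q : (U Y).A}, Tr (U Y) j 0 p g q →
      (1 ≤ (U Y).dim ((U Y).d false q) ∧ 1 ≤ (U Y).dim ((U Y).d true q)) ∧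
      ((U Y).Cmp p g (u Y ((U Y).d false q)) ∧
        (U Y).Cmp (M Y p g (u Y ((U Y).d false q))) q (u Y ((U Y).d true q))) ∧
      (U Y).Par (M Y p g q) (M Y (M Y p g (u Y ((U Y).d false q))) q (u Y ((U Y).d true q))) := by
    intro j Y p g q h
    have d1 := h.2.1
    have d2 := h.1.2.1
    have hp : (U Y).Arr p _ _ := arr_self (by omega)
    have hq : (U Y).Arr q _ _ := arr_self (by omega)
    have e0 : 1 ≤ (U Y).dim ((U Y).d false p) := by rw [(U Y).dim_d]; omega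
    have e1 : 1 ≤ (U Y).dim ((U Y).d false q) := by rw [(U Y).dim_d]; omega
    have e2 : 1 ≤ (U Y).dim ((U Y).d true q) := by rw [(U Y).dim_d]; omega
    have k1 := M_arr hp h.arr (u1 Y _ e1) e0
    exact ⟨⟨e1, e2⟩, ⟨cmp_of_arr' hp h.arr.isIn (u1 Y _ e1) e0,
      cmp_of_arr' k1 hq.isIn (u1 Y _ e2) e0⟩,
      (M_arr hp h.arr hq e0).par_arr (M_arr k1 hq (u1 Y _ e2) e0)⟩
  obtain ⟨e, -, he⟩ := natfill3 hC ((U Y).dim p - 2) 0 M
    (fun Y p g q => M Y (M Y p g (u Y ((U Y).d false q))) q (u Y ((U Y).d true q)))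
    (fun X Y f p g q h => m4 f p g q h.1)
    (fun X Y f p g q h => by
      obtain ⟨⟨k1, k2⟩, ⟨k3, k4⟩, -⟩ := key h
      beta_reduce
      rw [m4 f _ _ _ k4, m4 f _ _ _ k3, u2 f _ k1, u2 f _ k2, (Um f).d_f, (Um f).d_f])
    (fun Y p g q h => ⟨(key h).2.2, by rw [m1 _ _ _ _ h.1, h.2.2]; omega⟩)
  exact ⟨_, he Y p g q ⟨h, by have := h.1; omega, by have := h.1; omega⟩⟩

variable (𝒪 : Ops C)

/-- the data of the universal cylinders at level `j, n` -/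
structure Good (j n : ℕ)
    (Λ : ∀ Y : GlobModel C, (U Y).A → (U Y).A → (U Y).A → List ((U Y).A × (U Y).A))
    (H : Op3 C) : Prop where
  natL : ∀ (X Y : GlobModel C) (f : X ⟶ Y) a γ b, Tr (U X) j n a γ b →
    WG.mapL (X := 𝒪.W X) (Y := 𝒪.W Y) (Um f) (Λ X a γ b) = Λ Y (Um f a) (Um f γ) (Um f b)
  natH : Nat3 j n H
  vs : ∀ Y a γ b, Tr (U Y) j n a γ b → (𝒪.W Y).VS (j + 1) (Λ Y a γ b)
    ((U Y).d false ((𝒪.W Y).Phi a b γ)) ((U Y).d true ((𝒪.W Y).Phi a b γ))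
    ((U Y).d false γ) ((U Y).d true γ)
  arr : ∀ Y a γ b, Tr (U Y) j n a γ b →
    (U Y).Arr (H Y a γ b) ((𝒪.W Y).W (Λ Y a γ b) γ) ((𝒪.W Y).Phi a b γ)
  par : ∀ Y a γ b γ', (U Y).Par γ γ' → Λ Y a γ b = Λ Y a γ' b

variable {𝒪}

theorem good_of (hC : C.IsCoheratorTheory) {j n : ℕ}
    {Λ : ∀ Y : GlobModel C, (U Y).A → (U Y).A → (U Y).A → List ((U Y).A × (U Y).A)}
    (natL : ∀ (X Y : GlobModel C) (f : X ⟶ Y) a γ b, Tr (U X) j n a γ b →
      WG.mapL (X := 𝒪.W X) (Y := 𝒪.W Y) (Um f) (Λ X a γ b) = Λ Y (Um f a) (Um f γ) (Um f b))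
    (vs : ∀ Y a γ b, Tr (U Y) j n a γ b → (𝒪.W Y).VS (j + 1) (Λ Y a γ b)
      ((U Y).d false ((𝒪.W Y).Phi a b γ)) ((U Y).d true ((𝒪.W Y).Phi a b γ))
      ((U Y).d false γ) ((U Y).d true γ))
    (par : ∀ Y a γ b γ', (U Y).Par γ γ' → Λ Y a γ b = Λ Y a γ' b) : ∃ H, Good 𝒪 j n Λ H := by
  have a1 : ∀ {Y : GlobModel C} {a γ b : (U Y).A}, Tr (U Y) j n a γ b →
      (U Y).Arr γ ((U Y).d false γ) ((U Y).d true γ) := fun h => arr_self (by rw [h.2.2]; omega)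
  obtain ⟨H, h1, h2⟩ := natfill3 hC j n (fun Y a γ b => (𝒪.W Y).W (Λ Y a γ b) γ)
    (fun Y a γ b => (𝒪.W Y).Phi a b γ)
    (fun X Y f a γ b h => by
      beta_reduce
      rw [← natL X Y f a γ b h]
      exact (vs X a γ b h).map_W (𝒪.hom f) (a1 h).isIn)
    (fun X Y f a γ b h => WG.map_Phi (𝒪.hom f) h.1)
    (fun Y a γ b h => by
      have k1 := (vs Y a γ b h).hm
      have k2 : (U Y).dim ((𝒪.W Y).W (Λ Y a γ b) γ) = (U Y).dim γ := (k1.2 γ (a1 h).isIn).2.1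
      have k3 : (U Y).dim ((𝒪.W Y).Phi a b γ) = (U Y).dim γ :=
        ((WG.hm_Phi (X := 𝒪.W Y) h.1.1 h.1.2.1).2 γ h.1.2.2).2.1
      refine ⟨(k1.arr (a1 h)).par_arr (arr_self (X := U Y) ?_), ?_⟩
      · rw [k3, h.2.2]; omega
      · rw [k2, h.2.2]; omega)
  exact ⟨H, natL, h1, vs, h2, par⟩

theorem good_zero (hC : C.IsCoheratorTheory) (j : ℕ) :
    ∃ H, Good 𝒪 j 0 (fun _ _ _ _ => []) H := by
  refine good_of hC (fun _ _ _ _ _ _ _ => rfl) (fun Y a γ b h => ?_) (fun _ _ _ _ _ _ => rfl)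
  have k1 := h.arr
  have k2 : (U Y).Arr ((𝒪.W Y).Phi a b γ) _ _ := (WG.hm_Phi (X := 𝒪.W Y) h.1.1 h.1.2.1).arr k1
  refine ⟨?_, k2.2.1.trans k1.2.1.symm, k2.2.2.trans k1.2.2.symm, par_d _ _ _⟩
  change (U Y).dim _ = _
  rw [(U Y).dim_d, h.2.2]; omega

theorem Good.cons {j n : ℕ}
    {Λ : ∀ Y : GlobModel C, (U Y).A → (U Y).A → (U Y).A → List ((U Y).A × (U Y).A)} {H : Op3 C}
    (G : Good 𝒪 j n Λ H) {Y : GlobModel C} {a g b g' : (U Y).A} (h : Tr (U Y) j n a g b)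
    (hp : (U Y).Par g g') : (𝒪.W Y).VS (j + 1) ((H Y a g b, H Y a g' b) :: Λ Y a g b)
      ((𝒪.W Y).Phi a b g) ((𝒪.W Y).Phi a b g') g g' := by
  refine ⟨?_, hp, (WG.hm_Phi (X := 𝒪.W Y) h.1.1 h.1.2.1).par h.1.2.2 hp, G.vs Y a g b h,
    G.arr Y a g b h, ?_⟩
  · change 1 ≤ (U Y).dim g
    rw [h.2.2]; omega
  · rw [G.par Y a g b g' hp]
    exact G.arr Y a g' b (h.of_par hp)

theorem Good.succ (hC : C.IsCoheratorTheory) {j n : ℕ}
    {Λ : ∀ Y : GlobModel C, (U Y).A → (U Y).A → (U Y).A → List ((U Y).A × (U Y).A)} {H : Op3 C}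
    (G : Good 𝒪 j n Λ H) : ∃ H', Good 𝒪 j (n + 1) (fun Y a γ b =>
      (H Y a ((U Y).d false γ) b, H Y a ((U Y).d true γ) b) :: Λ Y a ((U Y).d false γ) b) H' := by
  refine good_of hC (fun X Y f a γ b h => ?_) (fun Y a γ b h => ?_) (fun Y a γ b γ' h => ?_)
  · rw [WG.mapL_cons, G.natL X Y f _ _ _ (h.d _), G.natH X Y f _ _ _ (h.d _),
      G.natH X Y f _ _ _ (h.d _), (Um f).d_f, (Um f).d_f]
  · have k : ∀ e, (U Y).d e ((𝒪.W Y).Phi a b γ) = (𝒪.W Y).Phi a b ((U Y).d e γ) :=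
      ((WG.hm_Phi (X := 𝒪.W Y) h.1.1 h.1.2.1).2 γ h.1.2.2).2.2 (by
        change (U Y).dim ((U Y).d true a) + 1 < (U Y).dim γ
        rw [(U Y).dim_d, h.2.1, h.2.2]; omega)
    rw [k, k]
    exact G.cons (h.d false) (par_d _ _ _)
  · rw [h.2, h.2]

theorem exists_good (hC : C.IsCoheratorTheory) (j n : ℕ) : ∃ Λ H, Good 𝒪 j n Λ H := by
  induction n with
  | zero => exact ⟨_, good_zero hC j⟩
  | succ n ih =>
    obtain ⟨Λ, H, G⟩ := ih
    exact ⟨_, G.succ hC⟩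

theorem theta (hC : C.IsCoheratorTheory) (Y : GlobModel C) : (𝒪.W Y).Theta := by
  intro a b ha hb
  change 2 ≤ (U Y).dim a at ha
  refine ⟨fun γ hγ => ?_, fun g g' hg hp => ?_⟩
  · obtain ⟨H, G⟩ := good_zero (𝒪 := 𝒪) hC ((U Y).dim a - 2)
    have h1 : (U Y).dim γ = (U Y).dim ((U Y).d true a) + 1 := hγ.1
    rw [(U Y).dim_d] at h1
    exact ⟨_, G.arr Y a γ b ⟨⟨ha, hb, hγ.isIn⟩, by omega, by omega⟩⟩
  · have h := tr_of_cmp (X := U Y) hg
    obtain ⟨Λ, H, G⟩ := exists_good (𝒪 := 𝒪) hC ((U Y).dim a - 2) ((U Y).dim g - (U Y).dim a)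
    obtain ⟨H', G'⟩ := G.succ hC
    have e : (𝒪.W Y).dim a - 1 = (U Y).dim a - 2 + 1 := by
      change (U Y).dim a - 1 = _
      omega
    refine ⟨_, e ▸ G.cons h hp, fun γ hγ => ?_⟩
    have h1 : (U Y).Arr γ g g' := hγ
    have h2 := G'.arr Y a γ b ⟨Cmp.of_in hg h1.isIn, h.2.1, by rw [h1.1, h.2.2]; omega⟩
    rw [h1.2.1, h1.2.2] at h2
    exact ⟨_, h2⟩

end OpsAux

/-- Models of a coherator carry natural units, inverses, whiskerings, and satisfy `Theta`.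

Proof.  Everything comes from two "natural filler" lemmas.
* `natfill1 (k) (c c' : ∀ Y, (U Y).A → (U Y).A)`: if `c, c'` are natural
  (`Um f (c X x) = c Y (Um f x)`) on cells `x` of dimension `k + 1`, and there `Par (c Y x) (c' Y x)`,
  `1 ≤ dim (c Y x)`, `k ≤ dim (c Y x)`, then there is `e`, natural on such cells, with
  `Arr (e Y x) (c Y x) (c' Y x)`.  (In `F := freeOn (globe k)` with `x₀ := DP.top (uD C _)`, take
  `e₀` from `conn_free`; for `x` let `f_x` be given by `free_rep (DP.ofCell x _)`, i.e. the unique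
  `f` with `Um f x₀ = x` (`DP.ext_top`), `e Y x := Um f_x e₀` (junk `pt` if the dimension is wrong);
  naturality by uniqueness and `Um_comp`.)
* `natfill3 (j k)`: the same for `c c' : ∀ Y, A → A → A → A` on the triples `(p, γ, q)` with
  `Cmp p γ q`, `dim p = j + 2`, `dim γ = k + 1` (so `j + 1 ≤ k`), needing `k ≤ dim (c ..)`,
  `1 ≤ dim (c ..)`.  Universal case: `S := ((globe (j+1)).glue j k _ _).glue j (j+1) _ _` of height
  `k`, `p₀ := (uD C S).left.left.last`, `γ₀ := (uD C S).left.last`, `q₀ := (uD C S).last`;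
  `Cmp p₀ γ₀ q₀` by `DP.glue_cond`, `fc_succ`, `DP.dim_last`; for a triple there is a unique `f` with
  `Um f p₀ = p`, `Um f γ₀ = γ`, `Um f q₀ = q` (`DP.ofCell`, `DP.exists_glue` twice, `free_rep`,
  `DP.glue_ext`, `DP.ext_top`).  It is convenient to prove one abstract lemma for a family
  `A : GlobModel C → Type u` with an action and a universal element.
* `unit Y x := e_k Y x` for `dim x = k + 1` (`c = c' = x`); `inv` with `c = d true e`, `c' = d false e`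
  (`dim e = k + 1`, `1 ≤ k`).
* `M`: for fixed `j` build by recursion on `n` (choice + `Nat.rec` in a subtype) functions `m j n`,
  natural on triples with `dim p = j + 2`, `dim γ = j + 2 + n`, with the invariant
  `dim (m p γ q) = dim γ` and `Par γ γ' → Par (m p γ q) (m p γ' q)`;
  `m j 0` fills `(d false p, d true q)` (parallel: `par_d`, `In.par`), `m j (n+1)` fills
  `(m j n p (d false γ) q, m j n p (d true γ) q)` (`Cmp.d`, `par_d`).
  `M Y p γ q := m (dim p - 2) (dim γ - dim p) Y p γ q`.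
* `assoc`: `natfill3 j (j+1)`; to show that the two sides are parallel it is convenient to have the
  lemmas `WG.M_arr`, `WG.cmp_of_arr` (re-prove them from `M_dim`, `M_bot`, three lines each).
* `Theta` (now `𝒪 : Ops C` is available, use `𝒪.W Y`, `𝒪.hom f`, and the lemmas of `WG.lean`):
  for fixed `j` prove by induction on `n` (plain existence, no sequence needed): there are
  `Λ : ∀ Y, A → A → A → List (A × A)` and `H : ∀ Y, A → A → A → A` such that on triples `(a, γ, b)` with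
  `dim a = j + 2`, `dim γ = j + 2 + n`: `mapL (Um f) (Λ ..) = Λ ..`, `Um f (H ..) = H ..`,
  `VS (j+1) (Λ a γ b) (d false Φγ) (d true Φγ) (d false γ) (d true γ)`, `Arr (H a γ b) (W (Λ a γ b) γ) Φγ`
  and `Par γ γ' → Λ a γ b = Λ a γ' b`, where `Φγ = Phi a b γ`.  Base: `Λ = []` (`hm_Phi`, `HM.arr`).
  Step: `Λ' a γ b := (H a (d false γ) b, H a (d true γ) b) :: Λ a (d false γ) b`; more generally for
  `Cmp a g b`, `Par g g'` at level `n` the list `(H g, H g') :: Λ g` satisfies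
  `VS (j+1) _ (Φ g) (Φ g') g g'` (`HM.par`).  `H'` is `natfill3` applied to `(W (Λ' γ) γ, Φγ)`, which are
  parallel by `VS.hm`, `HM.arr`, `hm_Phi`, natural by `VS.map_W`, `map_Phi`.  The first half of
  `Theta` is `H` at level `0`, the second half is the step from `n` to `n + 1`. -/
theorem exists_ops (hC : C.IsCoheratorTheory) : ∃ 𝒪 : Ops C, ∀ Y, (𝒪.W Y).Theta := by
  obtain ⟨𝒪⟩ := OpsAux.nonempty_ops hC
  exact ⟨𝒪, OpsAux.theta hC⟩

end Crest.Agent.R248
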