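import Crest.Agent.R248.Mod
import Crest.Agent.R248.NG

/-!
# R248: natural operations on models, representing objects and path models (definitions)
-/

set_option autoImplicit false
set_option backward.isDefEq.respectTransparency false

namespace Crest.Agent.R248

universe u

open CategoryTheory Crest.GeometryTopology.Coherator AG GlobTheory

/-- Natural units, inverses and whiskerings on all models of `C`. -/
structure Ops (C : GlobTheory.{u}) where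
  unit : ∀ Y : GlobModel C, (U Y).A → (U Y).A
  inv : ∀ Y : GlobModel C, (U Y).A → (U Y).A
  M : ∀ Y : GlobModel C, (U Y).A → (U Y).A → (U Y).A → (U Y).A
  unit_arr : ∀ Y x, 1 ≤ (U Y).dim x → (U Y).Arr (unit Y x) x x
  inv_arr : ∀ Y e, 2 ≤ (U Y).dim e → (U Y).Arr (inv Y e) ((U Y).d true e) ((U Y).d false e)
  M_dim : ∀ Y p γ q, (U Y).Cmp p γ q → (U Y).dim (M Y p γ q) = (U Y).dim γ
  M_bot : ∀ Y p γ q, (U Y).Cmp p γ q → (U Y).dim γ = (U Y).dim p →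
    (U Y).d false (M Y p γ q) = (U Y).d false p ∧ (U Y).d true (M Y p γ q) = (U Y).d true q
  M_d : ∀ Y p γ q, (U Y).Cmp p γ q → (U Y).dim p < (U Y).dim γ →
    ∀ b, (U Y).d b (M Y p γ q) = M Y p ((U Y).d b γ) q
  assoc : ∀ Y p g q, (U Y).Cmp p g q → (U Y).dim g = (U Y).dim p →
    (U Y).Step (M Y p g q)
      (M Y (M Y p g (unit Y ((U Y).d false q))) q (unit Y ((U Y).d true q)))
  f_unit : ∀ {X Y} (f : X ⟶ Y) x, 1 ≤ (U X).dim x → Um f (unit X x) = unit Y (Um f x)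
  f_inv : ∀ {X Y} (f : X ⟶ Y) e, 2 ≤ (U X).dim e → Um f (inv X e) = inv Y (Um f e)
  f_M : ∀ {X Y} (f : X ⟶ Y) p γ q, (U X).Cmp p γ q →
    Um f (M X p γ q) = M Y (Um f p) (Um f γ) (Um f q)

variable {C : GlobTheory.{u}}

namespace Ops

variable (𝒪 : Ops C)

/-- The structure on a model. -/
noncomputable def W (Y : GlobModel C) : WG.{u} where
  toAG := U Y
  unit := 𝒪.unit Y
  inv := 𝒪.inv Y
  M := 𝒪.M Y
  unit_arr := 𝒪.unit_arr Y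
  inv_arr := 𝒪.inv_arr Y
  M_dim := 𝒪.M_dim Y
  M_bot := 𝒪.M_bot Y
  M_d := 𝒪.M_d Y
  assoc := 𝒪.assoc Y

/-- Maps of models preserve the operations. -/
noncomputable def hom {X Y : GlobModel C} (f : X ⟶ Y) : WG.Hom (𝒪.W X) (𝒪.W Y) where
  toMap := Um f
  f_unit := 𝒪.f_unit f
  f_inv := 𝒪.f_inv f
  f_M := 𝒪.f_M f

@[simp] theorem hom_apply {X Y : GlobModel C} (f : X ⟶ Y) (x : (U X).A) :
    𝒪.hom f x = Um f x := rfl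

variable (𝒢 : NG.{u})

/-- The construction `𝒢` applied to a model. -/
noncomputable abbrev G (Y : GlobModel C) : AG.{u} := 𝒢.obj (𝒪.W Y)

/-- The construction `𝒢` applied to a map of models. -/
noncomputable abbrev Gm {X Y : GlobModel C} (f : X ⟶ Y) : Map (𝒪.G 𝒢 X) (𝒪.G 𝒢 Y) :=
  𝒢.map (𝒪.hom f)

theorem Gm_id (X : GlobModel C) (z : (𝒪.G 𝒢 X).A) : 𝒪.Gm 𝒢 (𝟙 X) z = z :=
  𝒢.map_id _ Um_id z

theorem Gm_comp {X Y Z : GlobModel C} (f : X ⟶ Y) (g : Y ⟶ Z) (z : (𝒪.G 𝒢 X).A) :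
    𝒪.Gm 𝒢 (f ≫ g) z = 𝒪.Gm 𝒢 g (𝒪.Gm 𝒢 f z) :=
  𝒢.map_comp _ _ _ (Um_comp f g) z

theorem map_Gm_id {P : GlobPsh.{0}} {X : GlobModel C} (s : DP P (𝒪.G 𝒢 X)) :
    s.map (𝒪.Gm 𝒢 (𝟙 X)) = s := DP.ext' fun _ _ => 𝒪.Gm_id 𝒢 X _

theorem map_Gm_comp {P : GlobPsh.{0}} {X Y Z : GlobModel C} (f : X ⟶ Y) (g : Y ⟶ Z)
    (s : DP P (𝒪.G 𝒢 X)) : s.map (𝒪.Gm 𝒢 (f ≫ g)) = (s.map (𝒪.Gm 𝒢 f)).map (𝒪.Gm 𝒢 g) :=
  DP.ext' fun _ _ => 𝒪.Gm_comp 𝒢 f g _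

/-- `(K, s)` represents the diagrams of shape `S` in `𝒢`. -/
def IsRep (S : Shape) (K : GlobModel C) (s : Dg S (𝒪.G 𝒢 K)) : Prop :=
  ∀ (Y : GlobModel C) (t : Dg S (𝒪.G 𝒢 Y)), ∃! f : K ⟶ Y, s.map (𝒪.Gm 𝒢 f) = t

variable (p : Bool → NG.Nat 𝒢 NG.idN)

/-- The projections `𝒢 Y → Y`. -/
noncomputable abbrev pj (ε : Bool) (Y : GlobModel C) : Map (𝒪.G 𝒢 Y) (U Y) := (p ε).app (𝒪.W Y)

theorem pj_Gm (ε : Bool) {X Y : GlobModel C} (f : X ⟶ Y) (z : (𝒪.G 𝒢 X).A) :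
    𝒪.pj 𝒢 p ε Y (𝒪.Gm 𝒢 f z) = Um f (𝒪.pj 𝒢 p ε X z) := (p ε).nat (𝒪.hom f) z

/-- The filling condition in the representing models. -/
def Fill : Prop :=
  ∀ (S : Shape) (K : GlobModel C) (s : Dg S (𝒪.G 𝒢 K)), 𝒪.IsRep 𝒢 S K s →
    ∀ c c' : (𝒪.G 𝒢 K).A, (𝒪.G 𝒢 K).Par c c' → 1 ≤ (𝒪.G 𝒢 K).dim c →
      S.dim ≤ (𝒪.G 𝒢 K).dim c → ∀ y : Bool → (U K).A,
      (∀ ε, (U K).Arr (y ε) (𝒪.pj 𝒢 p ε K c) (𝒪.pj 𝒢 p ε K c')) →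
      (s.map (𝒪.pj 𝒢 p false K) = s.map (𝒪.pj 𝒢 p true K) → y false = y true) →
      ∃ e, (𝒪.G 𝒢 K).Arr e c c' ∧ ∀ ε, 𝒪.pj 𝒢 p ε K e = y ε

/-- A natural model structure on `𝒢 Y` over `Y × Y`. -/
structure PathModel where
  obj : GlobModel C → GlobModel C
  map : ∀ {X Y : GlobModel C}, (X ⟶ Y) → (obj X ⟶ obj Y)
  pr : ∀ (_ : Bool) (Y : GlobModel C), obj Y ⟶ Y
  j : ∀ Y : GlobModel C, Map (U (obj Y)) (𝒪.G 𝒢 Y)
  j_bij : ∀ Y, Function.Bijective (j Y)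
  nat : ∀ (ε : Bool) {X Y : GlobModel C} (f : X ⟶ Y), map f ≫ pr ε Y = pr ε X ≫ f
  j_pr : ∀ (ε : Bool) (Y : GlobModel C) z, 𝒪.pj 𝒢 p ε Y (j Y z) = Um (pr ε Y) z

end Ops

variable (C) in
/-- A functorial path model: both projections are trivial fibrations for cells of dimension
`≤ N + 1`, and they jointly lift cells with a given source of dimension in `[m, N]`. -/
structure PathM (m : ℕ) (N : ℕ∞) where
  obj : GlobModel C → GlobModel C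
  map : ∀ {X Y : GlobModel C}, (X ⟶ Y) → (obj X ⟶ obj Y)
  pr : ∀ (_ : Bool) (Y : GlobModel C), obj Y ⟶ Y
  nat : ∀ (ε : Bool) {X Y : GlobModel C} (f : X ⟶ Y), map f ≫ pr ε Y = pr ε X ≫ f
  tf : ∀ (n : ℕ), n ≤ N → ∀ ε Y, TF (n + 1) (Um (pr ε Y))
  fib : ∀ (n : ℕ), n ≤ N → ∀ Y, Fib m n fun ε => Um (pr ε Y)

end Crest.Agent.R248
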