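import Crest.Agent.R248.Supp
import Crest.Agent.R248.Dg

/-!
# R248: the graded path objects
-/

set_option autoImplicit false
set_option backward.isDefEq.respectTransparency false

namespace Crest.Agent.R248

universe u

open AG WG Crest.GeometryTopology.Coherator

namespace NG

/-- One half of the path object. -/
def HN (μ : ℕ) (ε : Bool) : NG.{u} := PBN (qwN (μ + 1)) (ωN μ ε)

/-- The path object, trivial in dimensions `≤ μ`. -/
def PN (μ : ℕ) : NG.{u} :=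
  PBN (PBN.snd (qwN (μ + 1)) (ωN μ false)) (PBN.snd (qwN (μ + 1)) (ωN μ true))

/-- The strict part. -/
def tP (μ : ℕ) : Nat (PN.{u} μ) (TN μ) := (PBN.snd _ _).comp (PBN.fst _ _)

/-- The two cylinders. -/
def uP (μ : ℕ) : Bool → Nat (PN.{u} μ) (QN (μ + 1))
  | false => (PBN.fst _ _).comp (PBN.fst _ _)
  | true => (PBN.fst _ _).comp (PBN.snd _ _)

/-- The two projections. -/
def pP (μ : ℕ) (ε : Bool) : Nat (PN.{u} μ) idN := (qyN (μ + 1)).comp (uP μ ε)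

end NG

open NG

/-- The path object. -/
abbrev P (μ : ℕ) (X : WG.{u}) : AG.{u} := (PN μ).obj X

theorem Q.lift_src0 {ν : ℕ} {X : WG.{u}} {u : (Q ν X).A} (hu : (Q ν X).dim u = ν)
    {w w' y : X.A} (hw : X.Arr w (Q.qw ν X u) w') (hy : X.Step w y) :
    ∃ v, (Q ν X).dim v = (Q ν X).dim u + 1 ∧ (Q ν X).d false v = u ∧ Q.qw ν X v = w ∧
      Q.qy ν X v = y := by
  obtain ⟨u', rfl⟩ := Q.bijLe_qw.2 w' (by rw [← hw.par.1, Map.dim_f, hu])
  have hp : (Q ν X).Par u u' := Q.bijLe_qw.par (by omega) hw.par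
  obtain ⟨h, hh⟩ := hy
  obtain ⟨e, h1, h2, h3, -⟩ := Q.exists_arr hp hu.ge hw (y := y) (h := h)
    (by rw [Q.qy_low hu.le, Q.qy_low (hp.1 ▸ hu.le)]; exact hw.of_par hh.par)
    (by rw [Q.Lb, if_pos hu.le]; exact hh)
  exact ⟨e, h1.1, h1.2.1, h2, h3⟩

theorem Q.joint_dg {ν N : ℕ} {Z K : WG.{u}} {f : Bool → Hom Z K}
    (hf : Fib (ν + 1) N fun ε => (f ε).toMap) {S : Shape} (hN : S.dim + 1 ≤ N)
    (w : Dg S Z.toAG) (u : Bool → Dg S (Q ν K))
    (h : ∀ ε, (u ε).map (Q.qw ν K) = w.map (f ε).toMap) :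
    ∃ v : Dg S (Q ν Z), v.map (Q.qw ν Z) = w ∧ ∀ ε, v.map (Q.map ν (f ε)) = u ε := by
  let J : Map (Q ν Z) (PB (PB.snd (Q.qw ν K) (f false).toMap) (PB.snd (Q.qw ν K) (f true).toMap)) :=
    PB.lift (PB.lift (Q.map ν (f false)) (Q.qw ν Z) (Q.qw_map _))
      (PB.lift (Q.map ν (f true)) (Q.qw ν Z) (Q.qw_map _)) fun _ => rfl
  have hJ : TF N J := by
    intro c c' hp hc y hy
    have h0 := hy.map (PB.fst _ _)
    have h1 := hy.map (PB.snd _ _)
    obtain ⟨e, e1, e2, e3⟩ := Q.joint hf hp hc (h0.map (PB.snd _ _))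
      (fun ε => match ε with
        | false => PB.fst _ _ (PB.fst _ _ y)
        | true => PB.fst _ _ (PB.snd _ _ y))
      (fun ε => match ε with
        | false => h0.map (PB.fst _ _)
        | true => h1.map (PB.fst _ _))
      (fun ε => match ε with
        | false => PB.cond _
        | true => (PB.cond _).trans (congrArg (f true) (PB.cond y).symm))
    exact ⟨e, e1, PB.ext (PB.ext (e3 false) e2) (PB.ext (e3 true) (e2.trans (PB.cond y)))⟩
  obtain ⟨v, hv⟩ := DP.exists_map_eq hJ S hN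
    (DP.pb (DP.pb (u false) w (h false)) (DP.pb (u true) w (h true)) rfl)
  refine ⟨v, congrArg (fun s => (s.map (PB.fst _ _)).map (PB.snd _ _)) hv, fun ε => ?_⟩
  cases ε
  · exact congrArg (fun s => (s.map (PB.fst _ _)).map (PB.fst _ _)) hv
  · exact congrArg (fun s => (s.map (PB.snd _ _)).map (PB.fst _ _)) hv

namespace P

variable {μ : ℕ} {X : WG.{u}}

variable (μ X) in
/-- The strict part. -/
abbrev t : Map (P μ X) (T μ X.toAG) := (tP μ).app X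

variable (μ X) in
/-- The two cylinders. -/
abbrev c (ε : Bool) : Map (P μ X) (Q (μ + 1) X) := (uP μ ε).app X

variable (μ X) in
/-- The two projections. -/
abbrev p (ε : Bool) : Map (P μ X) X.toAG := (pP μ ε).app X

theorem p_eq (ε : Bool) (z : (P μ X).A) : p μ X ε z = Q.qy (μ + 1) X (c μ X ε z) := rfl

theorem cond (ε : Bool) (z : (P μ X).A) :
    Q.qw (μ + 1) X (c μ X ε z) = T.ω μ X ε (t μ X z) := by
  cases ε
  · exact z.1.1.2
  · exact z.1.2.2.trans (congrArg (T.ω μ X true) z.2.symm)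

theorem ext {z z' : (P μ X).A} (h1 : t μ X z = t μ X z') (h2 : ∀ ε, c μ X ε z = c μ X ε z') :
    z = z' :=
  PB.ext (PB.ext (h2 false) h1) (PB.ext (h2 true) (z.2.symm.trans (h1.trans z'.2)))

theorem exists_mk (a : (T μ X.toAG).A) (u : Bool → (Q (μ + 1) X).A)
    (h : ∀ ε, Q.qw (μ + 1) X (u ε) = T.ω μ X ε a) :
    ∃ z : (P μ X).A, t μ X z = a ∧ ∀ ε, c μ X ε z = u ε :=
  ⟨⟨(⟨(u false, a), h false⟩, ⟨(u true, a), h true⟩), rfl⟩, rfl, fun ε => by cases ε <;> rfl⟩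

theorem exists_dg {S : GlobPsh.{0}} (a : DP S (T μ X.toAG)) (u : Bool → DP S (Q (μ + 1) X))
    (h : ∀ ε, (u ε).map (Q.qw (μ + 1) X) = a.map (T.ω μ X ε)) :
    ∃ z : DP S (P μ X), z.map (t μ X) = a ∧ ∀ ε, z.map (c μ X ε) = u ε :=
  ⟨DP.pb (DP.pb (u false) a (h false)) (DP.pb (u true) a (h true)) rfl, rfl,
    fun ε => by cases ε <;> rfl⟩

theorem exists_src {z : (P μ X).A} {a : (T μ X.toAG).A} {u : Bool → (Q (μ + 1) X).A} (b : Bool)
    {e : (P μ X).A} (h1 : t μ X e = a) (h2 : ∀ ε, c μ X ε e = u ε)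
    (ha : (T μ X.toAG).d b a = t μ X z) (hu : ∀ ε, (Q (μ + 1) X).d b (u ε) = c μ X ε z) :
    (P μ X).d b e = z :=
  ext (by rw [← Map.d_f, h1, ha]) fun ε => by rw [← Map.d_f, h2, hu]

theorem exists_arr {z z' : (P μ X).A} {a : (T μ X.toAG).A} {u : Bool → (Q (μ + 1) X).A}
    (ha : (T μ X.toAG).Arr a (t μ X z) (t μ X z'))
    (hu : ∀ ε, (Q (μ + 1) X).Arr (u ε) (c μ X ε z) (c μ X ε z'))
    (h : ∀ ε, Q.qw (μ + 1) X (u ε) = T.ω μ X ε a) :
    ∃ e, (P μ X).Arr e z z' ∧ t μ X e = a ∧ ∀ ε, c μ X ε e = u ε := by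
  obtain ⟨e, h1, h2⟩ := exists_mk a u h
  exact ⟨e, ⟨by rw [← (t μ X).dim_f, h1, ha.1, Map.dim_f],
    exists_src false h1 h2 ha.2.1 fun ε => (hu ε).2.1,
    exists_src true h1 h2 ha.2.2 fun ε => (hu ε).2.2⟩, h1, h2⟩

theorem exists_c {z z' : (P μ X).A} (hp : (P μ X).Par z z') {a : (T μ X.toAG).A}
    (ha : (T μ X.toAG).Arr a (t μ X z) (t μ X z')) (ε : Bool) :
    ∃ u, (Q (μ + 1) X).Arr u (c μ X ε z) (c μ X ε z') ∧ Q.qw (μ + 1) X u = T.ω μ X ε a :=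
  Q.tf_qw _ _ _ (hp.map (c μ X ε)) (Nat.lt_succ_self _) _ (by
    rw [cond, cond]; exact ha.map (T.ω μ X ε))

theorem tf_t (N : ℕ) : TF N (t μ X) := by
  intro z z' hp _ a ha
  choose u hu hu' using exists_c hp ha
  obtain ⟨e, h1, h2, -⟩ := exists_arr ha hu hu'
  exact ⟨e, h1, h2⟩

theorem p_low {z : (P μ X).A} (ε : Bool) (h : (P μ X).dim z ≤ μ + 1) :
    p μ X ε z = T.ω μ X ε (t μ X z) := by
  rw [p_eq, Q.qy_low (by rw [Map.dim_f]; exact h), cond]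

theorem p_diag {z : (P μ X).A} (h : (P μ X).dim z ≤ μ) : p μ X false z = p μ X true z := by
  rw [p_low _ (by omega), p_low _ (by omega), T.ω_low (by rw [Map.dim_f]; exact h)]

theorem tf_p (hT : X.Theta) (N : ℕ) (ε : Bool) : TF N (p μ X ε) := by
  intro z z' hp _ y hy
  suffices h : ∃ a u, (T μ X.toAG).Arr a (t μ X z) (t μ X z') ∧
      (Q (μ + 1) X).Arr u (c μ X ε z) (c μ X ε z') ∧ Q.qw (μ + 1) X u = T.ω μ X ε a ∧
      Q.qy (μ + 1) X u = y by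
    obtain ⟨a, u, h1, h2, h3, h4⟩ := h
    choose v hv hv' using exists_c hp h1
    obtain ⟨e, k1, -, k3⟩ := exists_arr (u := fun ε' => if ε' = ε then u else v ε') h1
      (fun ε' => by
        split_ifs with h
        · rw [h]; exact h2
        · exact hv ε')
      (fun ε' => by
        split_ifs with h
        · rw [h]; exact h3
        · exact hv' ε')
    exact ⟨e, k1, by rw [p_eq, k3, if_pos rfl, h4]⟩
  have hpt := hp.map (t μ X)
  have hpc := hp.map (c μ X ε)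
  by_cases hd : (P μ X).dim z < μ + 1
  · rw [p_low _ hd.le, p_low _ (hp.1 ▸ hd.le)] at hy
    obtain ⟨a, h1, h2⟩ := T.tf_ω ε _ _ hpt (by rw [Map.dim_f]; exact hd) y hy
    obtain ⟨u, h3, h4⟩ := exists_c hp h1 ε
    exact ⟨a, u, h1, h3, h4, by
      rw [Q.qy_low (by rw [h3.1, Map.dim_f]; omega), h4, h2]⟩
  · have vs := Q.vs_Lb hpc (by rw [Map.dim_f]; omega)
    obtain ⟨w, h1, h2⟩ := vs.ess hT hy
    obtain ⟨a, h3, h4⟩ := T.ess_ω hT ε hpt (by rw [Map.dim_f]; omega) (y := w)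
      (by rw [← cond, ← cond]; exact h1)
    have h5 : X.Arr (T.ω μ X ε a) (Q.qw (μ + 1) X (c μ X ε z)) (Q.qw (μ + 1) X (c μ X ε z')) := by
      rw [cond, cond]; exact h3.map (T.ω μ X ε)
    obtain ⟨k, hk⟩ := step_trans (vs.hm.step h5.isIn h4) h2
    obtain ⟨u, k1, k2, k3, -⟩ := Q.exists_arr hpc (by rw [Map.dim_f]; omega) h5 hy hk
    exact ⟨a, u, h3, k1, k2, k3⟩

theorem fib_p (hT : X.Theta) (N : ℕ) : Fib (μ + 1) N (p μ X) := by
  intro z hz _ y hy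
  have hy' : ∀ ε, X.Arr (y ε) (p μ X ε z) (X.d true (y ε)) := fun ε =>
    ⟨by rw [(hy ε).1, Map.dim_f], (hy ε).2, rfl⟩
  suffices h : ∃ a a', (T μ X.toAG).Arr a (t μ X z) a' ∧ ∀ ε, ∃ v,
      (Q (μ + 1) X).dim v = (Q (μ + 1) X).dim (c μ X ε z) + 1 ∧
      (Q (μ + 1) X).d false v = c μ X ε z ∧ Q.qw (μ + 1) X v = T.ω μ X ε a ∧
      Q.qy (μ + 1) X v = y ε by
    obtain ⟨a, a', h1, h2⟩ := h
    choose v _ k2 k3 k4 using h2
    obtain ⟨e, h3, h4⟩ := exists_mk a v k3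
    exact ⟨e, by rw [← (t μ X).dim_f, h3, h1.1, Map.dim_f], exists_src false h3 h4 h1.2.1 k2,
      fun ε => by rw [p_eq, h4, k4]⟩
  by_cases hd : (P μ X).dim z = μ + 1
  · obtain ⟨a, a', h1, h2⟩ := T.lift_mid hT (c := t μ X z) (by rw [Map.dim_f, hd]) (y := y)
      (z := fun ε => X.d true (y ε)) fun ε => by rw [← p_low _ hd.le]; exact hy' ε
    exact ⟨a, a', h1, fun ε => Q.lift_src0 (by rw [Map.dim_f, hd])
      (by rw [cond]; exact h1.map (T.ω μ X ε)) (h2 ε).2⟩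
  · obtain ⟨a, h1⟩ := T.step_hi (c := t μ X z) (by rw [Map.dim_f]; omega)
    exact ⟨a, _, h1, fun ε => Q.lift_src hT (by rw [Map.dim_f]; omega)
      (by rw [cond]; exact h1.map (T.ω μ X ε)) (hy' ε)⟩

theorem dg_ext {S : GlobPsh.{0}} {z z' : DP S (P μ X)} (h1 : z.map (t μ X) = z'.map (t μ X))
    (h2 : ∀ ε, z.map (c μ X ε) = z'.map (c μ X ε)) : z = z' :=
  DP.ext' fun n x => ext (congrFun (congrFun (congrArg DP.app h1) n) x)
    fun ε => congrFun (congrFun (congrArg DP.app (h2 ε)) n) x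

theorem joint_dg {N : ℕ} {Z K : WG.{u}} {f : Bool → Hom Z K}
    (hf : Fib (μ + 2) N fun ε => (f ε).toMap) {S : Shape} (hN : S.dim + 1 ≤ N)
    (a : Dg S (T μ Z.toAG)) (s : Bool → Dg S (P μ K))
    (h : ∀ ε, (s ε).map (t μ K) = a.map (T.map μ (f ε).toMap)) :
    ∃ z : Dg S (P μ Z), ∀ ε, z.map ((PN μ).map (f ε)) = s ε := by
  have := fun ε => Q.joint_dg hf hN (a.map (T.ω μ Z ε)) (fun ε' => (s ε').map (c μ K ε))
    fun ε' => DP.ext' fun n x => (cond ε _).trans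
      ((congrArg (T.ω μ K ε) (congrFun (congrFun (congrArg DP.app (h ε')) n) x)).trans
        (T.ω_map ε (f ε') _))
  choose v h1 h2 using this
  obtain ⟨z, h3, h4⟩ := exists_dg a v h1
  refine ⟨z, fun ε' => dg_ext ?_ fun ε => ?_⟩
  · rw [h, ← h3]; exact DP.ext' fun n x => (tP μ).nat (f ε') _
  · rw [← h2, ← h4]; exact DP.ext' fun n x => (uP μ ε).nat (f ε') _

end P

end Crest.Agent.R248
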