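import Crest.Agent.R248.NG

/-!
# R248: standard cylinders, trivial in dimensions `≤ μ`
-/

set_option autoImplicit false
set_option backward.isDefEq.respectTransparency false

namespace Crest.Agent.R248

universe u

open AG WG

/-- Cells of the globular set of cylinders. -/
inductive QC (μ : ℕ) (X : WG.{u}) : Type u
  | lo (w : X.A) (hw : X.dim w ≤ μ)
  | hi (y w : X.A) (L : List (X.A × X.A)) (h : X.A) (hw : μ < X.dim w)
      (vs : X.VS μ L (X.d false y) (X.d true y) (X.d false w) (X.d true w))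
      (ar : X.Arr h (X.W L w) y)

namespace QC

variable {μ : ℕ} {X Y : WG.{u}}

/-- The free end. -/
def y : QC μ X → X.A
  | lo w _ => w
  | hi y _ _ _ _ _ _ => y

/-- The fixed end. -/
def w : QC μ X → X.A
  | lo w _ => w
  | hi _ w _ _ _ _ _ => w

/-- The lower components. -/
def L : QC μ X → List (X.A × X.A)
  | lo _ _ => []
  | hi _ _ L _ _ _ _ => L

/-- The top component. -/
def h : QC μ X → X.A
  | lo w _ => w
  | hi _ _ _ h _ _ _ => h

theorem vs {z : QC μ X} (hz : μ < X.dim z.w) :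
    X.VS μ z.L (X.d false z.y) (X.d true z.y) (X.d false z.w) (X.d true z.w) := by
  cases z with
  | lo w hw => exact absurd hz (not_lt.2 hw)
  | hi _ _ _ _ _ vs _ => exact vs

theorem ar {z : QC μ X} (hz : μ < X.dim z.w) : X.Arr z.h (X.W z.L z.w) z.y := by
  cases z with
  | lo w hw => exact absurd hz (not_lt.2 hw)
  | hi _ _ _ _ _ _ ar => exact ar

theorem low {z : QC μ X} (hz : X.dim z.w ≤ μ) : z.y = z.w ∧ z.L = [] ∧ z.h = z.w := by
  cases z with
  | lo w hw => exact ⟨rfl, rfl, rfl⟩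
  | hi _ _ _ _ hw _ _ => exact absurd hw (not_lt.2 hz)

theorem ext {z z' : QC μ X} (h1 : z.y = z'.y) (h2 : z.w = z'.w) (h3 : z.L = z'.L)
    (h4 : z.h = z'.h) : z = z' := by
  cases z with
  | lo w hw =>
    cases z' with
    | lo w' hw' => obtain rfl : w = w' := h2; rfl
    | hi _ w' _ _ hw' _ _ => obtain rfl : w = w' := h2; omega
  | hi y w L h hw _ _ =>
    cases z' with
    | lo w' hw' => obtain rfl : w = w' := h2; omega
    | hi y' w' L' h' _ _ _ =>
      obtain rfl : y = y' := h1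
      obtain rfl : w = w' := h2
      obtain rfl : L = L' := h3
      obtain rfl : h = h' := h4
      rfl

theorem ext_low {z z' : QC μ X} (hz : X.dim z.w ≤ μ) (h2 : z.w = z'.w) : z = z' := by
  obtain ⟨a1, a2, a3⟩ := low hz
  obtain ⟨b1, b2, b3⟩ := low (z := z') (h2 ▸ hz)
  exact ext (by rw [a1, b1, h2]) h2 (by rw [a2, b2]) (by rw [a3, b3, h2])

theorem dim_w {z : QC μ X} (hz : μ < X.dim z.w) : X.dim z.w = μ + 1 + z.L.length := by
  have := (vs hz).dim_w
  rw [X.dim_d] at this; omega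

theorem arr_W {z : QC μ X} (hz : μ < X.dim z.w) :
    X.Arr (X.W z.L z.w) (X.d false z.y) (X.d true z.y) :=
  (vs hz).hm.arr (arr_self (by omega))

theorem dim_W {z : QC μ X} (hz : μ < X.dim z.w) : X.dim (X.W z.L z.w) = X.dim z.w :=
  ((vs hz).hm.2 _ (arr_self (by omega)).isIn).2.1

theorem dim_y (z : QC μ X) : X.dim z.y = X.dim z.w := by
  by_cases hz : μ < X.dim z.w
  · rw [← (ar hz).par.1, dim_W hz]
  · rw [(low (not_lt.1 hz)).1]

theorem vs_side {L : List (X.A × X.A)} {a a' y w : X.A}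
    (h : X.VS μ ((a, a') :: L) (X.d false y) (X.d true y) (X.d false w) (X.d true w)) (b : Bool) :
    X.VS μ L (X.d false (X.d b y)) (X.d true (X.d b y)) (X.d false (X.d b w))
      (X.d true (X.d b w)) := by
  rw [X.dd false b false, X.dd true b false, X.dd false b false w, X.dd true b false w]
  exact h.2.2.2.1

/-- The faces. -/
def d (b : Bool) : QC μ X → QC μ X
  | lo w hw => lo (X.d b w) (by rw [X.dim_d]; omega)
  | hi _ w [] _ _ vs _ => lo (X.d b w) (by have := vs.1; rw [X.dim_d] at this ⊢; omega)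
  | hi y w ((a, a') :: L) _ _ vs _ =>
    hi (X.d b y) (X.d b w) L (if b then a' else a)
      (by have := vs.dim_w; rw [X.dim_d, List.length_cons] at this; rw [X.dim_d]; omega)
      (vs_side vs b) (by
        cases b
        · exact vs.2.2.2.2.1
        · exact vs.2.2.2.2.2)

theorem w_d (b : Bool) (z : QC μ X) : (d b z).w = X.d b z.w := by
  rcases z with _ | ⟨y, w, _ | ⟨⟨a, a'⟩, L⟩, h, hw, vs, ar⟩ <;> rfl

theorem y_d (b : Bool) (z : QC μ X) : (d b z).y = X.d b z.y := by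
  rcases z with _ | ⟨y, w, _ | ⟨⟨a, a'⟩, L⟩, h, hw, vs, ar⟩
  · rfl
  · cases b
    · exact vs.2.1.symm
    · exact vs.2.2.1.symm
  · rfl

theorem L_d (b : Bool) (z : QC μ X) : (d b z).L = z.L.tail := by
  rcases z with _ | ⟨y, w, _ | ⟨⟨a, a'⟩, L⟩, h, hw, vs, ar⟩ <;> rfl

theorem L_eq {z : QC μ X} (hz : μ + 1 < X.dim z.w) :
    z.L = ((d false z).h, (d true z).h) :: (d false z).L := by
  rcases z with ⟨w, hw⟩ | ⟨y, w, _ | ⟨⟨a, a'⟩, L⟩, h, hw, vs, ar⟩
  · exact absurd hz (by change ¬ μ + 1 < X.dim w; omega)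
  · have := vs.1
    rw [X.dim_d] at this
    exact absurd hz (by change ¬ μ + 1 < X.dim w; omega)
  · rfl

theorem L_nil {z : QC μ X} (hz : X.dim z.w ≤ μ + 1) : z.L = [] := by
  by_cases h : μ < X.dim z.w
  · have := dim_w h
    exact List.eq_nil_of_length_eq_zero (by omega)
  · exact (low (not_lt.1 h)).2.1

theorem dd (b c c' : Bool) (z : QC μ X) : d b (d c z) = d b (d c' z) := by
  rcases z with ⟨w, hw⟩ | ⟨y, w, _ | ⟨⟨a, a'⟩, _ | ⟨⟨e, e'⟩, L⟩⟩, h, hw, vs, ar⟩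
  · exact ext (X.dd ..) (X.dd ..) rfl (X.dd ..)
  · exact ext (X.dd ..) (X.dd ..) rfl (X.dd ..)
  · exact ext (X.dd ..) (X.dd ..) rfl (X.dd ..)
  · exact ext (X.dd ..) (X.dd ..) rfl rfl

/-- Functoriality. -/
def map (f : Hom X Y) : QC μ X → QC μ Y
  | lo w hw => lo (f w) (by rw [f.dim_f]; exact hw)
  | hi y w L h hw vs ar => hi (f y) (f w) (mapL f L) (f h) (by rw [f.dim_f]; exact hw)
      (by rw [f.d_f, f.d_f, f.d_f, f.d_f]; exact vs.map f)
      (by rw [← vs.map_W f (arr_self (by omega)).isIn]; exact ar.map f.toMap)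

theorem y_map (f : Hom X Y) (z : QC μ X) : (map f z).y = f z.y := by cases z <;> rfl
theorem w_map (f : Hom X Y) (z : QC μ X) : (map f z).w = f z.w := by cases z <;> rfl
theorem L_map (f : Hom X Y) (z : QC μ X) : (map f z).L = mapL f z.L := by cases z <;> rfl
theorem h_map (f : Hom X Y) (z : QC μ X) : (map f z).h = f z.h := by cases z <;> rfl

theorem d_map (f : Hom X Y) (b : Bool) (z : QC μ X) : d b (map f z) = map f (d b z) := by
  rcases z with ⟨w, hw⟩ | ⟨y, w, _ | ⟨⟨a, a'⟩, L⟩, h, hw, vs, ar⟩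
  · exact ext (f.d_f ..) (f.d_f ..) rfl (f.d_f ..)
  · exact ext (f.d_f ..) (f.d_f ..) rfl (f.d_f ..)
  · exact ext (f.d_f ..) (f.d_f ..) rfl (by cases b <;> rfl)

end QC

/-- The globular set of cylinders. -/
def Q (μ : ℕ) (X : WG.{u}) : AG.{u} where
  A := QC μ X
  dim z := X.dim z.w
  d := QC.d
  pt := .lo X.pt (by rw [X.dim_pt]; omega)
  dim_pt := X.dim_pt
  eq_pt z h := QC.ext_low (by omega) (X.eq_pt _ h)
  dim_d b z := by rw [QC.w_d, X.dim_d]
  dd := QC.dd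

namespace Q

variable {μ : ℕ} {X Y : WG.{u}}

variable (μ X) in
/-- The fixed end. -/
def qw : Map (Q μ X) X.toAG := ⟨QC.w, fun _ => rfl, fun b z => (QC.w_d b z).symm⟩

variable (μ X) in
/-- The free end. -/
def qy : Map (Q μ X) X.toAG := ⟨QC.y, QC.dim_y, fun b z => (QC.y_d b z).symm⟩

variable (μ) in
/-- Functoriality. -/
def map (f : Hom X Y) : Map (Q μ X) (Q μ Y) :=
  ⟨QC.map f, fun z => by change Y.dim (QC.w _) = X.dim _; rw [QC.w_map, f.dim_f], QC.d_map f⟩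

theorem qw_map (f : Hom X Y) (z : (Q μ X).A) : qw μ Y (map μ f z) = f (qw μ X z) := QC.w_map f z
theorem qy_map (f : Hom X Y) (z : (Q μ X).A) : qy μ Y (map μ f z) = f (qy μ X z) := QC.y_map f z

theorem bijLe_qw : BijLe μ (qw μ X) :=
  ⟨fun _ _ h e => QC.ext_low h e, fun w h => ⟨.lo w h, rfl⟩⟩

theorem qy_low {z : (Q μ X).A} (h : (Q μ X).dim z ≤ μ) : qy μ X z = qw μ X z := (QC.low h).1

/-- The list of lower components of a cell with boundary `(c, c')`. -/
def Lb (c c' : (Q μ X).A) : List (X.A × X.A) :=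
  if (Q μ X).dim c ≤ μ then [] else (QC.h c, QC.h c') :: QC.L c

theorem Lb_map (f : Hom X Y) (c c' : (Q μ X).A) :
    Lb (map μ f c) (map μ f c') = mapL f (Lb c c') := by
  rw [Lb, Lb, Map.dim_f]
  split_ifs
  · rfl
  · exact congrArg₂ List.cons (Prod.ext (QC.h_map f c) (QC.h_map f c')) (QC.L_map f c)

theorem L_of_par {c c' : (Q μ X).A} (hp : (Q μ X).Par c c') : QC.L c = QC.L c' := by
  by_cases h : (Q μ X).dim c ≤ μ + 1
  · rw [QC.L_nil h, QC.L_nil (z := c') (hp.1 ▸ h)]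
  · have h1 : QC.d false c = QC.d false c' := hp.2 false
    have h2 : QC.d true c = QC.d true c' := hp.2 true
    rw [QC.L_eq (not_le.1 h), QC.L_eq (z := c') (hp.1 ▸ not_le.1 h), h1, h2]

theorem L_of_arr {e c c' : (Q μ X).A} (h : (Q μ X).Arr e c c') : QC.L e = Lb c c' := by
  have h1 : QC.d false e = c := h.2.1
  have h2 : QC.d true e = c' := h.2.2
  have h3 : X.dim (QC.w e) = (Q μ X).dim c + 1 := h.1
  rw [Lb]
  split_ifs with hc
  · exact QC.L_nil (by omega)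
  · rw [QC.L_eq (z := e) (by omega), h1, h2]

theorem vs_Lb {c c' : (Q μ X).A} (hp : (Q μ X).Par c c') (hc : μ ≤ (Q μ X).dim c) :
    X.VS μ (Lb c c') (qy μ X c) (qy μ X c') (qw μ X c) (qw μ X c') := by
  rw [Lb]
  split_ifs with h
  · exact ⟨le_antisymm h hc, qy_low h, qy_low (hp.1 ▸ h), hp.map (qw μ X)⟩
  · have h1 : μ < X.dim (QC.w c) := not_le.1 h
    refine ⟨by change 1 ≤ X.dim (QC.w c); omega, hp.map (qw μ X), hp.map (qy μ X), QC.vs h1,
      QC.ar h1, ?_⟩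
    rw [L_of_par hp]
    exact QC.ar (z := c') (hp.1 ▸ not_le.1 h)

theorem exists_arr {c c' : (Q μ X).A} (hp : (Q μ X).Par c c') (hc : μ ≤ (Q μ X).dim c)
    {w y h : X.A} (hw : X.Arr w (qw μ X c) (qw μ X c')) (hy : X.Arr y (qy μ X c) (qy μ X c'))
    (hh : X.Arr h (X.W (Lb c c') w) y) :
    ∃ e, (Q μ X).Arr e c c' ∧ qw μ X e = w ∧ qy μ X e = y ∧ QC.h e = h := by
  have h1 : X.dim w = (Q μ X).dim c + 1 := hw.1
  have vs := vs_Lb hp hc
  rw [← hw.2.1, ← hw.2.2, ← hy.2.1, ← hy.2.2] at vs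
  let e : QC μ X := .hi y w (Lb c c') h (by omega) vs hh
  have key : ∀ b, QC.d b e = if b then c' else c := by
    intro b
    have a1 : (QC.d b e).w = QC.w (if b then c' else c) := by
      rw [QC.w_d]; cases b
      · exact hw.2.1
      · exact hw.2.2
    by_cases hd : (Q μ X).dim c ≤ μ
    · exact QC.ext_low (by rw [QC.w_d, X.dim_d]; change X.dim w - 1 ≤ μ; omega) a1
    · have a2 : e.L = (QC.h c, QC.h c') :: QC.L c := if_neg hd
      have a3 := QC.L_eq (z := e) (by change μ + 1 < X.dim w; omega)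
      rw [a2] at a3
      refine QC.ext ?_ a1 ?_ ?_
      · rw [QC.y_d]; cases b
        · exact hy.2.1
        · exact hy.2.2
      · rw [QC.L_d, a2]; cases b
        · rfl
        · exact L_of_par hp
      · cases b
        · exact (congrArg Prod.fst (List.cons.inj a3).1).symm
        · exact (congrArg Prod.snd (List.cons.inj a3).1).symm
  exact ⟨e, ⟨h1, key false, key true⟩, rfl, rfl, rfl⟩

theorem arr_h {e c c' : (Q μ X).A} (h : (Q μ X).Arr e c c') (hc : μ ≤ (Q μ X).dim c) :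
    X.Arr (QC.h e) (X.W (Lb c c') (qw μ X e)) (qy μ X e) := by
  have h3 : X.dim (QC.w e) = (Q μ X).dim c + 1 := h.1
  rw [← L_of_arr h]
  exact QC.ar (by omega)

theorem ext_arr {e e' c c' : (Q μ X).A} (h : (Q μ X).Arr e c c') (h' : (Q μ X).Arr e' c c')
    (h1 : qw μ X e = qw μ X e') (h2 : qy μ X e = qy μ X e') (h3 : QC.h e = QC.h e') : e = e' :=
  QC.ext h2 h1 (by rw [L_of_arr h, L_of_arr h']) h3

theorem tf_qw (N : ℕ) : TF N (qw μ X) := by
  intro c c' hp _ w hw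
  by_cases hc : (Q μ X).dim c < μ
  · exact bijLe_qw.tf c c' hp hc w hw
  · have hy := (vs_Lb hp (not_lt.1 hc)).hm.arr hw
    obtain ⟨e, h1, h2, -⟩ := exists_arr hp (not_lt.1 hc) hw hy
      (X.unit_arr _ (by rw [hy.1]; omega))
    exact ⟨e, h1, h2⟩

/-- Cylinders with prescribed source and ends. -/
theorem lift_src (hT : X.Theta) {u : (Q μ X).A} (hu : μ < (Q μ X).dim u) {w w' y y' : X.A}
    (hw : X.Arr w (qw μ X u) w') (hy : X.Arr y (qy μ X u) y') :
    ∃ v, (Q μ X).dim v = (Q μ X).dim u + 1 ∧ (Q μ X).d false v = u ∧ qw μ X v = w ∧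
      qy μ X v = y := by
  have hu' : μ < X.dim (QC.w u) := hu
  have vs := QC.vs hu'
  have ar := QC.ar hu'
  have dW := QC.dim_W hu'
  have dy := QC.dim_y u
  have pw : X.Par (QC.w u) w' := hw.par
  have py : X.Par (QC.y u) y' := hy.par
  have h1 := (vs.hm.res (arr_self (by omega)).isIn pw).arr hw
  obtain ⟨q, hq, k, hk⟩ := M_last hT (inv_of_arr ar (by omega)) h1 (by omega) hy
  let u' : QC μ X := .hi y' w' (QC.L u) q (by rw [← pw.1]; exact hu')
    (by rw [← py.2, ← py.2, ← pw.2, ← pw.2]; exact vs) hq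
  have hp : (Q μ X).Par u u' := by
    refine ⟨pw.1, fun b => ?_⟩
    change QC.d b u = QC.d b u'
    have a1 : (QC.d b u).w = (QC.d b u').w := by rw [QC.w_d, QC.w_d]; exact pw.2 b
    by_cases hd : X.dim (QC.w u) ≤ μ + 1
    · exact QC.ext_low (by rw [QC.w_d, X.dim_d]; omega) a1
    · have a2 := QC.L_eq (not_le.1 hd)
      have a3 := QC.L_eq (z := u') (by change μ + 1 < X.dim w'; rw [← pw.1]; omega)
      have a4 := (List.cons.inj (a2.symm.trans a3)).1
      refine QC.ext (by rw [QC.y_d, QC.y_d]; exact py.2 b) a1 (by rw [QC.L_d, QC.L_d]; rfl) ?_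
      cases b
      · exact congrArg Prod.fst a4
      · exact congrArg Prod.snd a4
  obtain ⟨e, h2, h3, h4, -⟩ := exists_arr hp hu.le (w := w) (y := y) (h := k) hw hy (by
    rw [Lb, if_neg (not_le.2 hu)]; exact hk)
  exact ⟨e, h2.1, h2.2.1, h3, h4⟩

/-- Joint lifting of cylinders along a pair of maps. -/
theorem joint {Z K : WG.{u}} {N : ℕ} {f : Bool → Hom Z K}
    (hf : Fib (μ + 1) N fun ε => (f ε).toMap) {c c' : (Q μ Z).A} (hp : (Q μ Z).Par c c')
    (hc : (Q μ Z).dim c < N) {w : Z.A} (hw : Z.Arr w (qw μ Z c) (qw μ Z c'))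
    (u : Bool → (Q μ K).A) (hu : ∀ ε, (Q μ K).Arr (u ε) (map μ (f ε) c) (map μ (f ε) c'))
    (huw : ∀ ε, qw μ K (u ε) = f ε w) :
    ∃ e, (Q μ Z).Arr e c c' ∧ qw μ Z e = w ∧ ∀ ε, map μ (f ε) e = u ε := by
  by_cases hd : (Q μ Z).dim c < μ
  · obtain ⟨e, h1, h2⟩ := bijLe_qw.tf c c' hp hd w hw
    refine ⟨e, h1, h2, fun ε => bijLe_qw.1 _ _ ?_ (by rw [qw_map, h2, huw])⟩
    rw [Map.dim_f, h1.1]; omega
  · have hd' := not_lt.1 hd
    have vs := vs_Lb hp hd'
    have h1 := vs.hm.arr hw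
    have h2 : Z.dim (Z.W (Lb c c') w) = (Q μ Z).dim c + 1 := by rw [h1.1, Map.dim_f]
    have h3 : ∀ ε, K.Arr (QC.h (u ε)) (f ε (Z.W (Lb c c') w)) (qy μ K (u ε)) := fun ε => by
      have := arr_h (hu ε) (by rw [Map.dim_f]; exact hd')
      rwa [Lb_map, huw, ← vs.map_W (f ε) hw.isIn] at this
    obtain ⟨k, k1, k2, k3⟩ := hf (Z.W (Lb c c') w) (by omega) (by omega) (fun ε => QC.h (u ε))
      fun ε => ⟨by rw [(h3 ε).1, (f ε).dim_f], (h3 ε).2.1⟩
    have hk : Z.Arr k (Z.W (Lb c c') w) (Z.d true k) := ⟨k1, k2, rfl⟩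
    obtain ⟨e, e1, e2, e3, e4⟩ := exists_arr hp hd' hw (h1.of_par hk.par) hk
    refine ⟨e, e1, e2, fun ε => ext_arr (e1.map (map μ (f ε))) (hu ε) ?_ ?_ ?_⟩
    · rw [qw_map, e2, huw]
    · rw [qy_map, e3, ← (h3 ε).2.2, ← k3 ε]; exact ((f ε).d_f _ _).symm
    · exact (QC.h_map _ _).trans (by rw [e4]; exact k3 ε)

end Q

end Crest.Agent.R248
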