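import Crest.Agent.R248.Q
import Crest.Agent.R248.T

/-!
# R248: `Q` and `T` are natural constructions
-/

set_option autoImplicit false
set_option backward.isDefEq.respectTransparency false

namespace Crest.Agent.R248

universe u

open AG WG

namespace WG

variable {X Y : WG.{u}}

/-- Components of a list of pairs. -/
def lg : List (X.A × X.A) → ℕ → Bool → X.A
  | [], _, _ => X.pt
  | (a, a') :: _, 0, b => if b then a' else a
  | _ :: L, i + 1, b => lg L i b

theorem lg_mapL (f : Hom X Y) : ∀ (L : List (X.A × X.A)) (i : ℕ) (b : Bool),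
    lg (mapL f L) i b = f (lg L i b)
  | [], _, _ => f.toMap.pt.symm
  | (_, _) :: _, 0, b => by cases b <;> rfl
  | (_, _) :: L, i + 1, b => lg_mapL f L i b

theorem lg_ext : ∀ {L L' : List (X.A × X.A)}, L.length = L'.length →
    (∀ i b, lg L i b = lg L' i b) → L = L'
  | [], [], _, _ => rfl
  | [], _ :: _, h, _ => absurd h (by simp)
  | _ :: _, [], h, _ => absurd h (by simp)
  | (_, _) :: _, (_, _) :: _, h, e =>
    congrArg₂ List.cons (Prod.ext (e 0 false) (e 0 true))
      (lg_ext (Nat.succ_injective h) fun i b => e (i + 1) b)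

/-- A list with prescribed components. -/
def mkL : ℕ → (ℕ → Bool → X.A) → List (X.A × X.A)
  | 0, _ => []
  | n + 1, x => (x 0 false, x 0 true) :: mkL n fun i => x (i + 1)

theorem mapL_mkL (f : X.A → Y.A) : ∀ (L : List (Y.A × Y.A)) (x : ℕ → Bool → X.A),
    (∀ i b, f (x i b) = lg L i b) → mapL f (mkL L.length x) = L
  | [], _, _ => rfl
  | (_, _) :: L, x, h =>
    congrArg₂ List.cons (Prod.ext (h 0 false) (h 0 true))
      (mapL_mkL f L (fun i => x (i + 1)) fun i b => h (i + 1) b)

theorem VS.dim_lg {μ : ℕ} : ∀ {L : List (X.A × X.A)} {y y' w w' : X.A}, X.VS μ L y y' w w' →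
    ∀ i b, X.dim (lg L i b) = if i < L.length then X.dim w + 1 - i else 0
  | [], _, _, _, _, _, _, _ => X.dim_pt
  | (a, a') :: L, y, y', w, w', h, 0, b => by
    have h1 := h.dim_y
    rw [if_pos (by simp)]
    cases b
    · exact h.2.2.2.2.1.dim_tgt.trans (by omega)
    · exact h.2.2.2.2.2.dim_tgt.trans (by rw [← h.par_y.1]; omega)
  | (a, a') :: L, y, y', w, w', h, i + 1, b => by
    have h1 := h.1
    refine (VS.dim_lg h.2.2.2.1 i b).trans ?_
    rw [X.dim_d, List.length_cons]
    split_ifs <;> omega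

theorem VS.reflect {μ : ℕ} {κ : Type u} [Nonempty κ] {Y : κ → WG.{u}} {f : ∀ k, Hom X (Y k)}
    (hf : JI fun k => (f k).toMap) : ∀ {L : List (X.A × X.A)} {y y' w w' : X.A},
    (∀ k, (Y k).VS μ (mapL (f k) L) (f k y) (f k y') (f k w) (f k w')) → X.VS μ L y y' w w'
  | [], _, _, _, _, h => by
    obtain ⟨k⟩ := ‹Nonempty κ›
    exact ⟨((f k).dim_f _).symm.trans (h k).1, hf _ _ fun k => (h k).2.1,
      hf _ _ fun k => (h k).2.2.1, hf.par fun k => (h k).2.2.2⟩
  | (a, a') :: L, y, y', w, w', h => by
    obtain ⟨k⟩ := ‹Nonempty κ›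
    have h1 : 1 ≤ X.dim w := (h k).1.trans_eq ((f k).dim_f _)
    have h2 : X.Par w w' := hf.par fun k => (h k).2.1
    have h3 : X.VS μ L (X.d false y) (X.d true y) (X.d false w) (X.d true w) :=
      VS.reflect hf fun k => by
        rw [← (f k).d_f, ← (f k).d_f, ← (f k).d_f, ← (f k).d_f]; exact (h k).2.2.2.1
    refine ⟨h1, h2, hf.par fun k => (h k).2.2.1, h3, hf.arr fun k => ?_, hf.arr fun k => ?_⟩
    · rw [h3.map_W (f k) (arr_self h1).isIn]; exact (h k).2.2.2.2.1
    · rw [h3.map_W (f k) ((arr_self h1).of_par h2).isIn]; exact (h k).2.2.2.2.2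

end WG

namespace NG

/-- The support of a cylinder. -/
def qsp {μ : ℕ} {X : WG.{u}} (z : QC μ X) : Option Bool ⊕ ℕ × Bool → X.A
  | .inl none => z.h
  | .inl (some false) => z.y
  | .inl (some true) => z.w
  | .inr (i, b) => lg z.L i b

/-- The dimensions of the support of a cylinder. -/
def qδ (μ n : ℕ) : Option Bool ⊕ ℕ × Bool → ℕ
  | .inl none => if n ≤ μ then n else n + 1
  | .inl (some _) => n
  | .inr (i, _) => if i + μ + 1 < n then n - i else 0

theorem length_L {μ : ℕ} {X : WG.{u}} (z : QC μ X) : z.L.length = X.dim z.w - μ - 1 := by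
  by_cases h : μ < X.dim z.w
  · have := QC.dim_w h; omega
  · rw [(QC.low (not_lt.1 h)).2.1, List.length_nil]; omega

/-- Cylinders as a natural construction. -/
def QN (μ : ℕ) : NG.{u} where
  obj X := Q μ X
  map f := Q.map μ f
  ι := Option Bool ⊕ ℕ × Bool
  δ := qδ μ
  sp := qsp
  sp_map f z i := by
    rcases i with (_ | _ | _) | ⟨i, b⟩
    · exact QC.h_map f z
    · exact QC.y_map f z
    · exact QC.w_map f z
    · exact (congrArg (fun L => lg L i b) (QC.L_map f z)).trans (lg_mapL f _ i b)
  dim_sp {X} z i := by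
    rcases i with (_ | _ | _) | ⟨i, b⟩
    · change X.dim (QC.h z) = if X.dim (QC.w z) ≤ μ then X.dim (QC.w z) else X.dim (QC.w z) + 1
      split_ifs with h
      · rw [(QC.low h).2.2]
      · rw [(QC.ar (not_le.1 h)).1, QC.dim_W (not_le.1 h)]
    · exact QC.dim_y z
    · rfl
    · change X.dim (lg (QC.L z) i b) =
        if i + μ + 1 < X.dim (QC.w z) then X.dim (QC.w z) - i else 0
      by_cases h : μ < X.dim (QC.w z)
      · rw [(QC.vs h).dim_lg, X.dim_d, length_L]
        split_ifs <;> omega
      · rw [(QC.low (not_lt.1 h)).2.1, if_neg (by omega)]; exact X.dim_pt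
  inj {X} z z' h e := by
    have h' : X.dim (QC.w z) = X.dim (QC.w z') := h
    exact QC.ext (e (.inl (some false))) (e (.inl (some true)))
      (lg_ext (by rw [length_L, length_L, h']) fun i b => e (.inr (i, b))) (e (.inl none))
  refl {X κ _ Y} f hf z n hn x h := by
    obtain ⟨j₀⟩ := ‹Nonempty κ›
    have hn' : ∀ j, (Y j).dim (QC.w (z j)) = n := hn
    have hw : ∀ j, f j (x (.inl (some true))) = QC.w (z j) := fun j => h j _
    have hy : ∀ j, f j (x (.inl (some false))) = QC.y (z j) := fun j => h j _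
    have hh : ∀ j, f j (x (.inl none)) = QC.h (z j) := fun j => h j _
    have dw : X.dim (x (.inl (some true))) = n := by rw [← (f j₀).dim_f, hw, hn']
    by_cases hμ : n ≤ μ
    · exact ⟨.lo (x (.inl (some true))) (by omega), fun j =>
        (QC.ext_low (by rw [hn']; exact hμ) (hw j).symm).symm⟩
    · have hL : ∀ j, mapL (f j) (mkL (n - μ - 1) fun i b => x (.inr (i, b))) = QC.L (z j) :=
        fun j => by
          rw [← hn' j, ← length_L]
          exact mapL_mkL _ _ _ fun i b => h j (.inr (i, b))
      have vs : X.VS μ (mkL (n - μ - 1) fun i b => x (.inr (i, b)))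
          (X.d false (x (.inl (some false)))) (X.d true (x (.inl (some false))))
          (X.d false (x (.inl (some true)))) (X.d true (x (.inl (some true)))) :=
        VS.reflect hf fun j => by
          rw [← (f j).d_f, ← (f j).d_f, ← (f j).d_f, ← (f j).d_f, hL, hw, hy]
          exact QC.vs (by rw [hn']; omega)
      refine ⟨.hi _ _ _ (x (.inl none)) (by omega) vs (hf.arr fun j => ?_),
        fun j => QC.ext (hy j) (hw j) (hL j) (hh j)⟩
      rw [vs.map_W (f j) (arr_self (by omega)).isIn, hL, hw, hy, hh]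
      exact QC.ar (by rw [hn']; omega)

/-- The fixed end. -/
def qwN (μ : ℕ) : Nat (QN.{u} μ) idN := ⟨fun X => Q.qw μ X, Q.qw_map⟩

/-- The free end. -/
def qyN (μ : ℕ) : Nat (QN.{u} μ) idN := ⟨fun X => Q.qy μ X, Q.qy_map⟩

/-- The support of a cell of `T`. -/
def tsp {μ : ℕ} {X : AG.{u}} (z : TC μ X) : Option Bool → X.A
  | none => z.g
  | some false => z.p
  | some true => z.q

/-- The dimensions of the support of a cell of `T`. -/
def tδ (μ n : ℕ) : Option Bool → ℕ
  | none => if n = μ + 1 then μ + 2 else n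
  | some _ => if n ≤ μ then n else μ + 2

/-- The strict part as a natural construction. -/
def TN (μ : ℕ) : NG.{u} where
  obj X := T μ X.toAG
  map f := T.map μ f.toMap
  ι := Option Bool
  δ := tδ μ
  sp := tsp
  sp_map f z i := by
    rcases i with _ | _ | _
    · exact TC.g_map _ z
    · exact TC.p_map _ z
    · exact TC.q_map _ z
  dim_sp {X} z i := by
    rcases z with ⟨g, hg⟩ | ⟨g, hg⟩ | ⟨p, g, q, hc, hp⟩
    · rcases i with _ | _ | _
      · exact (if_neg (by change X.dim g ≠ _; omega)).symm
      · exact (if_pos hg).symm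
      · exact (if_pos hg).symm
    · rcases i with _ | _ | _
      · exact hg.trans (if_pos rfl).symm
      · exact hg.trans (if_neg (Nat.not_succ_le_self μ)).symm
      · exact hg.trans (if_neg (Nat.not_succ_le_self μ)).symm
    · have := hc.dim_le
      rcases i with _ | _ | _
      · exact (if_neg (by change X.dim g ≠ _; omega)).symm
      · exact hp.trans (if_neg (by change ¬ X.dim g ≤ _; omega)).symm
      · exact (hc.2.1.trans hp).trans (if_neg (by change ¬ X.dim g ≤ _; omega)).symm
  inj z z' h e := TC.ext h (e (some false)) (e none) (e (some true))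
  refl {X κ _ Y} f hf z n hn x h := by
    obtain ⟨j₀⟩ := ‹Nonempty κ›
    have hn' : ∀ j, TC.dim (z j) = n := hn
    have hg : ∀ j, f j (x none) = TC.g (z j) := fun j => h j _
    have hp : ∀ j, f j (x (some false)) = TC.p (z j) := fun j => h j _
    have hq : ∀ j, f j (x (some true)) = TC.q (z j) := fun j => h j _
    rcases lt_trichotomy n (μ + 1) with hμ | hμ | hμ
    · have key : ∀ j, ∃ hg, z j = .lo (f j (x none)) hg := fun j => by
        obtain ⟨g, hg', e⟩ := TC.exists_lo (z := z j) (by rw [hn']; omega)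
        obtain rfl : f j (x none) = g := by rw [hg, e]; rfl
        exact ⟨hg', e⟩
      exact ⟨.lo (x none) (((f j₀).dim_f _).symm.trans_le (key j₀).1),
        fun j => (key j).2.symm⟩
    · have key : ∀ j, ∃ hg, z j = .mid (f j (x none)) hg := fun j => by
        obtain ⟨g, hg', e⟩ := TC.exists_mid (z := z j) (by rw [hn']; omega)
        obtain rfl : f j (x none) = g := by rw [hg, e]; rfl
        exact ⟨hg', e⟩
      exact ⟨.mid (x none) (((f j₀).dim_f _).symm.trans (key j₀).1),
        fun j => (key j).2.symm⟩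
    · have key : ∀ j, ∃ hc hp, z j =
          .hi (f j (x (some false))) (f j (x none)) (f j (x (some true))) hc hp := fun j => by
        obtain ⟨p, g, q, hc', hp', e⟩ := TC.exists_hi (z := z j) (by rw [hn']; omega)
        obtain rfl : f j (x none) = g := by rw [hg, e]; rfl
        obtain rfl : f j (x (some false)) = p := by rw [hp, e]; rfl
        obtain rfl : f j (x (some true)) = q := by rw [hq, e]; rfl
        exact ⟨hc', hp', e⟩
      exact ⟨.hi (x (some false)) (x none) (x (some true)) (hf.cmp fun j => (key j).1)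
        (((f j₀).dim_f _).symm.trans (key j₀).2.1), fun j => (key j).2.2.symm⟩

/-- The two ends. -/
def ωN (μ : ℕ) (ε : Bool) : Nat (TN.{u} μ) idN := ⟨fun X => T.ω μ X ε, T.ω_map ε⟩

end NG

end Crest.Agent.R248
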