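import Crest.Prelude.Def_GlobularCoherator

/-!
# R248: sections of trivial fibrations of theories along a tower
-/

set_option autoImplicit false
set_option backward.isDefEq.respectTransparency false

namespace Crest.Agent.R248

universe u

open CategoryTheory CategoryTheory.Limits Crest.GeometryTopology.Coherator GlobTheory

theorem isPushout_of_ex {𝒞 : Type*} [Category 𝒞] {Z X Y P : 𝒞} {f : Z ⟶ X} {g : Z ⟶ Y}
    {inl : X ⟶ P} {inr : Y ⟶ P} (w : f ≫ inl = g ≫ inr)
    (ex : ∀ (W : 𝒞) (h : X ⟶ W) (k : Y ⟶ W), f ≫ h = g ≫ k → ∃ d : P ⟶ W, inl ≫ d = h ∧ inr ≫ d = k)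
    (ext : ∀ (W : 𝒞) (d d' : P ⟶ W), inl ≫ d = inl ≫ d' → inr ≫ d = inr ≫ d' → d = d') :
    IsPushout f g inl inr :=
  ⟨⟨w⟩, ⟨PushoutCocone.IsColimit.mk w (fun s => (ex _ s.inl s.inr s.condition).choose)
    (fun s => (ex _ s.inl s.inr s.condition).choose_spec.1)
    (fun s => (ex _ s.inl s.inr s.condition).choose_spec.2)
    fun s _ h1 h2 => ext _ _ _ (h1.trans (ex _ s.inl s.inr s.condition).choose_spec.1.symm)
      (h2.trans (ex _ s.inl s.inr s.condition).choose_spec.2.symm)⟩⟩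

variable {B C D E : GlobTheory.{u}}

theorem tm_ext {F G : TheoryMap C D} (h : ∀ (S T : Shape) (o : C.arr S T), F.map o = G.map o) :
    F = G :=
  TheoryMap.ext (funext fun S => funext fun T => funext fun o => h S T o)

theorem tm_assoc (F : TheoryMap B C) (G : TheoryMap C D) (H : TheoryMap D E) :
    (F.comp G).comp H = F.comp (G.comp H) := rfl

theorem tm_comp_id (F : TheoryMap C D) : F.comp (TheoryMap.id D) = F := rfl

theorem tm_parallel (G : TheoryMap C D) {S : Shape} :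
    ∀ (n : ℕ) {x y : C.arr (Shape.globe n) S}, C.OpsParallel n x y →
      D.OpsParallel n (G.map x) (G.map y)
  | 0, _, _, _ => trivial
  | n + 1, x, y, h => by
    refine ⟨?_, ?_⟩
    · rw [← G.map_ofShape, ← G.map_seq, ← G.map_seq, h.1]
    · rw [← G.map_ofShape, ← G.map_seq, ← G.map_seq, h.2]

/-- The image of an admissible pair. -/
def admMap (G : TheoryMap C D) (P : C.Admissible) : D.Admissible :=
  ⟨P.n, P.shape, P.dim_le, G.map P.lower, G.map P.upper, tm_parallel G P.n P.parallel⟩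

theorem filler_comp {F : TheoryMap B C} {P : B.Admissible}
    {z : C.arr (Shape.globe (P.n + 1)) P.shape} (h : IsFillerAlong F P z) (G : TheoryMap C D) :
    IsFillerAlong (F.comp G) P (G.map z) := by
  refine ⟨?_, ?_⟩
  · rw [← G.map_ofShape, ← G.map_seq, h.1]; rfl
  · rw [← G.map_ofShape, ← G.map_seq, h.2]; rfl

/-- Fillers lift along `q`. -/
def LiftsFillers (q : TheoryMap E C) : Prop :=
  ∀ (P : E.Admissible) (z : C.arr (Shape.globe (P.n + 1)) P.shape), IsFillerAlong q P z →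
    ∃ w, IsFillerAlong (TheoryMap.id E) P w ∧ q.map w = z

theorem tower_step (τ : C.Tower) {q : TheoryMap E C} (hq : LiftsFillers q) (r : ℕ)
    (G : {G : TheoryMap (τ.stage r) E // G.comp q = τ.toEnd r}) :
    ∃ G' : {G : TheoryMap (τ.stage (r + 1)) E // G.comp q = τ.toEnd (r + 1)},
      (τ.next r).comp G'.1 = G.1 := by
  obtain ⟨G, hG⟩ := G
  have hz : ∀ g, IsFillerAlong (τ.toEnd r) (τ.prob r g) ((τ.toEnd (r + 1)).map (τ.fill r g)) :=
    fun g => τ.toEnd_comm r ▸ filler_comp ((τ.free r).1 g) (τ.toEnd (r + 1))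
  have hw : ∀ g, ∃ w, IsFillerAlong G (τ.prob r g) w ∧
      q.map w = (τ.toEnd (r + 1)).map (τ.fill r g) := fun g =>
    hq (admMap G (τ.prob r g)) _ (by
      have := hz g
      rw [← hG] at this
      exact this)
  choose w hw1 hw2 using hw
  obtain ⟨H, ⟨h1, h2⟩, -⟩ := (τ.free r).2 E G w hw1
  refine ⟨⟨H, ?_⟩, h1⟩
  refine ((τ.free r).2 C (τ.toEnd r) _ hz).unique ⟨?_, fun g => ?_⟩ ⟨τ.toEnd_comm r, fun _ => rfl⟩
  · rw [← tm_assoc, h1, hG]
  · change q.map (H.map _) = _
    rw [h2, hw2]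

theorem tower_section (τ : C.Tower) {q : TheoryMap E C} (hq : LiftsFillers q) :
    ∃ σ : TheoryMap C E, σ.comp q = TheoryMap.id C := by
  obtain ⟨u0⟩ := τ.stage_zero E
  obtain ⟨u1⟩ := τ.stage_zero C
  choose st hst using tower_step τ hq
  let G : ∀ r, {G : TheoryMap (τ.stage r) E // G.comp q = τ.toEnd r} := fun r =>
    Nat.rec (motive := fun r => {G : TheoryMap (τ.stage r) E // G.comp q = τ.toEnd r})
      ⟨u0.default, Subsingleton.elim _ _⟩ st r
  obtain ⟨σ, hσ, -⟩ := τ.colim E (fun r => (G r).1) fun r => hst r (G r)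
  refine ⟨σ, (τ.colim C τ.toEnd τ.toEnd_comm).unique (fun r => ?_) fun r => rfl⟩
  rw [← tm_assoc, hσ, (G r).2]

end Crest.Agent.R248
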