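import Crest.Agent.R248.OpsDef
import Crest.Agent.R248.ThATower

/-!
# R248: the representing models `K S` and the theory of pairs
-/

set_option autoImplicit false
set_option backward.isDefEq.respectTransparency false

namespace Crest.Agent.R248

universe u

open CategoryTheory CategoryTheory.Limits Opposite Crest.GeometryTopology.Coherator AG GlobTheory

variable {C : GlobTheory.{u}}

/-- A choice of representing models. -/
structure RD (𝒪 : Ops C) (𝒢 : NG.{u}) where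
  K : Shape → GlobModel C
  s : ∀ S : Shape, Dg S (𝒪.G 𝒢 (K S))
  rep : ∀ S, 𝒪.IsRep 𝒢 S (K S) (s S)

namespace RD

variable {𝒪 : Ops C} {𝒢 : NG.{u}} (R : RD 𝒪 𝒢) {X Y Z : GlobModel C} {S T V : Shape}

/-- The diagram classified by a map. -/
noncomputable def dg (f : R.K S ⟶ Y) : Dg S (𝒪.G 𝒢 Y) := (R.s S).map (𝒪.Gm 𝒢 f)

theorem dg_inj {f g : R.K S ⟶ Y} (h : R.dg f = R.dg g) : f = g :=
  (R.rep S Y (R.dg g)).unique h rfl

theorem dg_surj (t : Dg S (𝒪.G 𝒢 Y)) : ∃ f : R.K S ⟶ Y, R.dg f = t := (R.rep S Y t).exists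

theorem dg_comp (f : R.K S ⟶ X) (g : X ⟶ Y) : R.dg (f ≫ g) = (R.dg f).map (𝒪.Gm 𝒢 g) :=
  𝒪.map_Gm_comp 𝒢 f g _

theorem dg_id : R.dg (𝟙 (R.K S)) = R.s S := 𝒪.map_Gm_id 𝒢 _

/-- Functoriality of `K`. -/
noncomputable def Km (φ : S ⟶ T) : R.K S ⟶ R.K T := (R.dg_surj ((R.s T).res φ)).choose

theorem dg_Km (φ : S ⟶ T) (f : R.K T ⟶ Y) : R.dg (R.Km φ ≫ f) = (R.dg f).res φ := by
  rw [dg_comp, Km, (R.dg_surj ((R.s T).res φ)).choose_spec]; rfl

theorem Km_id (S : Shape) : R.Km (𝟙 S) = 𝟙 _ := R.dg_inj (by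
  rw [← Category.comp_id (R.Km (𝟙 S)), dg_Km]; rfl)

theorem Km_comp (φ : S ⟶ T) (ψ : T ⟶ V) : R.Km (φ ≫ ψ) = R.Km φ ≫ R.Km ψ := R.dg_inj (by
  rw [← Category.comp_id (R.Km (φ ≫ ψ)), ← Category.comp_id (R.Km ψ), dg_Km, dg_Km, dg_Km]; rfl)

variable {b h : ℕ} {hb : b < S.last} {hh : b < h}

theorem K_ext {k k' : R.K (S.glue b h hb hh) ⟶ Z}
    (h1 : R.Km (S.inLeft b h hb hh) ≫ k = R.Km (S.inLeft b h hb hh) ≫ k')
    (h2 : R.Km (S.inRight b h hb hh) ≫ k = R.Km (S.inRight b h hb hh) ≫ k') : k = k' :=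
  R.dg_inj (DP.po_ext (glue_isPushout S b h hb hh) (by rw [← dg_Km, ← dg_Km, h1])
    (by rw [← dg_Km, ← dg_Km, h2]))

theorem K_desc (f : R.K S ⟶ Z) (g : R.K (Shape.globe h) ⟶ Z)
    (e : R.Km (S.hinge hb) ≫ f = R.Km (Shape.faceMap hh false) ≫ g) :
    ∃ k : R.K (S.glue b h hb hh) ⟶ Z, R.Km (S.inLeft b h hb hh) ≫ k = f ∧
      R.Km (S.inRight b h hb hh) ≫ k = g := by
  obtain ⟨t, h1, h2⟩ := DP.po_desc (glue_isPushout S b h hb hh) (R.dg f) (R.dg g)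
    (by rw [← dg_Km, ← dg_Km, e])
  obtain ⟨k, rfl⟩ := R.dg_surj (S := S.glue b h hb hh) t
  exact ⟨k, R.dg_inj (by rw [dg_Km, h1]), R.dg_inj (by rw [dg_Km, h2])⟩

/-- The top cell of the globe classified by a map. -/
noncomputable def tp {n : ℕ} (f : R.K (Shape.globe n) ⟶ Y) : (𝒪.G 𝒢 Y).A :=
  DP.top (n := n) (R.dg f)

theorem dim_tp {n : ℕ} (f : R.K (Shape.globe n) ⟶ Y) : (𝒪.G 𝒢 Y).dim (R.tp f) = n + 1 :=
  DP.dim_top _

theorem tp_inj {n : ℕ} {f g : R.K (Shape.globe n) ⟶ Y} (h : R.tp f = R.tp g) : f = g :=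
  R.dg_inj (DP.ext_top (n := n) h)

theorem tp_surj {n : ℕ} (z : (𝒪.G 𝒢 Y).A) (hz : (𝒪.G 𝒢 Y).dim z = n + 1) :
    ∃ f : R.K (Shape.globe n) ⟶ Y, R.tp f = z := by
  obtain ⟨f, hf⟩ := R.dg_surj (S := Shape.globe n) (DP.ofCell z hz)
  exact ⟨f, by rw [tp, hf]; rfl⟩

theorem d_tp {n : ℕ} (e : Bool) (f : R.K (Shape.globe (n + 1)) ⟶ Y) :
    (𝒪.G 𝒢 Y).d e (R.tp f) = R.tp (R.Km (Shape.faceMap (Nat.lt_succ_self n) e) ≫ f) := by
  rw [← fc_succ e (R.dim_tp f), tp, tp, dg_Km]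
  exact (DP.top_res_face (R.dg f) (Nat.lt_succ_self n) e).symm

theorem d_tp_zero (e : Bool) (f : R.K (Shape.globe 0) ⟶ Y) :
    (𝒪.G 𝒢 Y).d e (R.tp f) = (𝒪.G 𝒢 Y).pt :=
  (𝒪.G 𝒢 Y).eq_pt _ (by rw [AG.dim_d, dim_tp])

variable (p : Bool → NG.Nat 𝒢 NG.idN)

/-- The two universal elements. -/
noncomputable def pi (ε : Bool) (S : Shape) : El (R.K S) S :=
  (toD_surjective (R.K S) S ((R.s S).map (𝒪.pj 𝒢 p ε (R.K S)))).choose

theorem toD_pi (ε : Bool) (S : Shape) : toD (R.pi p ε S) = (R.s S).map (𝒪.pj 𝒢 p ε (R.K S)) :=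
  (toD_surjective (R.K S) S ((R.s S).map (𝒪.pj 𝒢 p ε (R.K S)))).choose_spec

theorem toD_el (ε : Bool) (f : R.K S ⟶ Y) :
    toD (el f (R.pi p ε S)) = (R.dg f).map (𝒪.pj 𝒢 p ε Y) := by
  rw [← toD_map, toD_pi]
  exact DP.ext' fun n c => (𝒪.pj_Gm 𝒢 p ε f _).symm

theorem el_Km (ε : Bool) (φ : S ⟶ T) (f : R.K T ⟶ Y) :
    el (R.Km φ ≫ f) (R.pi p ε S) = rs Y φ (el f (R.pi p ε T)) :=
  toD_injective Y S (by rw [toD_el, dg_Km, ← toD_res, toD_el]; rfl)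

theorem pj_tp (ε : Bool) {n : ℕ} (f : R.K (Shape.globe n) ⟶ Y) :
    𝒪.pj 𝒢 p ε Y (R.tp f) = cl n (el f (R.pi p ε (Shape.globe n))) := by
  rw [← top_toD, toD_el]; rfl

/-- The pre-theory of pairs. -/
noncomputable def preE : PreTheory.{u} where
  arr S T := {x : C.arr S T × (R.K S ⟶ R.K T) //
    ∀ ε, el x.2 (R.pi p ε S) = (R.K T).act x.1 (R.pi p ε T)}
  one S := ⟨(C.one S, 𝟙 _), fun ε => (act_one _ _).symm⟩
  seq x y := ⟨(C.seq x.1.1 y.1.1, x.1.2 ≫ y.1.2), fun ε => by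
    rw [el_comp, x.2, el_act, y.2, act_seq]⟩
  one_seq x := Subtype.ext (Prod.ext (C.one_seq _) (Category.id_comp _))
  seq_one x := Subtype.ext (Prod.ext (C.seq_one _) (Category.comp_id _))
  seq_assoc x y z := Subtype.ext (Prod.ext (C.seq_assoc _ _ _) (Category.assoc _ _ _))
  ofShape φ := ⟨(C.ofShape φ, R.Km φ), fun ε => by
    have := R.el_Km p ε φ (𝟙 _)
    rwa [Category.comp_id] at this⟩
  ofShape_id S := Subtype.ext (Prod.ext (C.ofShape_id S) (R.Km_id S))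
  ofShape_comp φ ψ := Subtype.ext (Prod.ext (C.ofShape_comp φ ψ) (R.Km_comp φ ψ))

/-- The theory of pairs. -/
noncomputable def thE : GlobTheory.{u} where
  toPreTheory := R.preE p
  respectsSums S b h hb hh := by
    have hC := C.respectsSums S b h hb hh
    refine isPushout_of_ex ?_ (fun W x y e => ?_) fun W d d' h1 h2 => ?_
    · rw [← Functor.map_comp, ← Functor.map_comp, glue_w]
    · obtain ⟨o, ho1, ho2⟩ := hC.exists_desc (W := ⟨W.shape⟩) x.1.1 y.1.1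
        (congrArg (fun z => z.1.1) e)
      obtain ⟨k, hk1, hk2⟩ := R.K_desc (hb := hb) (hh := hh) x.1.2 y.1.2
        (congrArg (fun z => z.1.2) e)
      refine ⟨⟨(o, k), fun ε => glue_el_ext _ ?_ ?_⟩, Subtype.ext (Prod.ext ho1 hk1),
        Subtype.ext (Prod.ext ho2 hk2)⟩
      · refine (R.el_Km p ε _ k).symm.trans (Eq.trans ?_ (act_seq _ _ _ _))
        rw [hk1]
        exact (x.2 ε).trans (congrArg (fun o => (R.K W.shape).act o _) ho1.symm)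
      · refine (R.el_Km p ε _ k).symm.trans (Eq.trans ?_ (act_seq _ _ _ _))
        rw [hk2]
        exact (y.2 ε).trans (congrArg (fun o => (R.K W.shape).act o _) ho2.symm)
    · exact Subtype.ext (Prod.ext
        (hC.hom_ext (W := ⟨W.shape⟩) (congrArg (fun z => z.1.1) h1) (congrArg (fun z => z.1.1) h2))
        (R.K_ext (congrArg (fun z => z.1.2) h1) (congrArg (fun z => z.1.2) h2)))

/-- The projection. -/
noncomputable def proj : TheoryMap (R.thE p) C where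
  map x := x.1.1
  map_one _ := rfl
  map_seq _ _ := rfl
  map_ofShape _ := rfl

theorem liftsFillers (hfill : 𝒪.Fill 𝒢 p) : LiftsFillers (R.proj p) := by
  rintro ⟨n, T, hT, x, x', hp⟩ z ⟨hz1, hz2⟩
  have hpar : (𝒪.G 𝒢 (R.K T)).Par (R.tp x.1.2) (R.tp x'.1.2) := by
    refine ⟨by rw [dim_tp, dim_tp], fun e => ?_⟩
    cases n with
    | zero => rw [d_tp_zero, d_tp_zero]
    | succ n =>
      rw [d_tp, d_tp]
      cases e
      · exact congrArg (fun z => R.tp z.1.2) hp.1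
      · exact congrArg (fun z => R.tp z.1.2) hp.2
  obtain ⟨e, he, hy⟩ := hfill T (R.K T) (R.s T) (R.rep T) _ _ hpar (by rw [dim_tp]; omega)
    (by rw [dim_tp]; exact hT) (fun ε => cl (n + 1) ((R.K T).act z (R.pi p ε T)))
    (fun ε => by
      rw [pj_tp, pj_tp, x.2, x'.2]
      refine ⟨rfl, ?_, ?_⟩
      · rw [d_cl, rs, ← act_seq]
        exact congrArg (fun o => cl n ((R.K T).act o _)) hz1
      · rw [d_cl, rs, ← act_seq]
        exact congrArg (fun o => cl n ((R.K T).act o _)) hz2)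
    (fun h => by
      rw [← toD_pi, ← toD_pi] at h
      rw [toD_injective _ _ h])
  obtain ⟨κ, rfl⟩ := R.tp_surj (n := n + 1) e (by rw [he.1, dim_tp])
  refine ⟨⟨(z, κ), fun ε => cl_inj ((R.pj_tp p ε κ).symm.trans (hy ε))⟩, ⟨?_, ?_⟩, rfl⟩
  · exact Subtype.ext (Prod.ext hz1 (R.tp_inj ((R.d_tp false κ).symm.trans he.2.1)))
  · exact Subtype.ext (Prod.ext hz2 (R.tp_inj ((R.d_tp true κ).symm.trans he.2.2)))

end RD

end Crest.Agent.R248
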