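import Crest.Agent.R248.AG

/-!
# R248: globular sets with units, inverses and ternary whiskering; the division lemma
-/

set_option autoImplicit false

namespace Crest.Agent.R248

universe u

open AG

/-- Augmented globular sets with units, inverses and a ternary whiskering `M p γ q`. -/
structure WG extends AG.{u} where
  unit : A → A
  inv : A → A
  M : A → A → A → A
  unit_arr : ∀ x, 1 ≤ dim x → toAG.Arr (unit x) x x
  inv_arr : ∀ e, 2 ≤ dim e → toAG.Arr (inv e) (d true e) (d false e)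
  M_dim : ∀ p γ q, toAG.Cmp p γ q → dim (M p γ q) = dim γ
  M_bot : ∀ p γ q, toAG.Cmp p γ q → dim γ = dim p →
    d false (M p γ q) = d false p ∧ d true (M p γ q) = d true q
  M_d : ∀ p γ q, toAG.Cmp p γ q → dim p < dim γ → ∀ b, d b (M p γ q) = M p (d b γ) q
  assoc : ∀ p g q, toAG.Cmp p g q → dim g = dim p →
    toAG.Step (M p g q) (M (M p g (unit (d false q))) q (unit (d true q)))

namespace WG

/-- Maps preserving the operations. -/
structure Hom (X Y : WG.{u}) extends Map X.toAG Y.toAG where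
  f_unit : ∀ x, 1 ≤ X.dim x → f (X.unit x) = Y.unit (f x)
  f_inv : ∀ e, 2 ≤ X.dim e → f (X.inv e) = Y.inv (f e)
  f_M : ∀ p γ q, X.Cmp p γ q → f (X.M p γ q) = Y.M (f p) (f γ) (f q)

instance (X Y : WG.{u}) : CoeFun (Hom X Y) fun _ => X.A → Y.A := ⟨fun f => f.toMap.f⟩

variable (X : WG.{u})

/-- Iterated whiskering along a list of pairs. -/
def W : List (X.A × X.A) → X.A → X.A
  | [], γ => γ
  | (a, b) :: L, γ => X.M (X.inv a) (W L γ) b

/-- `L` is the list of lower components of a pair of parallel cylinders from `(w, w')` to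
`(y, y')`, trivial in dimensions `≤ μ`. -/
def VS (μ : ℕ) : List (X.A × X.A) → X.A → X.A → X.A → X.A → Prop
  | [], y, y', w, w' => X.dim w = μ ∧ y = w ∧ y' = w' ∧ X.Par w w'
  | (h, h') :: L, y, y', w, w' => 1 ≤ X.dim w ∧ X.Par w w' ∧ X.Par y y' ∧
      VS μ L (X.d false y) (X.d true y) (X.d false w) (X.d true w) ∧
      X.Arr h (X.W L w) y ∧ X.Arr h' (X.W L w') y'

/-- Whiskering by `a, b` and then by their inverses. -/
def Phi (a b γ : X.A) : X.A := X.M (X.inv a) (X.M a γ b) (X.inv b)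

/-- There are cylinders from the identity to `Phi a b`. -/
def Theta : Prop :=
  ∀ a b, 2 ≤ X.dim a → X.dim b = X.dim a →
    (∀ γ, X.Arr γ (X.d true a) (X.d false b) → X.Step γ (X.Phi a b γ)) ∧
    ∀ g g', X.Cmp a g b → X.Par g g' →
      ∃ L, X.VS (X.dim a - 1) L (X.Phi a b g) (X.Phi a b g') g g' ∧
        ∀ γ, X.Arr γ g g' → X.Step (X.W L γ) (X.Phi a b γ)

/-- `Φ` maps the higher cells from `x` to `x'` to higher cells from `y` to `y'`, globularly. -/
def HM (x x' y y' : X.A) (Φ : X.A → X.A) : Prop :=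
  X.dim y = X.dim x ∧ ∀ γ, X.In x x' γ → X.In y y' (Φ γ) ∧ X.dim (Φ γ) = X.dim γ ∧
    (X.dim x + 1 < X.dim γ → ∀ b, X.d b (Φ γ) = Φ (X.d b γ))

/-- `Φ` is bijective on classes of cells `x → x'`. -/
def E0 (x x' y y' : X.A) (Φ : X.A → X.A) : Prop :=
  (∀ a a', X.Arr a x x' → X.Arr a' x x' → X.Step (Φ a) (Φ a') → X.Step a a') ∧
    ∀ b, X.Arr b y y' → ∃ a, X.Arr a x x' ∧ X.Step (Φ a) b

/-- `Φ` is bijective on classes of cells between parallel `k`-cells. -/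
def EK (k : ℕ) (x x' y y' : X.A) (Φ : X.A → X.A) : Prop :=
  (X.dim x = k → X.E0 x x' y y' Φ) ∧
    ∀ g g', X.In x x' g → X.Par g g' → X.dim g = k → X.E0 g g' (Φ g) (Φ g') Φ

variable {X} {Y : WG.{u}}

/-! ### `Step` is an equivalence relation -/

theorem dim_unit {x : X.A} (h : 1 ≤ X.dim x) : X.dim (X.unit x) = X.dim x + 1 :=
  (X.unit_arr x h).1
theorem d_unit {x : X.A} (h : 1 ≤ X.dim x) (b : Bool) : X.d b (X.unit x) = x := by
  rw [(X.unit_arr x h).d_eq]; simp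
theorem dim_inv {e : X.A} (h : 2 ≤ X.dim e) : X.dim (X.inv e) = X.dim e := by
  rw [(X.inv_arr e h).1, X.dim_d]; omega
theorem d_false_inv {e : X.A} (h : 2 ≤ X.dim e) : X.d false (X.inv e) = X.d true e :=
  (X.inv_arr e h).2.1
theorem d_true_inv {e : X.A} (h : 2 ≤ X.dim e) : X.d true (X.inv e) = X.d false e :=
  (X.inv_arr e h).2.2

theorem inv_of_arr {e x y : X.A} (h : X.Arr e x y) (hx : 1 ≤ X.dim x) : X.Arr (X.inv e) y x := by
  have := X.inv_arr e (by rw [h.1]; omega)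
  rwa [h.2.1, h.2.2] at this

theorem cmp_of_arr {p g q x y z v : X.A} (hp : X.Arr p x y) (hg : X.In y z g) (hq : X.Arr q z v)
    (hx : 1 ≤ X.dim x) : X.Cmp p g q :=
  ⟨by rw [hp.1]; omega, by rw [hq.1, hp.dim_tgt, hg.par.1], by rw [hp.2.2, hq.2.1]; exact hg⟩

theorem M_arr {p g q x y z v : X.A} (hp : X.Arr p x y) (hg : X.Arr g y z) (hq : X.Arr q z v)
    (hx : 1 ≤ X.dim x) : X.Arr (X.M p g q) x v := by
  have hc := cmp_of_arr hp hg.isIn hq hx
  have hd : X.dim g = X.dim p := by rw [hg.1, hp.dim_tgt]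
  have := X.M_bot p g q hc hd
  exact ⟨by rw [X.M_dim _ _ _ hc, hd, hp.1], by rw [this.1, hp.2.1], by rw [this.2, hq.2.2]⟩

theorem step_refl {x : X.A} (h : 1 ≤ X.dim x) : X.Step x x := ⟨_, X.unit_arr x h⟩

theorem step_symm {x y : X.A} (h : X.Step x y) : X.Step y x := by
  by_cases hx : X.dim x = 0
  · have hy := X.eq_pt y (by rw [← h.par.1, hx])
    have hx' := X.eq_pt x hx
    rw [hy, hx'] at h ⊢; exact h
  · obtain ⟨e, he⟩ := h
    exact ⟨_, inv_of_arr he (by omega)⟩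

theorem step_trans {x y z : X.A} (h : X.Step x y) (h' : X.Step y z) : X.Step x z := by
  by_cases hx : X.dim x = 0
  · have hy := X.eq_pt y (by rw [← h.par.1, hx])
    have hx' := X.eq_pt x hx
    rw [hx', ← hy]; exact h'
  · obtain ⟨e, he⟩ := h
    obtain ⟨e', he'⟩ := h'
    exact ⟨_, M_arr he he' (X.unit_arr z (by rw [← he'.par.1, ← he.par.1]; omega)) (by omega)⟩

/-! ### Hom-maps -/

theorem HM.arr {x x' y y' : X.A} {Φ : X.A → X.A} (h : X.HM x x' y y' Φ) {a : X.A}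
    (ha : X.Arr a x x') : X.Arr (Φ a) y y' := by
  obtain ⟨h1, h2, -⟩ := h.2 a ha.isIn
  exact h1.arr (by rw [h2, ha.1, h.1])

theorem HM.res {x x' y y' : X.A} {Φ : X.A → X.A} (h : X.HM x x' y y' Φ) {g g' : X.A}
    (hg : X.In x x' g) (hp : X.Par g g') : X.HM g g' (Φ g) (Φ g') Φ := by
  have hd := (h.2 g hg).2.1
  have hgx := hg.1
  have key : ∀ n γ, X.dim γ = X.dim g + 1 + n → X.In g g' γ → X.In (Φ g) (Φ g') (Φ γ) := by
    intro n
    induction n with
    | zero =>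
      intro γ hn hγ
      have ha := hγ.arr hn
      obtain ⟨-, h2, h3⟩ := h.2 γ (hg.trans hγ)
      refine Arr.isIn ⟨by rw [h2, hd, ha.1], ?_, ?_⟩
      · rw [h3 (by omega), ha.2.1]
      · rw [h3 (by omega), ha.2.2]
    | succ n ih =>
      intro γ hn hγ
      obtain ⟨-, h2, h3⟩ := h.2 γ (hg.trans hγ)
      have h4 := fun b => ih (X.d b γ) (by rw [X.dim_d]; omega) (hγ.d (by omega) b)
      refine ⟨by omega, ?_, ?_⟩
      · rw [← fc_d_same false (by omega), h3 (by omega)]; exact (h4 false).2.1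
      · rw [← fc_d_same true (by omega), h3 (by omega)]; exact (h4 true).2.2
  refine ⟨hd, fun γ hγ => ?_⟩
  obtain ⟨-, h2, h3⟩ := h.2 γ (hg.trans hγ)
  have := hγ.1
  exact ⟨key (X.dim γ - X.dim g - 1) γ (by omega) hγ, h2, fun h4 => h3 (by omega)⟩

theorem HM.step {x x' y y' : X.A} {Φ : X.A → X.A} (h : X.HM x x' y y' Φ) {a a' : X.A}
    (ha : X.In x x' a) (hs : X.Step a a') : X.Step (Φ a) (Φ a') := by
  obtain ⟨e, he⟩ := hs
  exact ⟨_, (h.res ha he.par).arr he⟩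

theorem HM.par {x x' y y' : X.A} {Φ : X.A → X.A} (h : X.HM x x' y y' Φ) {a a' : X.A}
    (ha : X.In x x' a) (hp : X.Par a a') : X.Par (Φ a) (Φ a') := by
  have ha' := ha.of_par hp
  have h1 := ha.1
  by_cases hd : X.dim a = X.dim x + 1
  · exact (h.arr (ha.arr hd)).par_arr (h.arr (ha'.arr (hp.1 ▸ hd)))
  · refine ⟨by rw [(h.2 a ha).2.1, (h.2 a' ha').2.1, hp.1], fun b => ?_⟩
    rw [(h.2 a ha).2.2 (by omega), (h.2 a' ha').2.2 (by rw [← hp.1]; omega), hp.2]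

theorem HM.id (x x' : X.A) : X.HM x x' x x' fun γ => γ :=
  ⟨rfl, fun _ h => ⟨h, rfl, fun _ _ => rfl⟩⟩

theorem HM.comp {x x' y y' z z' : X.A} {Φ Ψ : X.A → X.A} (h' : X.HM y y' z z' Ψ)
    (h : X.HM x x' y y' Φ) : X.HM x x' z z' fun γ => Ψ (Φ γ) := by
  refine ⟨h'.1.trans h.1, fun γ hγ => ?_⟩
  obtain ⟨h1, h2, h3⟩ := h.2 γ hγ
  obtain ⟨h4, h5, h6⟩ := h'.2 _ h1
  exact ⟨h4, h5.trans h2, fun hd b => by rw [h6 (by rw [h.1, h2]; exact hd), h3 hd]⟩

theorem hm_M {p q : X.A} (hp : 2 ≤ X.dim p) (hq : X.dim q = X.dim p) :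
    X.HM (X.d true p) (X.d false q) (X.d false p) (X.d true q) fun γ => X.M p γ q := by
  have key : ∀ n γ, X.dim γ = X.dim p + n → X.Cmp p γ q →
      X.In (X.d false p) (X.d true q) (X.M p γ q) := by
    intro n
    induction n with
    | zero =>
      intro γ hn hγ
      have := X.M_bot p γ q hγ hn
      exact Arr.isIn ⟨by rw [X.M_dim _ _ _ hγ, X.dim_d]; omega, this.1, this.2⟩
    | succ n ih =>
      intro γ hn hγ
      have h2 := X.M_dim _ _ _ hγ
      have h3 := X.M_d _ _ _ hγ (by omega)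
      have h4 := fun b => ih (X.d b γ) (by rw [X.dim_d]; omega) (hγ.d (by omega) b)
      have h5 : X.dim (X.d false p) = X.dim p - 1 := X.dim_d _ _
      refine ⟨by omega, ?_, ?_⟩
      · rw [← fc_d_same false (by omega), h3]; exact (h4 false).2.1
      · rw [← fc_d_same true (by omega), h3]; exact (h4 true).2.2
  refine ⟨by rw [X.dim_d, X.dim_d], fun γ hγ => ?_⟩
  have hc : X.Cmp p γ q := ⟨hp, hq, hγ⟩
  have := hc.dim_le
  exact ⟨key (X.dim γ - X.dim p) γ (by omega) hc, X.M_dim _ _ _ hc,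
    fun h => X.M_d _ _ _ hc (by rw [X.dim_d] at h; omega)⟩

theorem hm_M' {p q x y z v : X.A} (hp : X.Arr p x y) (hq : X.Arr q z v) (hx : 1 ≤ X.dim x)
    (hz : X.dim z = X.dim x) : X.HM y z x v fun γ => X.M p γ q := by
  have := hm_M (p := p) (q := q) (by rw [hp.1]; omega) (by rw [hp.1, hq.1, hz])
  rwa [hp.2.1, hp.2.2, hq.2.1, hq.2.2] at this

/-! ### Valid lists -/

theorem VS.par_w {μ : ℕ} : ∀ {L : List (X.A × X.A)} {y y' w w' : X.A},
    X.VS μ L y y' w w' → X.Par w w'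
  | [], _, _, _, _, h => h.2.2.2
  | _ :: _, _, _, _, _, h => h.2.1

theorem VS.par_y {μ : ℕ} : ∀ {L : List (X.A × X.A)} {y y' w w' : X.A},
    X.VS μ L y y' w w' → X.Par y y'
  | [], _, _, _, _, h => by rw [h.2.1, h.2.2.1]; exact h.2.2.2
  | _ :: _, _, _, _, _, h => h.2.2.1

theorem VS.dim_w {μ : ℕ} : ∀ {L : List (X.A × X.A)} {y y' w w' : X.A},
    X.VS μ L y y' w w' → X.dim w = μ + L.length
  | [], _, _, _, _, h => h.1
  | _ :: _, _, _, _, _, h => by
    have h1 := h.2.2.2.1.dim_w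
    have h2 := h.1
    rw [X.dim_d] at h1
    rw [List.length_cons]; omega

theorem VS.hm {μ : ℕ} : ∀ {L : List (X.A × X.A)} {y y' w w' : X.A},
    X.VS μ L y y' w w' → X.HM w w' y y' (X.W L)
  | [], _, _, _, _, h => by rw [h.2.1, h.2.2.1]; exact HM.id _ _
  | (a, b) :: L, y, y', w, w', h => by
    obtain ⟨h1, h2, -, h4, h5, h6⟩ := h
    have k1 := h4.hm.res (arr_self h1).isIn h2
    have k2 := k1.1
    have k3 : X.dim y = X.dim w := by rw [← h5.par.1, k2]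
    have k4 := hm_M' (inv_of_arr h5 (by omega)) h6 (by omega)
      (by rw [← (h4.hm.par (arr_self h1).isIn h2).1, k2, k3])
    exact k4.comp k1

theorem VS.dim_y {μ : ℕ} {L : List (X.A × X.A)} {y y' w w' : X.A} (h : X.VS μ L y y' w w') :
    X.dim y = X.dim w := h.hm.1

/-- The whiskering in `W (c :: L)` is legitimate. -/
theorem VS.cmp {μ : ℕ} {a b : X.A} {L : List (X.A × X.A)} {y y' w w' γ : X.A}
    (h : X.VS μ ((a, b) :: L) y y' w w') (hγ : X.In w w' γ) :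
    2 ≤ X.dim a ∧ X.Cmp (X.inv a) (X.W L γ) b := by
  have hy := h.dim_y
  obtain ⟨h1, h2, -, h4, h5, h6⟩ := h
  have k1 := h4.hm.res (arr_self h1).isIn h2
  have k2 := k1.1
  exact ⟨by rw [h5.1]; omega,
    cmp_of_arr (inv_of_arr h5 (by omega)) (k1.2 γ hγ).1 h6 (by omega)⟩

/-- The image of a list of pairs. -/
def mapL (f : X.A → Y.A) : List (X.A × X.A) → List (Y.A × Y.A)
  | [] => []
  | (a, b) :: L => (f a, f b) :: mapL f L

@[simp] theorem mapL_nil (f : X.A → Y.A) : mapL f [] = [] := rfl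
@[simp] theorem mapL_cons (f : X.A → Y.A) (a b : X.A) (L : List (X.A × X.A)) :
    mapL f ((a, b) :: L) = (f a, f b) :: mapL f L := rfl
@[simp] theorem length_mapL (f : X.A → Y.A) : ∀ L : List (X.A × X.A),
    (mapL f L).length = L.length
  | [] => rfl
  | (_, _) :: L => by rw [mapL_cons, List.length_cons, List.length_cons, length_mapL f L]

theorem VS.map_W (f : Hom X Y) {μ : ℕ} : ∀ {L : List (X.A × X.A)} {y y' w w' γ : X.A},
    X.VS μ L y y' w w' → X.In w w' γ → f (X.W L γ) = Y.W (mapL f L) (f γ)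
  | [], _, _, _, _, _, _, _ => rfl
  | (a, b) :: L, y, y', w, w', γ, h, hγ => by
    obtain ⟨k1, k2⟩ := h.cmp hγ
    have k3 := VS.map_W f h.2.2.2.1 ((arr_self h.1).isIn.trans hγ)
    change f (X.M _ _ _) = Y.M _ _ _
    rw [f.f_M _ _ _ k2, f.f_inv _ k1, k3]

theorem VS.map (f : Hom X Y) {μ : ℕ} : ∀ {L : List (X.A × X.A)} {y y' w w' : X.A},
    X.VS μ L y y' w w' → Y.VS μ (mapL f L) (f y) (f y') (f w) (f w')
  | [], _, _, _, _, h => ⟨by rw [f.dim_f]; exact h.1, by rw [h.2.1], by rw [h.2.2.1],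
      h.2.2.2.map f.toMap⟩
  | (a, b) :: L, y, y', w, w', h => by
    obtain ⟨h1, h2, h3, h4, h5, h6⟩ := h
    refine ⟨by rw [f.dim_f]; exact h1, h2.map f.toMap, h3.map f.toMap, ?_, ?_, ?_⟩
    · rw [f.d_f, f.d_f, f.d_f, f.d_f]; exact h4.map f
    · rw [← h4.map_W f (arr_self h1).isIn]; exact h5.map f.toMap
    · rw [← h4.map_W f ((arr_self h1).of_par h2).isIn]; exact h6.map f.toMap

theorem map_Phi (f : Hom X Y) {a b γ : X.A} (h : X.Cmp a γ b) :
    f (X.Phi a b γ) = Y.Phi (f a) (f b) (f γ) := by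
  have hb : 2 ≤ X.dim b := h.2.1 ▸ h.1
  have h1 : X.Cmp (X.inv a) (X.M a γ b) (X.inv b) :=
    ⟨by rw [dim_inv h.1]; exact h.1, by rw [dim_inv h.1, dim_inv hb, h.2.1], by
      rw [d_true_inv h.1, d_false_inv hb]; exact ((hm_M h.1 h.2.1).2 γ h.2.2).1⟩
  rw [Phi, f.f_M _ _ _ h1, f.f_M _ _ _ h, f.f_inv _ h.1, f.f_inv _ hb]; rfl

theorem hm_Phi {a b : X.A} (ha : 2 ≤ X.dim a) (hb : X.dim b = X.dim a) :
    X.HM (X.d true a) (X.d false b) (X.d true a) (X.d false b) (X.Phi a b) := by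
  have hb' : 2 ≤ X.dim b := hb ▸ ha
  have h1 := hm_M (p := X.inv a) (q := X.inv b) (by rw [dim_inv ha]; exact ha)
    (by rw [dim_inv ha, dim_inv hb', hb])
  rw [d_true_inv ha, d_false_inv hb', d_false_inv ha, d_true_inv hb'] at h1
  exact h1.comp (hm_M ha hb)

/-! ### The division lemma -/

theorem E0.congr {x x' y y' : X.A} {Φ Ψ : X.A → X.A} (h : X.E0 x x' y y' Ψ)
    (e : ∀ a, X.Arr a x x' → X.Step (Ψ a) (Φ a)) : X.E0 x x' y y' Φ := by
  refine ⟨fun a a' ha ha' hs => h.1 a a' ha ha' ?_, fun b hb => ?_⟩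
  · exact step_trans (e a ha) (step_trans hs (step_symm (e a' ha')))
  · obtain ⟨a, ha, hs⟩ := h.2 b hb
    exact ⟨a, ha, step_trans (step_symm (e a ha)) hs⟩

theorem E0.id (x x' : X.A) : X.E0 x x' x x' fun γ => γ :=
  ⟨fun _ _ _ _ h => h, fun b hb => ⟨b, hb, step_refl (by rw [hb.1]; omega)⟩⟩

theorem E0.comp {x x' y y' z z' : X.A} {Φ Ψ : X.A → X.A} (h' : X.E0 y y' z z' Ψ)
    (h : X.E0 x x' y y' Φ) (k' : X.HM y y' z z' Ψ) (k : X.HM x x' y y' Φ) :
    X.E0 x x' z z' fun γ => Ψ (Φ γ) := by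
  refine ⟨fun a a' ha ha' hs => h.1 a a' ha ha' (h'.1 _ _ (k.arr ha) (k.arr ha') hs),
    fun c hc => ?_⟩
  obtain ⟨b, hb, hs⟩ := h'.2 c hc
  obtain ⟨a, ha, hs'⟩ := h.2 b hb
  exact ⟨a, ha, step_trans (k'.step (k.arr ha).isIn hs') hs⟩

theorem E0.two_six {x x' y y' z z' v v' : X.A} {f g h : X.A → X.A}
    (hf : X.HM x x' y y' f) (hg : X.HM y y' z z' g) (hh : X.HM z z' v v' h)
    (e1 : X.E0 x x' z z' fun γ => g (f γ)) (e2 : X.E0 y y' v v' fun γ => h (g γ)) :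
    X.E0 x x' y y' f := by
  refine ⟨fun a a' ha ha' hs => e1.1 a a' ha ha' (hg.step (hf.arr ha).isIn hs), fun b hb => ?_⟩
  obtain ⟨a, ha, hs⟩ := e1.2 _ (hg.arr hb)
  exact ⟨a, ha, e2.1 _ _ (hf.arr ha) hb (hh.step (hg.arr (hf.arr ha)).isIn hs)⟩

theorem EK.id (k : ℕ) (x x' : X.A) : X.EK k x x' x x' fun γ => γ :=
  ⟨fun _ => E0.id _ _, fun _ _ _ _ _ => E0.id _ _⟩

theorem EK.comp {k : ℕ} {x x' y y' z z' : X.A} {Φ Ψ : X.A → X.A} (h' : X.EK k y y' z z' Ψ)
    (h : X.EK k x x' y y' Φ) (k' : X.HM y y' z z' Ψ) (k₁ : X.HM x x' y y' Φ) :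
    X.EK k x x' z z' fun γ => Ψ (Φ γ) := by
  refine ⟨fun hd => (h'.1 (k₁.1.trans hd)).comp (h.1 hd) k' k₁, fun g g' hg hp hd => ?_⟩
  have h1 := k₁.2 g hg
  exact (h'.2 _ _ h1.1 (k₁.par hg hp) (h1.2.1.trans hd)).comp (h.2 g g' hg hp hd)
    (k'.res h1.1 (k₁.par hg hp)) (k₁.res hg hp)

theorem EK.res {k : ℕ} {x x' y y' : X.A} {Φ : X.A → X.A} (h : X.EK k x x' y y' Φ) {g g' : X.A}
    (hg : X.In x x' g) (hp : X.Par g g') : X.EK k g g' (Φ g) (Φ g') Φ :=
  ⟨fun hd => h.2 g g' hg hp hd, fun a a' ha hp' hd => h.2 a a' (hg.trans ha) hp' hd⟩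

theorem EK.of_lt {k : ℕ} {x x' y y' : X.A} {Φ : X.A → X.A} (h : k < X.dim x) :
    X.EK k x x' y y' Φ :=
  ⟨fun hd => by omega, fun g _ hg _ hd => by have := hg.1; omega⟩

variable (X) in
/-- Division at the levels `j, k`. -/
def Div (j k : ℕ) : Prop :=
  ∀ p q, 2 ≤ X.dim p → X.dim q = X.dim p → X.dim p = j + 1 →
    X.EK k (X.d true p) (X.d false q) (X.d false p) (X.d true q) fun γ => X.M p γ q

theorem VS.ek {μ k : ℕ} (hD : ∀ j, μ < j → X.Div j k) :
    ∀ {L : List (X.A × X.A)} {y y' w w' : X.A}, X.VS μ L y y' w w' → X.EK k w w' y y' (X.W L)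
  | [], _, _, _, _, h => by rw [h.2.1, h.2.2.1]; exact EK.id _ _ _
  | (a, b) :: L, y, y', w, w', h => by
    have hw := h.dim_w
    have hy := h.dim_y
    obtain ⟨h1, h2, -, h4, h5, h6⟩ := h
    have k1 := h4.hm.res (arr_self h1).isIn h2
    have k2 := k1.1
    have e1 := (VS.ek hD h4).res (arr_self h1).isIn h2
    have ia := inv_of_arr h5 (by omega)
    have k5 : X.dim (X.W L w') = X.dim y := by
      rw [← (h4.hm.par (arr_self h1).isIn h2).1, k2, hy]
    have k4 := hm_M' ia h6 (by omega) k5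
    have e2 := hD (X.dim w) (by rw [hw, List.length_cons]; omega) (X.inv a) b
      (by rw [ia.1]; omega) (by rw [ia.1, h6.1, k5]) (by rw [ia.1, hy])
    rw [ia.2.1, ia.2.2, h6.2.1, h6.2.2] at e2
    exact e2.comp e1 k4 k1

theorem ek_Phi (hT : X.Theta) {j k : ℕ} (hD : ∀ j', j < j' → X.Div j' k) {a b : X.A}
    (ha : 2 ≤ X.dim a) (hb : X.dim b = X.dim a) (hj : X.dim a = j + 1) :
    X.EK k (X.d true a) (X.d false b) (X.d true a) (X.d false b) (X.Phi a b) := by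
  obtain ⟨h1, h2⟩ := hT a b ha hb
  refine ⟨fun _ => (E0.id _ _).congr h1, fun g g' hg hp hd => ?_⟩
  obtain ⟨L, hL, hs⟩ := h2 g g' ⟨ha, hb, hg⟩ hp
  rw [hj, Nat.add_sub_cancel] at hL
  exact ((hL.ek hD).1 hd).congr hs

theorem div (hT : X.Theta) (k : ℕ) : ∀ n j, k < j + n → X.Div j k := by
  intro n
  induction n with
  | zero => intro j hj p q _ _ hp; exact EK.of_lt (by rw [X.dim_d]; omega)
  | succ n ih =>
    intro j hj p q hp hq hd
    have hD : ∀ j', j < j' → X.Div j' k := fun j' h => ih j' (by omega)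
    have hq' : 2 ≤ X.dim q := hq ▸ hp
    have ip : X.dim (X.inv p) = X.dim p := dim_inv hp
    have iq : X.dim (X.inv q) = X.dim p := (dim_inv hq').trans hq
    have e1 := ek_Phi hT hD hp hq hd
    have e2 := ek_Phi hT hD (a := X.inv p) (b := X.inv q) (by omega) (by omega) (by omega)
    have hf := hm_M hp hq
    have hg := hm_M (p := X.inv p) (q := X.inv q) (by omega) (by omega)
    have hh := hm_M (p := X.inv (X.inv p)) (q := X.inv (X.inv q))
      (by rw [dim_inv (by omega)]; omega)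
      (by rw [dim_inv (e := X.inv q) (by omega), dim_inv (e := X.inv p) (by omega)]; omega)
    rw [d_true_inv (e := X.inv p) (by omega), d_false_inv (e := X.inv q) (by omega),
      d_false_inv (e := X.inv p) (by omega), d_true_inv (e := X.inv q) (by omega)] at hh
    rw [d_true_inv hp, d_false_inv hq'] at e2 hg hh
    rw [d_false_inv hp, d_true_inv hq'] at hg hh
    refine ⟨fun h => E0.two_six hf hg hh (e1.1 h) (e2.1 (by rw [← h, X.dim_d, X.dim_d])),
      fun g g' hg₁ hp₁ hd₁ => ?_⟩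
    have f1 := hf.2 g hg₁
    have f2 := hf.par hg₁ hp₁
    have g1 := hg.2 _ f1.1
    exact E0.two_six (hf.res hg₁ hp₁) (hg.res f1.1 f2) (hh.res g1.1 (hg.par f1.1 f2))
      (e1.2 g g' hg₁ hp₁ hd₁) (e2.2 _ _ f1.1 f2 (f1.2.1.trans hd₁))

theorem Theta.div (hT : X.Theta) (j k : ℕ) : X.Div j k := WG.div hT k (k + 1) j (by omega)

/-- `W L` is essentially surjective. -/
theorem VS.ess (hT : X.Theta) {μ : ℕ} {L : List (X.A × X.A)} {y y' w w' b : X.A}
    (h : X.VS μ L y y' w w') (hb : X.Arr b y y') : ∃ a, X.Arr a w w' ∧ X.Step (X.W L a) b :=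
  ((h.ek fun j _ => hT.div j _).1 rfl).2 b hb

/-- Division in the lowest dimension. -/
theorem M_ess0 (hT : X.Theta) {p q x y z v b : X.A} (hp : X.Arr p x y) (hq : X.Arr q z v)
    (hx : 1 ≤ X.dim x) (hb : X.Arr b x v) : ∃ a, X.Arr a y z ∧ X.Step (X.M p a q) b := by
  have h := (hT.div (X.dim x) (X.dim x) p q (by rw [hp.1]; omega)
    (by rw [hp.1, hq.dim_tgt, hb.par.1]) hp.1).1 (by rw [hp.2.2, hp.par.1])
  rw [hp.2.1, hp.2.2, hq.2.1, hq.2.2] at h
  exact h.2 b hb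

/-- Division in higher dimensions. -/
theorem M_ess (hT : X.Theta) {p q g g' b : X.A} (hc : X.Cmp p g q) (hp : X.Par g g')
    (hb : X.Arr b (X.M p g q) (X.M p g' q)) : ∃ a, X.Arr a g g' ∧ X.Step (X.M p a q) b :=
  ((hT.div (X.dim p - 1) (X.dim g) p q hc.1 hc.2.1 (by have := hc.1; omega)).2 g g' hc.2.2 hp
    rfl).2 b hb

/-- Division for the last argument. -/
theorem M_last (hT : X.Theta) {p g x y z v b : X.A} (hp : X.Arr p x y) (hg : X.Arr g y z)
    (hx : 1 ≤ X.dim x) (hb : X.Arr b x v) : ∃ q, X.Arr q z v ∧ X.Step (X.M p g q) b := by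
  have hz : 1 ≤ X.dim z := by rw [← hg.par.1, ← hp.par.1]; exact hx
  have hv : 1 ≤ X.dim v := by rw [← hb.par.1]; exact hx
  obtain ⟨q, hq, hs⟩ := M_ess0 hT (M_arr hp hg (X.unit_arr z hz) hx) (X.unit_arr v hv) hx hb
  refine ⟨q, hq, step_trans ?_ hs⟩
  have := X.assoc p g q (cmp_of_arr hp hg.isIn hq hx) (by rw [hg.1, hp.dim_tgt])
  rwa [hq.2.1, hq.2.2] at this

end WG

end Crest.Agent.R248
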